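import Vale.Agent.P032.H928.S1

/-!
# P032: the circle about a two-pair point with four coloured neighbours of its own palette

World: `Irr U T`, no complementary non-opposite plain palettes on `S(z)` (`NoComp`, written out).
`z` a two-pair point such that all the points of `S(z)` with at least four colours have the palette
of `z`.  Then one of the two pairs of `z` has no plain ends (`noends_of_J`), and hence `z` is full
(`full_of_J`, from `FullX`: the last step, for a centre whose first pair has no plain ends).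
-/

open Set Filter Topology Metric

noncomputable section

namespace Vale.Agent.P032.H928

open Vale.Agent.P032.Six Vale.Agent.P032.S5.H767

variable {U : Fin 6 → Set ℂ} {T : ℂ → Set (Fin 6)} {z v q : ℂ} {a b c d e f : Fin 6}

/-- complementary plain ends on the circle of `z` -/
theorem no_ends (h : Irr U T)
    (hN : ∀ v q, dist v z = 1 → dist q z = 1 → (T v).ncard = 3 → T q = (T v)ᶜ → v + q = 2 * z)
    (hz : DPt T z a b c d) (nd : [a, b, c, d, e, f].Nodup)
    (hv : dist v z = 1) (hq : dist q z = 1) (hvT : T v = {a, b, e}) (hqT : T q = {c, d, f}) :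
    False := by
  have hn := nd
  simp only [List.nodup_cons, List.mem_cons, List.not_mem_nil, or_false, not_or, List.nodup_nil,
    and_true, not_false_eq_true] at hn
  obtain ⟨⟨ab, ac, ad, ae, af⟩, ⟨bc, bd, be, bf⟩, ⟨cd, ce, cf⟩, ⟨de, df⟩, ef⟩ := hn
  have hall : ∀ x : Fin 6, x = a ∨ x = b ∨ x = c ∨ x = d ∨ x = e ∨ x = f := by
    intro x
    have hc : [a, b, c, d, e, f].toFinset = Finset.univ := by
      refine Finset.eq_univ_of_card _ ?_
      rw [List.toFinset_card_of_nodup nd]; rfl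
    have := Finset.mem_univ x
    rw [← hc] at this
    simpa using this
  have h3 : (T v).ncard = 3 := by
    rw [hvT]
    rw [Set.ncard_insert_of_notMem (by simp [ab, ae]), Set.ncard_pair be]
  have hc : T q = (T v)ᶜ := by
    rw [hvT, hqT]
    ext x
    simp only [mem_insert_iff, mem_singleton_iff, mem_compl_iff, not_or]
    constructor
    · rintro (rfl | rfl | rfl)
      · exact ⟨fun h => ac h.symm, fun h => bc h.symm, ce⟩
      · exact ⟨fun h => ad h.symm, fun h => bd h.symm, de⟩
      · exact ⟨fun h => af h.symm, fun h => bf h.symm, fun h => ef h.symm⟩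
    · rintro ⟨h1, h2, h3⟩
      rcases hall x with h | h | h | h | h | h
      · exact absurd h h1
      · exact absurd h h2
      · exact Or.inl h
      · exact Or.inr (Or.inl h)
      · exact absurd h h3
      · exact Or.inr (Or.inr h)
  have h2 := hN v q hv hq h3 hc
  have hq2 : q = 2 * z - v := by linear_combination h2
  refine h.anti hz hv (h.sub v (by rw [hvT]; simp)) (h.sub v (by rw [hvT]; simp)) ?_ ?_
  · rw [← hq2]; exact h.sub q (by rw [hqT]; simp)
  · rw [← hq2]; exact h.sub q (by rw [hqT]; simp)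

/-- **one of the two pairs has no plain ends** -/
theorem noends_of_J (h : Irr U T)
    (hN : ∀ v q, dist v z = 1 → dist q z = 1 → (T v).ncard = 3 → T q = (T v)ᶜ → v + q = 2 * z)
    (hz : DPt T z a b c d) (nd : [a, b, c, d, e, f].Nodup)
    (hJ : ∀ v, dist v z = 1 → 4 ≤ (T v).ncard → T v = T z) :
    (∀ v, dist v z = 1 → T v ≠ {a, b, e} ∧ T v ≠ {a, b, f}) ∨
      (∀ v, dist v z = 1 → T v ≠ {c, d, e} ∧ T v ≠ {c, d, f}) := by
  have nd' : [a, b, c, d, f, e].Nodup := by
    have : [a, b, c, d, f, e].Perm [a, b, c, d, e, f] := by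
      refine List.Perm.cons _ (List.Perm.cons _ (List.Perm.cons _ (List.Perm.cons _ ?_)))
      exact List.Perm.swap _ _ _
    exact this.nodup_iff.2 nd
  by_contra hcon
  rw [not_or] at hcon
  obtain ⟨h1, h2⟩ := hcon
  -- an X-plain end and a Y-plain end
  have hX : (∃ v, dist v z = 1 ∧ T v = {a, b, e}) ∨ (∃ v, dist v z = 1 ∧ T v = {a, b, f}) := by
    by_contra h3
    rw [not_or] at h3
    exact h1 fun v hv => ⟨fun h4 => h3.1 ⟨v, hv, h4⟩, fun h4 => h3.2 ⟨v, hv, h4⟩⟩
  have hY : (∃ v, dist v z = 1 ∧ T v = {c, d, e}) ∨ (∃ v, dist v z = 1 ∧ T v = {c, d, f}) := by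
    by_contra h3
    rw [not_or] at h3
    exact h2 fun v hv => ⟨fun h4 => h3.1 ⟨v, hv, h4⟩, fun h4 => h3.2 ⟨v, hv, h4⟩⟩
  -- all the plain ends carry the same free colour: impossible
  have key : ∀ e f : Fin 6, [a, b, c, d, e, f].Nodup →
      (∃ v, dist v z = 1 ∧ T v = {a, b, e}) → (∃ v, dist v z = 1 ∧ T v = {c, d, e}) →
      [a, b, c, d, f, e].Nodup → False := by
    intro e f nd ⟨v, hv, hvT⟩ ⟨q, hq, hqT⟩ nd'
    refine DPt.s1 h hz nd hJ fun w hw => ⟨fun h3 => ?_, fun h3 => ?_⟩
    · exact no_ends h hN hz nd' hw hq h3 hqT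
    · exact no_ends h hN hz nd hv hw hvT h3
  rcases hX with ⟨v, hv, hvT⟩ | ⟨v, hv, hvT⟩ <;> rcases hY with ⟨q, hq, hqT⟩ | ⟨q, hq, hqT⟩
  · exact key e f nd ⟨v, hv, hvT⟩ ⟨q, hq, hqT⟩ nd'
  · exact no_ends h hN hz nd hv hq hvT hqT
  · exact no_ends h hN hz nd' hv hq hvT hqT
  · exact key f e nd' ⟨v, hv, hvT⟩ ⟨q, hq, hqT⟩ nd

/-- the last step: a two-pair point whose first pair has no plain ends, with only four coloured
neighbours of its own palette, is full -/
def FullX (T : ℂ → Set (Fin 6)) (z : ℂ) : Prop :=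
  ∀ a b c d e f : Fin 6, DPt T z a b c d → [a, b, c, d, e, f].Nodup →
    (∀ v, dist v z = 1 → 4 ≤ (T v).ncard → T v = T z) →
    (∀ v, dist v z = 1 → T v ≠ {a, b, e} ∧ T v ≠ {a, b, f}) → Full T z

/-- **a two-pair point whose four coloured neighbours have its palette is full** -/
theorem full_of_J (h : Irr U T)
    (hN : ∀ z, (T z).ncard = 4 → ∀ v q, dist v z = 1 → dist q z = 1 → (T v).ncard = 3 →
      T q = (T v)ᶜ → v + q = 2 * z)
    (hF : FullX T z) (hz : ∃ a b c d, DPt T z a b c d)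
    (hJ : ∀ v, dist v z = 1 → 4 ≤ (T v).ncard → T v = T z) : Full T z := by
  obtain ⟨a, b, c, d, hz⟩ := hz
  obtain ⟨e, f, nd⟩ := hz.exists_nodup
  have h4 : (T z).ncard = 4 := by
    rw [hz.pal]
    rw [Set.ncard_insert_of_notMem (by simp [hz.ab, hz.ac, hz.ad]),
      Set.ncard_insert_of_notMem (by simp [hz.bc, hz.bd]), Set.ncard_pair hz.cd]
  rcases noends_of_J h (hN z h4) hz nd hJ with h1 | h1
  · exact hF a b c d e f hz nd hJ h1
  · refine hF c d a b e f hz.swap ?_ hJ h1
    have hn := nd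
    simp only [List.nodup_cons, List.mem_cons, List.not_mem_nil, or_false, not_or,
      List.nodup_nil, and_true, not_false_eq_true] at hn ⊢
    obtain ⟨⟨ab, ac, ad, ae, af⟩, ⟨bc, bd, be, bf⟩, ⟨cd, ce, cf⟩, ⟨de, df⟩, ef⟩ := hn
    exact ⟨⟨cd, fun h => ac h.symm, fun h => bc h.symm, ce, cf⟩,
      ⟨fun h => ad h.symm, fun h => bd h.symm, de, df⟩, ⟨ab, ae, af⟩, ⟨be, bf⟩, ef⟩

end Vale.Agent.P032.H928
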