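import Vale.Agent.P032.H928.Ends
import Vale.Agent.P032.H961.QF

/-!
# P032: plain ends of both free letters, over the structure `QF0`
-/

open Set Filter Topology Metric

noncomputable section

namespace Vale.Agent.P032.H961

open Vale.Agent.P032.Six Vale.Agent.P032.S5.H767 Vale.Agent.P032.H460 Vale.Agent.P032.H928

variable {U : Fin 6 → Set ℂ} {T : ℂ → Set (Fin 6)} {V V1 V2 : ℂ} {a b m n e f : Fin 6}

/-- a colour outside `a, b, m, e, f` -/
theorem six_cases928 (h : [a, b, m, n, e, f].Nodup) (i : Fin 6) :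
    i = a ∨ i = b ∨ i = m ∨ i = n ∨ i = e ∨ i = f := by
  by_contra hcon
  simp only [not_or] at hcon
  have h1 : ({a, b, m, n, e, f} : Finset (Fin 6)).card = 6 := by
    simp only [List.nodup_cons, List.mem_cons, List.not_mem_nil, or_false, not_or,
      List.nodup_nil, and_true, not_false_eq_true] at h
    obtain ⟨⟨hab, hac, had, hae, haf⟩, ⟨hbc, hbd, hbe, hbf⟩, ⟨hcd, hce, hcf⟩, ⟨hde, hdf⟩, hef⟩ := h
    rw [Finset.card_insert_of_notMem, Finset.card_insert_of_notMem, Finset.card_insert_of_notMem,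
      Finset.card_insert_of_notMem, Finset.card_pair hef] <;>
      simp [hab, hac, had, hae, haf, hbc, hbd, hbe, hbf, hcd, hce, hcf, hde, hdf]
  have h2 : ({a, b, m, n, e, f} : Finset (Fin 6)) = Finset.univ :=
    Finset.eq_univ_of_card _ (by rw [h1]; rfl)
  have h3 := Finset.mem_univ i
  rw [← h2] at h3
  simp only [Finset.mem_insert, Finset.mem_singleton] at h3
  tauto

theorem QF0.jk1_928 (h : QF0 T V a b m n e f V1 V2) : JKEnd T V a b m n e f V1 := by
  obtain ⟨g, hg | hg⟩ := h.lk1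
  · rcases six_cases928 h.nd g with rfl | rfl | rfl | rfl | rfl | rfl
    · exact absurd rfl hg.ad
    · exact absurd rfl hg.cd
    · exact absurd rfl hg.bd
    · left
      rw [hg.pal, h.pal]
      ext i; simp only [mem_insert_iff, mem_singleton_iff]; tauto
    · exact Or.inr ⟨a, b, m, g, Or.inl ⟨rfl, rfl⟩, Or.inl rfl, Or.inl rfl, hg⟩
    · exact Or.inr ⟨a, b, m, g, Or.inl ⟨rfl, rfl⟩, Or.inl rfl, Or.inr rfl, hg⟩
  · rcases six_cases928 h.nd g with rfl | rfl | rfl | rfl | rfl | rfl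
    · exact absurd rfl hg.cd
    · exact absurd rfl hg.bd
    · left
      rw [hg.pal, h.pal]
      ext i; simp only [mem_insert_iff, mem_singleton_iff]; tauto
    · exact absurd rfl hg.ad
    · exact Or.inr ⟨b, a, n, g, Or.inr ⟨rfl, rfl⟩, Or.inr rfl, Or.inl rfl, hg.swap12⟩
    · exact Or.inr ⟨b, a, n, g, Or.inr ⟨rfl, rfl⟩, Or.inr rfl, Or.inr rfl, hg.swap12⟩

theorem _root_.Vale.Agent.P032.H460.JKEnd.swap34_928 {v : ℂ}
    (h : JKEnd T V a b n m e f v) : JKEnd T V a b m n e f v := by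
  rcases h with h | ⟨x, x', y, g, hx, hy, hg, hD⟩
  · exact Or.inl h
  · exact Or.inr ⟨x, x', y, g, hx, hy.symm, hg, hD⟩

theorem QF0.jk2_928 (h : QF0 T V a b m n e f V1 V2) : JKEnd T V a b m n e f V2 :=
  JKEnd.swap34_928 h.mirror.jk1_928

/-- the arc data of `par_quasi460` -/
theorem QF0.data928 (h : QF0 T V a b m n e f V1 V2) : ∃ u0 α : ℝ, 0 < α ∧ α < 1 ∧
    (∀ t ∈ Ioo (0 : ℝ) α, T (pt V (u0 + t)) = {a, b}) ∧
    (∀ q, dist q V = 1 → T q = {a, b} → ∃ t ∈ Ioo (0 : ℝ) α, q = pt V (u0 + t)) ∧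
    JKEnd T V a b m n e f (pt V u0) ∧ JKEnd T V a b m n e f (pt V (u0 + α)) ∧
    (∀ y, dist y V = 1 → 4 ≤ (T y).ncard → y = pt V u0 ∨ y = pt V (u0 + α)) ∧
    ({pt V u0, pt V (u0 + α)} : Set ℂ) = {V1, V2} := by
  obtain ⟨s, t, h1, h2, h3, h4, h5⟩ := h.arc
  have hst : s + (t - s) = t := by ring
  have hends : (pt V s = V1 ∧ pt V (s + (t - s)) = V2) ∨
      (pt V s = V2 ∧ pt V (s + (t - s)) = V1) := by
    rw [hst]
    rcases h3 with ⟨h6, h7⟩ | ⟨h6, h7⟩
    · exact Or.inr ⟨h7.symm, h6.symm⟩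
    · exact Or.inl ⟨h6.symm, h7.symm⟩
  have hab : a ≠ b := h.dpt.ab
  have hT1 := h.ord1
  have hT2 := h.ord2
  refine ⟨s, t - s, by linarith, by linarith, fun r hr => h4 _ ⟨by linarith [hr.1], by
    linarith [hr.2]⟩, fun q hq hqT => ?_, ?_, ?_, fun y hy hy4 => ?_, ?_⟩
  · obtain ⟨r, hr, hrq⟩ := h5 q hq (by rw [hqT]; exact Or.inl rfl) (by rw [hqT]; exact Or.inr rfl)
    have hne : ∀ x, (T x).ncard = 4 → q ≠ x := by
      rintro x hx rfl
      rw [hqT, Set.ncard_pair hab] at hx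
      omega
    refine ⟨r - s, ⟨?_, ?_⟩, ?_⟩
    · rcases lt_or_eq_of_le hr.1 with h6 | h6
      · linarith
      · exfalso
        rw [← h6] at hrq
        rcases hends with ⟨h7, -⟩ | ⟨h7, -⟩
        · exact hne V1 hT1 (by rw [← hrq]; exact h7)
        · exact hne V2 hT2 (by rw [← hrq]; exact h7)
    · rcases lt_or_eq_of_le hr.2 with h6 | h6
      · linarith
      · exfalso
        rw [h6, ← hst] at hrq
        rcases hends with ⟨-, h7⟩ | ⟨-, h7⟩
        · exact hne V2 hT2 (by rw [← hrq]; exact h7)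
        · exact hne V1 hT1 (by rw [← hrq]; exact h7)
    · rw [← hrq]
      congr 1; ring
  · rcases hends with ⟨h7, -⟩ | ⟨h7, -⟩
    · rw [h7]; exact h.jk1_928
    · rw [h7]; exact h.jk2_928
  · rcases hends with ⟨-, h7⟩ | ⟨-, h7⟩
    · rw [h7]; exact h.jk2_928
    · rw [h7]; exact h.jk1_928
  · rcases hends with ⟨h7, h8⟩ | ⟨h7, h8⟩
    · rw [h7, h8]; exact h.ord y hy hy4
    · rw [h7, h8]; exact (h.ord y hy hy4).symm
  · rcases hends with ⟨h7, h8⟩ | ⟨h7, h8⟩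
    · rw [h7, h8]
    · rw [h7, h8, Set.pair_comm]

/-- **(P2) over `QF0`: plain `mn`-ends with both free letters.** -/
theorem QF0.ends928 (hI : Irr U T) (h : QF0 T V a b m n e f V1 V2) :
    (∃ y ∈ closure (Ex T V {m, n}), T y = {m, n, e}) ∧
      ∃ y ∈ closure (Ex T V {m, n}), T y = {m, n, f} := by
  obtain ⟨u0, α, h1, h2, h3, h4, h5, h6, h7, -⟩ := h.data928
  exact hI.quasi_ends928 h.dpt h.nd h1 h2 h3 h4 h5 h6 h7

end Vale.Agent.P032.H961
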