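import Vale.Agent.P032.H460.ParQ
import Vale.Agent.P032.H353.Plain
import Vale.Agent.P032.S5.H825.Share

/-!
# P032: plain ends of both free colours at a quasi-full two-pair point, the case K_e | K_e

`not_par928` : if the circle `S(z)` is covered by closed sets `A, E, F, C` [`a ∈ T` on `A`, `e ∈ T` on
`E`, `f ∈ T` on `F`, `c ∈ T` on `C`] whose nerve is contained in the path `A - E - F - C`, then
`Par T z e f` is false: the cover extends to the disc without a triple point.

`Irr.plain_end928` : `z` two-pair with the pairs `{a, b}`, `{c, d}`; the exact `ab`-arcs form one arc of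
length less than `60` degrees whose ends are links of type `K_e` (colour `e`, not `f`), and there is no
other point of order at least four on `S(z)`.  Then a closed exact `cd`-arc has a plain end `{c, d, e}`.
-/

open Set Filter Topology Metric

noncomputable section

namespace Vale.Agent.P032.H928

open Vale.Agent.P032.Six Vale.Agent.P032.S5.H767 Vale.Agent.P032.H695 Vale.Agent.P032.H460

variable {U : Fin 6 → Set ℂ} {T : ℂ → Set (Fin 6)} {z : ℂ} {a b c d e f : Fin 6}

/-- the balance of two sets -/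
def bal (P Q : Set ℂ) (y : ℂ) : ℝ := infDist y P - infDist y Q

theorem continuous_bal (P Q : Set ℂ) : Continuous (bal P Q) :=
  (continuous_infDist_pt P).sub (continuous_infDist_pt Q)

theorem bal_le {P Q : Set ℂ} (hP : IsClosed P) (hPn : P.Nonempty) {y : ℂ} (h : y ∈ P ∨ y ∈ Q)
    (hb : bal P Q y ≤ 0) : y ∈ P := by
  rcases h with h | h
  · exact h
  · have h1 : infDist y Q = 0 := infDist_zero_of_mem h
    have h2 : infDist y P = 0 := by
      have h3 := infDist_nonneg (x := y) (s := P)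
      unfold bal at hb
      linarith
    exact (hP.mem_iff_infDist_zero hPn).2 h2

theorem bal_ge {P Q : Set ℂ} (hQ : IsClosed Q) (hQn : Q.Nonempty) {y : ℂ} (h : y ∈ P ∨ y ∈ Q)
    (hb : 0 ≤ bal P Q y) : y ∈ Q := by
  rcases h with h | h
  · have h1 : infDist y P = 0 := infDist_zero_of_mem h
    have h2 : infDist y Q = 0 := by
      have h3 := infDist_nonneg (x := y) (s := Q)
      unfold bal at hb
      linarith
    exact (hQ.mem_iff_infDist_zero hQn).2 h2
  · exact h

theorem bal_mono {P P' Q Q' : Set ℂ} (hP : P ⊆ P') (hPn : P.Nonempty) (hQ : Q' ⊆ Q)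
    (hQn : Q'.Nonempty) (y : ℂ) : bal P' Q' y ≤ bal P Q y := by
  have h1 := infDist_le_infDist_of_subset hP hPn (x := y)
  have h2 := infDist_le_infDist_of_subset hQ hQn (x := y)
  unfold bal
  linarith

/-- the four labels in the open disc, from three continuous functions -/
def lab4 (a e f c : Fin 6) (G₁ G₂ G₃ : ℂ → ℝ) (w : ℂ) : Set (Fin 6) :=
  {i | (i = a ∧ G₁ w ≤ 0) ∨ (i = e ∧ 0 ≤ G₁ w ∧ G₂ w ≤ 0) ∨ (i = f ∧ 0 ≤ G₂ w ∧ G₃ w ≤ 0) ∨
    (i = c ∧ 0 ≤ G₃ w)}

theorem lab4_closed {a e f c : Fin 6} {G₁ G₂ G₃ : ℂ → ℝ} (h1 : Continuous G₁) (h2 : Continuous G₂)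
    (h3 : Continuous G₃) (i : Fin 6) : IsClosed {w | i ∈ lab4 a e f c G₁ G₂ G₃ w} := by
  have k : ∀ (p : Prop) {s : Set ℂ}, IsClosed s → IsClosed {w | p ∧ w ∈ s} := by
    intro p s hs
    by_cases hp : p
    · simpa only [hp, true_and, ofPred_mem_eq] using hs
    · simp only [hp, false_and]
      exact isClosed_empty
  have e1 : {w | i ∈ lab4 a e f c G₁ G₂ G₃ w} =
      {w | i = a ∧ w ∈ {w | G₁ w ≤ 0}} ∪ ({w | i = e ∧ w ∈ {w | 0 ≤ G₁ w} ∩ {w | G₂ w ≤ 0}} ∪
        ({w | i = f ∧ w ∈ {w | 0 ≤ G₂ w} ∩ {w | G₃ w ≤ 0}} ∪ {w | i = c ∧ w ∈ {w | 0 ≤ G₃ w}})) := by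
    ext w
    simp only [lab4, mem_ofPred_eq, mem_union, mem_inter_iff]
  rw [e1]
  exact (k _ (isClosed_le h1 continuous_const)).union
    ((k _ ((isClosed_le continuous_const h1).inter (isClosed_le h2 continuous_const))).union
      ((k _ ((isClosed_le continuous_const h2).inter (isClosed_le h3 continuous_const))).union
        (k _ (isClosed_le continuous_const h3))))

/-- **No parity for a cover with a path as nerve.** -/
theorem not_par928 (hcl : ∀ i, IsClosed {x | i ∈ T x}) (hne : ∀ x, (T x).Nonempty) {A C : Set ℂ}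
    (hA : IsClosed A) (hC : IsClosed C) (hAn : A.Nonempty) (hCn : C.Nonempty)
    (hAa : ∀ y ∈ A, a ∈ T y) (hCc : ∀ y ∈ C, c ∈ T y) (hae : a ≠ e) (haf : a ≠ f)
    (hce : c ≠ e) (hcf : c ≠ f) (hef : e ≠ f)
    (hcov : ∀ y, dist y z = 1 → y ∈ A ∨ e ∈ T y ∨ f ∈ T y ∨ y ∈ C) (hAF : ∀ y ∈ A, f ∉ T y)
    (hCE : ∀ y ∈ C, e ∉ T y) (hAC : ∀ y ∈ A, y ∉ C) : ¬ Par T z e f := by
  intro hpar
  set E : Set ℂ := {y | dist y z = 1 ∧ e ∈ T y} with hE
  set F : Set ℂ := {y | dist y z = 1 ∧ f ∈ T y} with hF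
  have hsph : IsClosed {y : ℂ | dist y z = 1} :=
    isClosed_eq (continuous_id.dist continuous_const) continuous_const
  have hEc : IsClosed E := hsph.inter (hcl e)
  have hFc : IsClosed F := hsph.inter (hcl f)
  set P₁ : Set ℂ := A with hP₁
  set P₂ : Set ℂ := A ∪ E with hP₂
  set P₃ : Set ℂ := A ∪ E ∪ F with hP₃
  set Q₃ : Set ℂ := C with hQ₃
  set Q₂ : Set ℂ := F ∪ C with hQ₂
  set Q₁ : Set ℂ := E ∪ (F ∪ C) with hQ₁
  have nP₂ : P₂.Nonempty := hAn.mono subset_union_left
  have nP₃ : P₃.Nonempty := nP₂.mono subset_union_left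
  have nQ₂ : Q₂.Nonempty := hCn.mono subset_union_right
  have nQ₁ : Q₁.Nonempty := nQ₂.mono subset_union_right
  have cP₂ : IsClosed P₂ := hA.union hEc
  have cP₃ : IsClosed P₃ := cP₂.union hFc
  have cQ₂ : IsClosed Q₂ := hFc.union hC
  have cQ₁ : IsClosed Q₁ := hEc.union cQ₂
  have m12 : ∀ y, bal P₂ Q₂ y ≤ bal P₁ Q₁ y :=
    bal_mono subset_union_left hAn subset_union_right nQ₂
  have m23 : ∀ y, bal P₃ Q₃ y ≤ bal P₂ Q₂ y :=
    bal_mono subset_union_left nP₂ subset_union_right hCn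
  -- the functions
  set G₁ : ℂ → ℝ := fun w => bal P₁ Q₁ w + (1 - dist w z) with hG₁
  set G₂ : ℂ → ℝ := fun w => bal P₂ Q₂ w with hG₂
  set G₃ : ℂ → ℝ := fun w => bal P₃ Q₃ w - (1 - dist w z) with hG₃
  have hdc : Continuous fun w : ℂ => (1 : ℝ) - dist w z :=
    continuous_const.sub (continuous_id.dist continuous_const)
  have c1 : Continuous G₁ := (continuous_bal _ _).add hdc
  have c2 : Continuous G₂ := continuous_bal _ _
  have c3 : Continuous G₃ := (continuous_bal _ _).sub hdc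
  have o12 : ∀ w, dist w z < 1 → G₂ w < G₁ w := by
    intro w hw
    have := m12 w
    simp only [hG₁, hG₂]
    linarith
  have o23 : ∀ w, dist w z < 1 → G₃ w < G₂ w := by
    intro w hw
    have := m23 w
    simp only [hG₃, hG₂]
    linarith
  -- the circle
  have s1 : ∀ y, dist y z = 1 → y ∈ P₁ ∨ y ∈ Q₁ := by
    intro y hy
    rcases hcov y hy with h | h | h | h
    · exact Or.inl h
    · exact Or.inr (Or.inl ⟨hy, h⟩)
    · exact Or.inr (Or.inr (Or.inl ⟨hy, h⟩))
    · exact Or.inr (Or.inr (Or.inr h))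
  have s2 : ∀ y, dist y z = 1 → y ∈ P₂ ∨ y ∈ Q₂ := by
    intro y hy
    rcases hcov y hy with h | h | h | h
    · exact Or.inl (Or.inl h)
    · exact Or.inl (Or.inr ⟨hy, h⟩)
    · exact Or.inr (Or.inl ⟨hy, h⟩)
    · exact Or.inr (Or.inr h)
  have s3 : ∀ y, dist y z = 1 → y ∈ P₃ ∨ y ∈ Q₃ := by
    intro y hy
    rcases hcov y hy with h | h | h | h
    · exact Or.inl (Or.inl (Or.inl h))
    · exact Or.inl (Or.inl (Or.inr ⟨hy, h⟩))
    · exact Or.inl (Or.inr ⟨hy, h⟩)
    · exact Or.inr h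
  have gA : ∀ y, dist y z = 1 → G₁ y ≤ 0 → y ∈ A := by
    intro y hy h
    refine bal_le hA hAn (s1 y hy) ?_
    simp only [hG₁, hy] at h
    linarith
  have gC : ∀ y, dist y z = 1 → 0 ≤ G₃ y → y ∈ C := by
    intro y hy h
    refine bal_ge hC hCn (s3 y hy) ?_
    simp only [hG₃, hy] at h
    linarith
  have gE : ∀ y, dist y z = 1 → 0 ≤ G₁ y → G₂ y ≤ 0 → e ∈ T y := by
    intro y hy h h'
    have h1 : y ∈ Q₁ := by
      refine bal_ge cQ₁ nQ₁ (s1 y hy) ?_
      simp only [hG₁, hy] at h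
      linarith
    have h2 : y ∈ P₂ := bal_le cP₂ nP₂ (s2 y hy) h'
    rcases h2 with h2 | h2
    · rcases h1 with h1 | h1 | h1
      · exact h1.2
      · exact absurd h1.2 (hAF y h2)
      · exact absurd h1 (hAC y h2)
    · exact h2.2
  have gF : ∀ y, dist y z = 1 → 0 ≤ G₂ y → G₃ y ≤ 0 → f ∈ T y := by
    intro y hy h h'
    have h1 : y ∈ Q₂ := bal_ge cQ₂ nQ₂ (s2 y hy) h
    have h2 : y ∈ P₃ := by
      refine bal_le cP₃ nP₃ (s3 y hy) ?_
      simp only [hG₃, hy] at h'
      linarith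
    rcases h1 with h1 | h1
    · exact h1.2
    · rcases h2 with (h2 | h2) | h2
      · exact absurd h1 (hAC y h2)
      · exact absurd h2.2 (hCE y h1)
      · exact h2.2
  have gall : ∀ y, dist y z = 1 → lab4 a e f c G₁ G₂ G₃ y ⊆ T y := by
    rintro y hy i (⟨rfl, h⟩ | ⟨rfl, h, h'⟩ | ⟨rfl, h, h'⟩ | ⟨rfl, h⟩)
    · exact hAa y (gA y hy h)
    · exact gE y hy h h'
    · exact gF y hy h h'
    · exact hCc y (gC y hy h)
  -- the extension
  classical
  set T' : ℂ → Set (Fin 6) := fun w => if dist w z < 1 then lab4 a e f c G₁ G₂ G₃ w else T w with hT'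
  have tin : ∀ w, dist w z < 1 → T' w = lab4 a e f c G₁ G₂ G₃ w := fun w hw => by
    simp only [hT', if_pos hw]
  have tout : ∀ w, ¬ dist w z < 1 → T' w = T w := fun w hw => by
    simp only [hT', if_neg hw]
  have hcl' : ∀ i, IsClosed {x | i ∈ T' x} := by
    intro i
    have e1 : {x | i ∈ T' x} = ({x | i ∈ T x} ∩ {x | 1 ≤ dist x z}) ∪
        ({x | i ∈ lab4 a e f c G₁ G₂ G₃ x} ∩ {x | dist x z ≤ 1}) := by
      ext x
      simp only [mem_ofPred_eq, mem_union, mem_inter_iff]
      constructor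
      · intro hx
        by_cases h1 : dist x z < 1
        · rw [tin x h1] at hx
          exact Or.inr ⟨hx, h1.le⟩
        · rw [tout x h1] at hx
          exact Or.inl ⟨hx, not_lt.1 h1⟩
      · rintro (⟨hx, h1⟩ | ⟨hx, h1⟩)
        · rw [tout x (not_lt.2 h1)]
          exact hx
        · rcases lt_or_eq_of_le h1 with h2 | h2
          · rw [tin x h2]
            exact hx
          · rw [tout x (by rw [h2]; exact lt_irrefl _)]
            exact gall x h2 hx
    rw [e1]
    exact ((hcl i).inter (isClosed_le continuous_const (continuous_id.dist continuous_const))).union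
      ((lab4_closed c1 c2 c3 i).inter
        (isClosed_le (continuous_id.dist continuous_const) continuous_const))
  have hne' : ∀ x, (T' x).Nonempty := by
    intro x
    by_cases h1 : dist x z < 1
    · rw [tin x h1]
      rcases le_total (G₁ x) 0 with h2 | h2
      · exact ⟨a, Or.inl ⟨rfl, h2⟩⟩
      rcases le_total (G₂ x) 0 with h3 | h3
      · exact ⟨e, Or.inr (Or.inl ⟨rfl, h2, h3⟩)⟩
      rcases le_total (G₃ x) 0 with h4 | h4
      · exact ⟨f, Or.inr (Or.inr (Or.inl ⟨rfl, h3, h4⟩))⟩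
      · exact ⟨c, Or.inr (Or.inr (Or.inr ⟨rfl, h4⟩))⟩
    · rw [tout x h1]
      exact hne x
  obtain ⟨u, x, hu, heu, hfu, hxe, hxf, hx⟩ := hpar T' hcl' hne' fun q hq =>
    tout q (by rw [hq]; exact lt_irrefl _)
  -- the third colour is `a` or `c`
  have hx' : (x = a ∧ G₁ u ≤ 0) ∨ (x = c ∧ 0 ≤ G₃ u) := by
    have h1 : u ∈ {w | x ∈ lab4 a e f c G₁ G₂ G₃ w} := by
      refine closure_minimal (fun w hw => ?_) (lab4_closed c1 c2 c3 x) hx
      have h2 : x ∈ T' w := hw.2
      rw [tin w hw.1] at h2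
      exact h2
    rcases h1 with h1 | h1 | h1 | h1
    · exact Or.inl h1
    · exact absurd h1.1 hxe
    · exact absurd h1.1 hxf
    · exact Or.inr h1
  rcases lt_or_eq_of_le hu with h1 | h1
  · rw [tin u h1] at heu hfu
    have h2 : G₂ u ≤ 0 := by
      rcases heu with h | h | h | h
      · exact absurd h.1.symm hae
      · exact h.2.2
      · exact absurd h.1 hef
      · exact absurd h.1.symm hce
    have h3 : 0 ≤ G₂ u := by
      rcases hfu with h | h | h | h
      · exact absurd h.1.symm haf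
      · exact absurd h.1.symm hef
      · exact h.2.1
      · exact absurd h.1.symm hcf
    have h4 := o12 u h1
    have h5 := o23 u h1
    rcases hx' with h | h
    · linarith [h.2]
    · linarith [h.2]
  · rw [tout u (by rw [h1]; exact lt_irrefl _)] at heu hfu
    rcases hx' with h | h
    · exact hAF u (gA u h1 h.2) hfu
    · exact hCE u (gC u h1 h.2) heu

/-- a `J`/`K`-link with the colour `e` : four colours, not `f`, not both of `c`, `d` -/
theorem jk_e928 (hz : DPt T z a b c d) (hnd : [a, b, c, d, e, f].Nodup) {v : ℂ}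
    (hv : JKEnd T z a b c d e f v) (he : e ∈ T v) :
    f ∉ T v ∧ ¬ (c ∈ T v ∧ d ∈ T v) := by
  have hn := hnd
  simp only [List.nodup_cons, List.mem_cons, List.not_mem_nil, or_false, not_or, List.nodup_nil,
    and_true, not_false_eq_true] at hn
  obtain ⟨⟨ab, ac, ad, ae, af⟩, ⟨bc, bd, be, bf⟩, ⟨cd, ce, cf⟩, ⟨de, df⟩, ef⟩ := hn
  rcases hv with hv | ⟨x, x', y, g, hx, hy, hg, hD⟩
  · rw [hv, hz.pal] at he
    simp [Ne.symm ae, Ne.symm be, Ne.symm ce, Ne.symm de] at he
  · rw [hD.pal] at he ⊢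
    have hen : g = e := by
      rcases hg with hg | hg
      · exact hg
      · exfalso
        rw [hg] at he
        rcases hx with ⟨rfl, rfl⟩ | ⟨rfl, rfl⟩ <;> rcases hy with rfl | rfl <;>
          simp [Ne.symm ae, Ne.symm be, Ne.symm ce, Ne.symm de, ef] at he
    rw [hen]
    rcases hx with ⟨rfl, rfl⟩ | ⟨rfl, rfl⟩ <;> rcases hy with rfl | rfl
    all_goals
      refine ⟨fun hc => ?_, fun hc => ?_⟩
      · simp only [mem_insert_iff, mem_singleton_iff] at hc
        tauto
      · simp only [mem_insert_iff, mem_singleton_iff] at hc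
        tauto

/-- **The case `K_e | K_e`: a closed exact `cd`-arc has a plain end `{c, d, e}`.** -/
theorem _root_.Vale.Agent.P032.Six.Irr.plain_end928 (h : Irr U T) (hz : DPt T z a b c d)
    (hnd : [a, b, c, d, e, f].Nodup) {u0 α : ℝ} (hα0 : 0 < α) (hα1 : α < 1)
    (harc : ∀ t ∈ Ioo (0 : ℝ) α, T (pt z (u0 + t)) = {a, b})
    (honly : ∀ q, dist q z = 1 → T q = {a, b} → ∃ t ∈ Ioo (0 : ℝ) α, q = pt z (u0 + t))
    (hl : JKEnd T z a b c d e f (pt z u0)) (hr : JKEnd T z a b c d e f (pt z (u0 + α)))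
    (hle : e ∈ T (pt z u0)) (hre : e ∈ T (pt z (u0 + α)))
    (h4 : ∀ y, dist y z = 1 → 4 ≤ (T y).ncard → y = pt z u0 ∨ y = pt z (u0 + α)) :
    ∃ y ∈ closure (Ex T z {c, d}), T y = {c, d, e} := by
  by_contra hcon
  push Not at hcon
  have C := ctr_of h hz hnd
  have hn := hnd
  simp only [List.nodup_cons, List.mem_cons, List.not_mem_nil, or_false, not_or, List.nodup_nil,
    and_true, not_false_eq_true] at hn
  obtain ⟨⟨ab, ac, ad, ae, af⟩, ⟨bc, bd, be, bf⟩, ⟨cd, ce, cf⟩, ⟨de, df⟩, ef⟩ := hn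
  obtain ⟨hlf, hlcd⟩ := jk_e928 hz hnd hl hle
  obtain ⟨hrf, hrcd⟩ := jk_e928 hz hnd hr hre
  -- points of the circle at other parameters are of order at most three
  have int6 : ∀ (n : ℤ) (x : ℝ), x = n * 6 → -6 < x → x < 6 → x = 0 := by
    intro n x hx h1 h2
    rw [hx] at h1 h2
    have c1 : (n : ℝ) < 1 := by linarith
    have c2 : (-1 : ℝ) < n := by linarith
    have c3 : n < (1 : ℤ) := by exact_mod_cast c1
    have c4 : (-1 : ℤ) < n := by exact_mod_cast c2
    have c5 : n = 0 := by omega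
    rw [hx, c5]; simp
  have h3 : ∀ s : ℝ, -2 < s → s < 3 → s ≠ 0 → s ≠ α → (T (pt z (u0 + s))).ncard ≤ 3 := by
    intro s h1 h2 h5 h6
    by_contra hcc
    rcases h4 _ (dist_pt z (u0 + s)) (by omega) with h7 | h7
    · obtain ⟨n, hn⟩ := pt_inj460 h7
      exact h5 (int6 n s (by linarith) (by linarith) (by linarith))
    · obtain ⟨n, hn⟩ := pt_inj460 h7
      have := int6 n (s - α) (by linarith) (by linarith) (by linarith)
      exact h6 (by linarith)
  -- the two ends have distance less than one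
  have hlt : dist (pt z u0) (pt z (u0 + α)) ≠ 1 := by
    intro h1
    have h2 := H825.near_cis z (a := u0 * (Real.pi / 3)) (b := (u0 + α) * (Real.pi / 3)) (by
      have h5 : u0 * (Real.pi / 3) - (u0 + α) * (Real.pi / 3) = -(α * (Real.pi / 3)) := by ring
      rw [h5, abs_neg, abs_of_pos (by have := Real.pi_pos; positivity)]
      have := Real.pi_pos
      nlinarith)
    have h5 : dist (pt z u0) (pt z (u0 + α)) < 1 := h2
    linarith
  -- parity
  have hpar : Par T z e f := by
    refine par_quasi460 h hz hnd hα0 hα1.le harc honly ?_ ?_ fun y hy hy4 => ?_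
    · have e1 : u0 - 1 = u0 + -1 := by ring
      refine hl.pend h hz hnd (dist_pt z _) (dist_pt z _) ?_ ?_
      · have := dist_pt_one z (u0 - 1)
        rwa [sub_add_cancel] at this
      · rw [e1]
        exact h3 (-1) (by norm_num) (by norm_num) (by norm_num) (by linarith)
    · refine hr.pend h hz hnd (dist_pt z _) (dist_pt z _) ?_ ?_
      · rw [dist_comm]; exact dist_pt_one z _
      · rw [add_assoc]
        exact h3 (α + 1) (by linarith) (by linarith) (by linarith) (by linarith)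
    · -- the two links are safe
      have key : ∀ v, JKEnd T z a b c d e f v → e ∈ T v →
          (∀ x, dist x z = 1 → dist x v = 1 → (T x).ncard ≤ 3) → Safe T z e f v := by
        intro v hv hev hap
        rcases hv with hv | ⟨x, x', y, g, hx, hy, hg, hD⟩
        · exact Or.inl hv
        · refine Or.inr ⟨⟨x, y, x', g, hD, fun hc => ?_, fun hc => ?_⟩, hap⟩
          · have h5 : e ∈ ({x, y} : Set (Fin 6)) := hc ▸ Or.inl rfl
            rcases h5 with h5 | h5
            · rcases hx with ⟨h6, -⟩ | ⟨h6, -⟩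
              · exact ae (h6.symm.trans h5.symm)
              · exact be (h6.symm.trans h5.symm)
            · rw [mem_singleton_iff] at h5
              rcases hy with h6 | h6
              · exact ce (h6.symm.trans h5.symm)
              · exact de (h6.symm.trans h5.symm)
          · have h5 : x' ∈ ({e, f} : Set (Fin 6)) := hc ▸ Or.inl rfl
            rcases h5 with h5 | h5
            · rcases hx with ⟨-, h6⟩ | ⟨-, h6⟩
              · exact be (h6.symm.trans h5)
              · exact ae (h6.symm.trans h5)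
            · rw [mem_singleton_iff] at h5
              rcases hx with ⟨-, h6⟩ | ⟨-, h6⟩
              · exact bf (h6.symm.trans h5)
              · exact af (h6.symm.trans h5)
      rcases h4 y hy hy4 with rfl | rfl
      · refine key _ hl hle fun x hx hxv => ?_
        by_contra hcc
        rcases h4 x hx (by omega) with rfl | rfl
        · rw [dist_self] at hxv; exact zero_ne_one hxv
        · exact hlt (by rw [dist_comm]; exact hxv)
      · refine key _ hr hre fun x hx hxv => ?_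
        by_contra hcc
        rcases h4 x hx (by omega) with rfl | rfl
        · exact hlt hxv
        · rw [dist_self] at hxv; exact zero_ne_one hxv
  -- the closed `ab`-arc
  have hclos : closure (Ex T z {a, b}) ⊆ (fun t : ℝ => pt z (u0 + t)) '' Icc 0 α := by
    have h1 : IsClosed ((fun t : ℝ => pt z (u0 + t)) '' Icc 0 α) :=
      (isCompact_Icc.image ((continuous_pt z).comp (continuous_const_add u0))).isClosed
    refine closure_minimal (fun y hy => ?_) h1
    obtain ⟨t, ht, hyt⟩ := honly y hy.1 (ex_self hy)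
    exact ⟨t, ⟨ht.1.le, ht.2.le⟩, hyt.symm⟩
  have hA : ∀ y ∈ closure (Ex T z {a, b}), f ∉ T y ∧ ¬ (c ∈ T y ∧ d ∈ T y) := by
    intro y hy
    obtain ⟨t, ht, rfl⟩ := hclos hy
    rcases eq_or_lt_of_le ht.1 with h1 | h1
    · subst h1
      simp only [add_zero]
      exact ⟨hlf, hlcd⟩
    rcases eq_or_lt_of_le ht.2 with h2 | h2
    · subst h2
      exact ⟨hrf, hrcd⟩
    · simp only [harc t ⟨h1, h2⟩]
      simp [Ne.symm af, Ne.symm bf, Ne.symm ac, Ne.symm bc]
  obtain ⟨g₁, hg₁⟩ := hz.arc1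
  obtain ⟨g₂, hg₂⟩ := hz.arc2
  refine not_par928 (T := T) (z := z) (a := a) (e := e) (f := f) (c := c) h.closed h.ne
    (A := closure (Ex T z {a, b})) (C := closure (Ex T z {c, d})) isClosed_closure isClosed_closure
    ⟨g₁, subset_closure hg₁⟩ ⟨g₂, subset_closure hg₂⟩
    (fun y hy => sub_of_closure h hy (Or.inl rfl)) (fun y hy => sub_of_closure h hy (Or.inl rfl))
    ae af ce cf ef (fun y hy => ?_) (fun y hy => (hA y hy).1) (fun y hy hey => ?_)
    (fun y hy hyC => (hA y hy).2 ⟨sub_of_closure h hyC (Or.inl rfl),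
      sub_of_closure h hyC (Or.inr rfl)⟩) hpar
  · obtain ⟨l, hl'⟩ := C.cover hy
    have hc := Lt_col h hl'
    fin_cases l
    · exact Or.inr (Or.inl (hc rfl))
    · exact Or.inr (Or.inr (Or.inl (hc rfl)))
    · exact Or.inl hl'
    · exact Or.inr (Or.inr (Or.inr hl'))
  · -- an end with the colour `e` is plain
    have hys : dist y z = 1 := dist_of_closure hy
    have hcy := sub_of_closure h hy (Or.inl rfl : c ∈ ({c, d} : Set (Fin 6)))
    have hdy := sub_of_closure h hy (Or.inr rfl : d ∈ ({c, d} : Set (Fin 6)))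
    have h5 : (T y).ncard ≤ 3 := by
      by_contra hcc
      rcases h4 y hys (by omega) with rfl | rfl
      · exact hlcd ⟨hcy, hdy⟩
      · exact hrcd ⟨hcy, hdy⟩
    refine hcon y hy ?_
    have h6 : ({c, d, e} : Set (Fin 6)) ⊆ T y := by
      rintro i (rfl | rfl | hi)
      · exact hcy
      · exact hdy
      · rw [mem_singleton_iff] at hi
        subst hi; exact hey
    have h7 : ({c, d, e} : Set (Fin 6)).ncard = 3 := Set.ncard_eq_three.2 ⟨c, d, e, cd, ce, de, rfl⟩
    exact (Set.eq_of_subset_of_ncard_le h6 (by omega) (Set.toFinite _)).symm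

/-- the relation `JKEnd` does not distinguish the two free letters -/
theorem JKEnd.symm928 {v : ℂ} (hv : JKEnd T z a b c d e f v) : JKEnd T z a b c d f e v := by
  rcases hv with hv | ⟨x, x', y, g, hx, hy, hg, hD⟩
  · exact Or.inl hv
  · exact Or.inr ⟨x, x', y, g, hx, hy, hg.symm, hD⟩

/-- **Plain `cd`-ends with the colour `f` at a quasi-full point (`J`/`K`-links).** -/
theorem _root_.Vale.Agent.P032.Six.Irr.quasi_end928 (h : Irr U T) (hz : DPt T z a b c d)
    (hnd : [a, b, c, d, e, f].Nodup) {u0 α : ℝ} (hα0 : 0 < α) (hα1 : α < 1)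
    (harc : ∀ t ∈ Ioo (0 : ℝ) α, T (pt z (u0 + t)) = {a, b})
    (honly : ∀ q, dist q z = 1 → T q = {a, b} → ∃ t ∈ Ioo (0 : ℝ) α, q = pt z (u0 + t))
    (hl : JKEnd T z a b c d e f (pt z u0)) (hr : JKEnd T z a b c d e f (pt z (u0 + α)))
    (h4 : ∀ y, dist y z = 1 → 4 ≤ (T y).ncard → y = pt z u0 ∨ y = pt z (u0 + α)) :
    ∃ y ∈ closure (Ex T z {c, d}), T y = {c, d, f} := by
  have hn := hnd
  simp only [List.nodup_cons, List.mem_cons, List.not_mem_nil, or_false, not_or, List.nodup_nil,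
    and_true, not_false_eq_true] at hn
  obtain ⟨⟨ab, ac, ad, ae, af⟩, ⟨bc, bd, be, bf⟩, ⟨cd, ce, cf⟩, ⟨de, df⟩, ef⟩ := hn
  have hnd' : [a, b, c, d, f, e].Nodup := by
    simp [ab, ac, ad, ae, af, bc, bd, be, bf, cd, ce, cf, de, df, Ne.symm ef]
  by_cases hboth : f ∈ T (pt z u0) ∧ f ∈ T (pt z (u0 + α))
  · exact h.plain_end928 hz hnd' hα0 hα1 harc honly (JKEnd.symm928 hl) (JKEnd.symm928 hr)
      hboth.1 hboth.2 h4
  -- at most one link with `f`
  have hlt : dist (pt z u0) (pt z (u0 + α)) ≠ 1 := by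
    intro h1
    have h2 := H825.near_cis z (a := u0 * (Real.pi / 3)) (b := (u0 + α) * (Real.pi / 3)) (by
      have h5 : u0 * (Real.pi / 3) - (u0 + α) * (Real.pi / 3) = -(α * (Real.pi / 3)) := by ring
      rw [h5, abs_neg, abs_of_pos (by have := Real.pi_pos; positivity)]
      have := Real.pi_pos
      nlinarith)
    have h5 : dist (pt z u0) (pt z (u0 + α)) < 1 := h2
    linarith
  have hjk : ∀ v, JKEnd T z a b c d e f v → T v = T z ∨
      ∃ P Q, PQ738 T v P Q ∧ P ≠ {e, f} ∧ Q ≠ {e, f} ∧ (e ∈ T v ∨ f ∈ T v) := by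
    rintro v (hv | ⟨x, x', y, g, hx, hy, hg, hD⟩)
    · exact Or.inl hv
    · refine Or.inr ⟨_, _, PQ738.of_dpt h hD, fun hc => ?_, fun hc => ?_, ?_⟩
      · have h5 : e ∈ ({x, y} : Set (Fin 6)) := hc ▸ Or.inl rfl
        rcases h5 with h5 | h5
        · rcases hx with ⟨h6, -⟩ | ⟨h6, -⟩
          · exact ae (h6.symm.trans h5.symm)
          · exact be (h6.symm.trans h5.symm)
        · rw [mem_singleton_iff] at h5
          rcases hy with h6 | h6
          · exact ce (h6.symm.trans h5.symm)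
          · exact de (h6.symm.trans h5.symm)
      · have h5 : x' ∈ ({e, f} : Set (Fin 6)) := hc ▸ Or.inl rfl
        rcases h5 with h5 | h5
        · rcases hx with ⟨-, h6⟩ | ⟨-, h6⟩
          · exact be (h6.symm.trans h5)
          · exact ae (h6.symm.trans h5)
        · rw [mem_singleton_iff] at h5
          rcases hx with ⟨-, h6⟩ | ⟨-, h6⟩
          · exact bf (h6.symm.trans h5)
          · exact af (h6.symm.trans h5)
      · rw [hD.pal]
        rcases hg with rfl | rfl
        · left; simp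
        · right; simp
  have hclos : closure (Ex T z {a, b}) ⊆ (fun t : ℝ => pt z (u0 + t)) '' Icc 0 α := by
    have h1 : IsClosed ((fun t : ℝ => pt z (u0 + t)) '' Icc 0 α) :=
      (isCompact_Icc.image ((continuous_pt z).comp (continuous_const_add u0))).isClosed
    refine closure_minimal (fun y hy => ?_) h1
    obtain ⟨t, ht, hyt⟩ := honly y hy.1 (ex_self hy)
    exact ⟨t, ⟨ht.1.le, ht.2.le⟩, hyt.symm⟩
  have card4 : ∀ v, JKEnd T z a b c d e f v → (T v).ncard = 4 := by
    rintro v (hv | ⟨x, x', y, g, hx, hy, hg, hD⟩)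
    · rw [hv]; exact (PQ738.of_dpt h hz).four353
    · exact (PQ738.of_dpt h hD).four353
  have hK : ∀ y, dist y z = 1 → (T y).ncard ≤ 3 ∨ T y = T z ∨
      ∃ P Q, PQ738 T y P Q ∧ P ≠ {e, f} ∧ Q ≠ {e, f} ∧ (e ∈ T y ∨ f ∈ T y) := by
    intro y hy
    by_cases k3 : (T y).ncard ≤ 3
    · exact Or.inl k3
    right
    rcases h4 y hy (by omega) with rfl | rfl
    · exact hjk _ hl
    · exact hjk _ hr
  have hAp : ∀ y p, dist y z = 1 → dist p z = 1 → dist p y = 1 → ¬ (T y).ncard ≤ 3 → T y ≠ T z →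
      (T p).ncard ≤ 3 := by
    intro y p hy hp hpy k3 _
    by_contra hcc
    rcases h4 y hy (by omega) with rfl | rfl <;> rcases h4 p hp (by omega) with rfl | rfl
    · rw [dist_self] at hpy; exact zero_ne_one hpy
    · exact hlt (by rw [dist_comm]; exact hpy)
    · exact hlt hpy
    · rw [dist_self] at hpy; exact zero_ne_one hpy
  have h1 : ∀ y y', dist y z = 1 → dist y' z = 1 → ¬ (T y).ncard ≤ 3 → ¬ (T y').ncard ≤ 3 →
      f ∈ T y → f ∈ T y' → e ∉ T y → e ∉ T y' → y = y' := by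
    intro y y' hy hy' k3 k3' hfy hfy' _ _
    rcases h4 y hy (by omega) with rfl | rfl <;> rcases h4 y' hy' (by omega) with rfl | rfl
    · rfl
    · exact absurd ⟨hfy, hfy'⟩ hboth
    · exact absurd ⟨hfy', hfy⟩ hboth
    · rfl
  rcases h.plain353 hz hnd hK hAp h1 with ⟨y, hy, hyT⟩ | ⟨y, hy, hyT⟩
  · -- no plain `ab`-ends
    exfalso
    obtain ⟨t, ht, rfl⟩ := hclos hy
    have h5 : (T (pt z (u0 + t))).ncard = 3 := by
      rw [hyT]; exact Set.ncard_eq_three.2 ⟨a, b, f, ab, af, bf, rfl⟩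
    rcases eq_or_lt_of_le ht.1 with h1 | h1
    · subst h1
      rw [add_zero] at h5
      have := card4 _ hl
      omega
    rcases eq_or_lt_of_le ht.2 with h2 | h2
    · subst h2
      have := card4 _ hr
      omega
    · have h6 : (T (pt z (u0 + t))).ncard = 2 := by
        rw [harc t ⟨h1, h2⟩, Set.ncard_pair ab]
      omega
  · exact ⟨y, hy, hyT⟩

/-- **(P2): plain `cd`-ends with both free letters.** -/
theorem _root_.Vale.Agent.P032.Six.Irr.quasi_ends928 (h : Irr U T) (hz : DPt T z a b c d)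
    (hnd : [a, b, c, d, e, f].Nodup) {u0 α : ℝ} (hα0 : 0 < α) (hα1 : α < 1)
    (harc : ∀ t ∈ Ioo (0 : ℝ) α, T (pt z (u0 + t)) = {a, b})
    (honly : ∀ q, dist q z = 1 → T q = {a, b} → ∃ t ∈ Ioo (0 : ℝ) α, q = pt z (u0 + t))
    (hl : JKEnd T z a b c d e f (pt z u0)) (hr : JKEnd T z a b c d e f (pt z (u0 + α)))
    (h4 : ∀ y, dist y z = 1 → 4 ≤ (T y).ncard → y = pt z u0 ∨ y = pt z (u0 + α)) :
    (∃ y ∈ closure (Ex T z {c, d}), T y = {c, d, e}) ∧
      ∃ y ∈ closure (Ex T z {c, d}), T y = {c, d, f} := by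
  have hn := hnd
  simp only [List.nodup_cons, List.mem_cons, List.not_mem_nil, or_false, not_or, List.nodup_nil,
    and_true, not_false_eq_true] at hn
  obtain ⟨⟨ab, ac, ad, ae, af⟩, ⟨bc, bd, be, bf⟩, ⟨cd, ce, cf⟩, ⟨de, df⟩, ef⟩ := hn
  have hnd' : [a, b, c, d, f, e].Nodup := by
    simp [ab, ac, ad, ae, af, bc, bd, be, bf, cd, ce, cf, de, df, Ne.symm ef]
  exact ⟨h.quasi_end928 hz hnd' hα0 hα1 harc honly (JKEnd.symm928 hl) (JKEnd.symm928 hr) h4,
    h.quasi_end928 hz hnd hα0 hα1 harc honly hl hr h4⟩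

end Vale.Agent.P032.H928
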