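import Vale.Agent.P032.H928.Disc
import Vale.Agent.P032.H429.Types

/-!
# P032: the front rule at a tame point (helper429's rule (2), second proof)

`front928` : near a point `z` which is tame (`|T w| ≤ 2` near `z`), a point `x` of a colour `c` with
a free double cone at `z` is attached to `z` inside the colour, or there is a colour `f ≠ c` with
`x ∈ U f ∩ U c`, and `T p = {c, f}` for a point `p ≠ z` of the segment from `z` to `x`.
-/

open Set Filter Topology Metric

noncomputable section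

namespace Vale.Agent.P032.H928

open Vale.Agent.P032.Six

variable {k : ℕ} {U : Fin k → Set ℂ} {T : ℂ → Set (Fin k)} {z : ℂ} {c : Fin k} {r : ℝ}

/-! ### Geometry -/

theorem norm_cis928 (t : ℝ) : ‖cis t‖ = 1 := Complex.norm_exp_ofReal_mul_I t

theorem cis_neg_mul928 (t : ℝ) : cis t * cis (-t) = 1 := by
  unfold cis
  rw [← Complex.exp_add]
  push_cast
  rw [← Complex.exp_zero]
  congr 1
  ring

theorem norm_cis_sub_one928 (t : ℝ) : ‖cis t - 1‖ ≤ |t| := by
  have h := Real.norm_exp_I_mul_ofReal_sub_one_le (x := t)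
  rw [Real.norm_eq_abs] at h
  unfold cis
  rwa [mul_comm]

/-- the double cone in coordinates -/
theorem cone928 {m : ℂ} (hm : ‖m‖ = 1) {p : ℂ → Prop} (h1 : ∀ᶠ x in nap z m, p x)
    (h2 : ∀ᶠ x in nap z (-m), p x) : ∃ κ > 0, ∀ w, w ≠ z → ‖w - z‖ < κ →
      |((w - z) * (starRingEnd ℂ) m).im| < κ * |((w - z) * (starRingEnd ℂ) m).re| → p w := by
  obtain ⟨δ1, hδ1, hd1⟩ := nap_iff.1 h1
  obtain ⟨δ2, hδ2, hd2⟩ := nap_iff.1 h2
  set δ := min δ1 δ2 with hδ
  have hδ0 : 0 < δ := lt_min hδ1 hδ2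
  obtain ⟨η, hη, hs⟩ := Metric.continuous_iff.1 Real.continuous_arcsin 0 δ hδ0
  have hmm : (starRingEnd ℂ) m * m = 1 := by
    rw [mul_comm, Complex.mul_conj, Complex.normSq_eq_norm_sq, hm]; norm_num
  -- the case of a positive real part
  have key : ∀ (m' : ℂ), (starRingEnd ℂ) m' * m' = 1 →
      (∀ s r : ℝ, |s| < δ → 0 < r → r < δ → p (z + r * (m' * cis s))) →
      ∀ w, w ≠ z → ‖w - z‖ < δ → 0 < ((w - z) * (starRingEnd ℂ) m').re →
      |((w - z) * (starRingEnd ℂ) m').im| < η * ((w - z) * (starRingEnd ℂ) m').re → p w := by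
    intro m' hm' hp w hwz hw hre him
    set u := (w - z) * (starRingEnd ℂ) m' with hu
    have hum : u * m' = w - z := by rw [hu, mul_assoc, hm', mul_one]
    have hu0 : u ≠ 0 := by
      intro h0
      rw [h0, zero_mul] at hum
      exact hwz (sub_eq_zero.1 hum.symm)
    have hnm : ‖m'‖ = 1 := by
      have := congrArg norm hm'
      rw [norm_mul, Complex.norm_conj, norm_one] at this
      nlinarith [norm_nonneg m']
    have hun : ‖u‖ = ‖w - z‖ := by rw [hu, norm_mul, Complex.norm_conj, hnm, mul_one]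
    have hun0 : 0 < ‖u‖ := norm_pos_iff.2 hu0
    have harg : |Complex.arg u| < δ := by
      rw [Complex.arg_of_re_nonneg hre.le]
      have h3 : dist (u.im / ‖u‖) 0 < η := by
        rw [Real.dist_eq, sub_zero, abs_div, abs_of_pos hun0, div_lt_iff₀ hun0]
        refine lt_of_lt_of_le him ?_
        exact mul_le_mul_of_nonneg_left ((le_abs_self _).trans (Complex.abs_re_le_norm u)) hη.le
      have h4 := hs _ h3
      rwa [Real.dist_eq, Real.arcsin_zero, sub_zero] at h4
    have h5 := hp (Complex.arg u) ‖u‖ harg hun0 (by rw [hun]; exact hw)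
    have h6 : z + (‖u‖ : ℂ) * (m' * cis (Complex.arg u)) = w := by
      have h7 : (‖u‖ : ℂ) * cis (Complex.arg u) = u := by
        unfold cis; exact Complex.norm_mul_exp_arg_mul_I u
      have : (‖u‖ : ℂ) * (m' * cis (Complex.arg u)) = ((‖u‖ : ℂ) * cis (Complex.arg u)) * m' := by
        ring
      rw [this, h7, hum]; ring
    rwa [h6] at h5
  refine ⟨min δ η, lt_min hδ0 hη, fun w hwz hw him => ?_⟩
  have hw' : ‖w - z‖ < δ := lt_of_lt_of_le hw (min_le_left _ _)
  have hre0 : ((w - z) * (starRingEnd ℂ) m).re ≠ 0 := by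
    intro h0
    rw [h0, abs_zero, mul_zero] at him
    linarith [abs_nonneg ((w - z) * (starRingEnd ℂ) m).im]
  rcases lt_or_gt_of_ne hre0 with hre | hre
  · refine key (-m) (by rw [map_neg, neg_mul_neg]; exact hmm) (fun s r hs hr hr' =>
      hd2 s r (lt_of_lt_of_le hs (min_le_right _ _)) hr (lt_of_lt_of_le hr' (min_le_right _ _)))
      w hwz hw' ?_ ?_
    · rw [map_neg, mul_neg, Complex.neg_re]; linarith
    · rw [map_neg, mul_neg, Complex.neg_re, Complex.neg_im, abs_neg]
      refine lt_of_lt_of_le him ?_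
      rw [abs_of_neg hre]
      exact mul_le_mul_of_nonneg_right (min_le_right _ _) (by linarith)
  · refine key m hmm (fun s r hs hr hr' =>
      hd1 s r (lt_of_lt_of_le hs (min_le_left _ _)) hr (lt_of_lt_of_le hr' (min_le_left _ _)))
      w hwz hw' hre ?_
    refine lt_of_lt_of_le him ?_
    rw [abs_of_pos hre]
    exact mul_le_mul_of_nonneg_right (min_le_right _ _) hre.le

/-- **an arc of a unit circle through a point near `z` meets the double cone near `z`** -/
theorem meet928 {m : ℂ} (hm : ‖m‖ = 1) {κ : ℝ} (hκ : 0 < κ) (hκ1 : κ ≤ 1) {x q : ℂ}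
    (hq : dist x q = 1) (hx : ‖x - z‖ < (κ / (2 * (κ + 1))) ^ 2 / 2) :
    ∃ t : ℝ, |t| ≤ κ / 2 ∧ ((q + (x - q) * cis t) = z ∨
      |((q + (x - q) * cis t - z) * (starRingEnd ℂ) m).im| <
        κ * |((q + (x - q) * cis t - z) * (starRingEnd ℂ) m).re|) := by
  set τ := κ / (2 * (κ + 1)) with hτ
  have hτ0 : 0 < τ := by positivity
  have hτκ : τ ≤ κ / 2 := by
    rw [hτ, div_le_div_iff₀ (by positivity) (by norm_num)]
    nlinarith
  have hτ1 : τ ≤ 1 := by linarith
  by_contra hcon
  push Not at hcon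
  set γ : ℝ → ℂ := fun t => (q + (x - q) * cis t - z) * (starRingEnd ℂ) m with hγ
  have hγc : Continuous γ := by
    have := continuous_cis
    fun_prop
  have hall : ∀ t : ℝ, |t| ≤ τ → (γ t).im ≠ 0 ∧ κ * |(γ t).re| ≤ |(γ t).im| := by
    intro t ht
    obtain ⟨h1, h2⟩ := hcon t (ht.trans hτκ)
    refine ⟨fun h0 => ?_, h2⟩
    have h3 : (γ t).re = 0 := by
      have : κ * |(γ t).re| ≤ 0 := by rw [← abs_zero, ← h0]; exact h2
      have h4 : |(γ t).re| ≤ 0 := by
        by_contra h5
        push Not at h5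
        nlinarith
      exact abs_eq_zero.1 (le_antisymm h4 (abs_nonneg _))
    have h4 : γ t = 0 := Complex.ext h3 h0
    rcases mul_eq_zero.1 h4 with h5 | h5
    · exact h1 (sub_eq_zero.1 h5)
    · have h6 : m = 0 := (map_eq_zero _).1 h5
      rw [h6, norm_zero] at hm
      norm_num at hm
  -- constant sign
  have hsgn : |(γ τ).im| + |(γ (-τ)).im| = |(γ τ).im + (γ (-τ)).im| := by
    have h1 := (hall τ (by rw [abs_of_pos hτ0])).1
    have h2 := (hall (-τ) (by rw [abs_neg, abs_of_pos hτ0])).1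
    have himc : Continuous fun t => (γ t).im := Complex.continuous_im.comp hγc
    have hpre : IsPreconnected (Icc (-τ) τ) := isPreconnected_Icc
    have hl : -τ ∈ Icc (-τ) τ := left_mem_Icc.2 (by linarith)
    have hrr : τ ∈ Icc (-τ) τ := right_mem_Icc.2 (by linarith)
    rcases lt_or_gt_of_ne h1 with h3 | h3 <;> rcases lt_or_gt_of_ne h2 with h4 | h4
    · rw [abs_of_neg h3, abs_of_neg h4, abs_of_neg (by linarith)]; ring
    · exfalso
      obtain ⟨t, ht, ht0⟩ := hpre.intermediate_value hrr hl himc.continuousOn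
        (show (0 : ℝ) ∈ Icc _ _ from ⟨h3.le, h4.le⟩)
      exact (hall t (abs_le.2 ht)).1 ht0
    · exfalso
      obtain ⟨t, ht, ht0⟩ := hpre.intermediate_value hl hrr himc.continuousOn
        (show (0 : ℝ) ∈ Icc _ _ from ⟨h4.le, h3.le⟩)
      exact (hall t (abs_le.2 ht)).1 ht0
    · rw [abs_of_pos h3, abs_of_pos h4, abs_of_pos (by linarith)]
  have hmn : ‖(starRingEnd ℂ) m‖ = 1 := by rw [Complex.norm_conj, hm]
  have hxq : ‖x - q‖ = 1 := by rw [← dist_eq_norm]; exact hq
  -- the sum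
  have hsum : ‖γ τ + γ (-τ)‖ ≤ 2 * ‖x - z‖ + τ ^ 2 := by
    have e1 : γ τ + γ (-τ) = (2 * (x - z) + (x - q) * (cis τ + cis (-τ) - 2)) *
        (starRingEnd ℂ) m := by
      simp only [hγ]; ring
    have e2 : cis τ + cis (-τ) - 2 = ((2 * Real.cos τ - 2 : ℝ) : ℂ) := by
      unfold cis
      push_cast
      rw [Complex.cos, mul_div_cancel₀ _ (two_ne_zero), neg_mul]
    rw [e1, norm_mul, hmn, mul_one, e2]
    refine (norm_add_le _ _).trans ?_
    rw [norm_mul, norm_mul, hxq, one_mul, Complex.norm_real, Real.norm_eq_abs]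
    have h3 : |2 * Real.cos τ - 2| ≤ τ ^ 2 := by
      have h4 := Real.one_sub_sq_div_two_le_cos (x := τ)
      have h5 := Real.cos_le_one τ
      rw [abs_le]; constructor <;> nlinarith
    have h4 : ‖(2 : ℂ)‖ = 2 := by norm_num
    rw [h4]
    linarith
  -- the difference
  have hdif : ‖γ τ - γ (-τ)‖ = 2 * Real.sin τ := by
    have e1 : γ τ - γ (-τ) = ((x - q) * (cis τ - cis (-τ))) * (starRingEnd ℂ) m := by
      simp only [hγ]; ring
    have e2 : cis τ - cis (-τ) = ((2 * Real.sin τ : ℝ) : ℂ) * Complex.I := by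
      unfold cis
      push_cast
      rw [Complex.sin]
      have hI : Complex.I * Complex.I = -1 := Complex.I_mul_I
      linear_combination (Complex.exp ((τ : ℂ) * Complex.I) - Complex.exp (-(τ : ℂ) * Complex.I)) * hI
    have hsin : 0 ≤ Real.sin τ := Real.sin_nonneg_of_nonneg_of_le_pi hτ0.le (by
      linarith [Real.pi_gt_three])
    rw [e1, norm_mul, norm_mul, hmn, mul_one, hxq, one_mul, e2, norm_mul, Complex.norm_I, mul_one,
      Complex.norm_real, Real.norm_eq_abs, abs_of_nonneg (by positivity)]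
  have hI : |(γ τ).im| + |(γ (-τ)).im| ≤ 2 * ‖x - z‖ + τ ^ 2 := by
    rw [hsgn, ← Complex.add_im]
    exact (Complex.abs_im_le_norm _).trans hsum
  have hR : κ * (|(γ τ).re| + |(γ (-τ)).re|) ≤ 2 * ‖x - z‖ + τ ^ 2 := by
    have h1 := (hall τ (by rw [abs_of_pos hτ0])).2
    have h2 := (hall (-τ) (by rw [abs_neg, abs_of_pos hτ0])).2
    rw [mul_add]; linarith
  have hfin : ‖γ τ - γ (-τ)‖ ≤ (|(γ τ).re| + |(γ (-τ)).re|) + (|(γ τ).im| + |(γ (-τ)).im|) := by
    refine (Complex.norm_le_abs_re_add_abs_im _).trans ?_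
    rw [Complex.sub_re, Complex.sub_im]
    have h1 := abs_sub (γ τ).re (γ (-τ)).re
    have h2 := abs_sub (γ τ).im (γ (-τ)).im
    linarith
  have hsin : 2 / Real.pi * τ ≤ Real.sin τ := Real.mul_le_sin hτ0.le (by
    linarith [Real.pi_gt_three])
  have hpi : τ / 2 < 2 / Real.pi * τ := by
    have h1 : (1 : ℝ) / 2 < 2 / Real.pi := by
      rw [div_lt_div_iff₀ (by norm_num) Real.pi_pos]
      linarith [Real.pi_lt_d2]
    nlinarith
  have hb : 2 * ‖x - z‖ + τ ^ 2 < 2 * τ ^ 2 := by linarith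
  have hτe : 2 * (κ + 1) * τ = κ := by rw [hτ]; field_simp
  -- `κ ‖γ τ - γ (-τ)‖ ≤ (1 + κ) * 2 τ² = κ τ`
  have h7 : κ * ‖γ τ - γ (-τ)‖ ≤ (1 + κ) * (2 * ‖x - z‖ + τ ^ 2) := by
    calc κ * ‖γ τ - γ (-τ)‖ ≤ κ * ((|(γ τ).re| + |(γ (-τ)).re|) + (|(γ τ).im| + |(γ (-τ)).im|)) :=
          mul_le_mul_of_nonneg_left hfin hκ.le
      _ = κ * (|(γ τ).re| + |(γ (-τ)).re|) + κ * (|(γ τ).im| + |(γ (-τ)).im|) := by ring
      _ ≤ (2 * ‖x - z‖ + τ ^ 2) + κ * (2 * ‖x - z‖ + τ ^ 2) :=
          add_le_add hR (mul_le_mul_of_nonneg_left hI hκ.le)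
      _ = (1 + κ) * (2 * ‖x - z‖ + τ ^ 2) := by ring
  have h8 : (1 + κ) * (2 * ‖x - z‖ + τ ^ 2) < κ * τ := by
    calc (1 + κ) * (2 * ‖x - z‖ + τ ^ 2) < (1 + κ) * (2 * τ ^ 2) :=
          mul_lt_mul_of_pos_left hb (by linarith)
      _ = (2 * (κ + 1) * τ) * τ := by ring
      _ = κ * τ := by rw [hτe]
  have h9 : ‖γ τ - γ (-τ)‖ < τ := lt_of_mul_lt_mul_left (h7.trans_lt h8) hκ.le
  rw [hdif] at h9
  linarith


/-! ### The front of an island -/

variable {x : ℂ}

/-- an island of the colour `c` in the disc: the component of `x` -/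
def Isl (T : ℂ → Set (Fin k)) (c : Fin k) (z : ℂ) (r : ℝ) (x : ℂ) : Set ℂ :=
  connectedComponentIn ({y | c ∈ T y} ∩ closedBall z r) x

theorem isl_closed (h : Irr U T) : IsClosed (Isl T c z r x) := by
  by_cases hx : x ∈ {y | c ∈ T y} ∩ closedBall z r
  · refine isClosed_of_closure_subset ?_
    exact isPreconnected_connectedComponentIn.closure.subset_connectedComponentIn
      (subset_closure (mem_connectedComponentIn hx))
      (((h.closed c).inter isClosed_closedBall).closure_subset_iff.2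
        (connectedComponentIn_subset _ x))
  · unfold Isl
    rw [connectedComponentIn_eq_empty hx]
    exact isClosed_empty

theorem isl_pre : IsPreconnected (Isl T c z r x) := isPreconnected_connectedComponentIn

theorem isl_col {y : ℂ} (hy : y ∈ Isl T c z r x) : c ∈ T y := (connectedComponentIn_subset _ _ hy).1

theorem isl_sub : Isl T c z r x ⊆ closedBall z r := fun _ hy =>
  (connectedComponentIn_subset _ _ hy).2

/-- a connected set of the colour in the disc which meets the island lies in it -/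
theorem isl_of {S : Set ℂ} (hS : IsPreconnected S) {y : ℂ} (hy : y ∈ S) (hyK : y ∈ Isl T c z r x)
    (hc : ∀ w ∈ S, c ∈ T w) (hD : S ⊆ closedBall z r) : S ⊆ Isl T c z r x := by
  unfold Isl at hyK ⊢
  rw [connectedComponentIn_eq hyK]
  exact hS.subset_connectedComponentIn hy fun w hw => ⟨hc w hw, hD hw⟩

/-- at the front of an island there is a second colour -/
theorem frt_two (h : Irr U T) {y : ℂ} (hy : y ∈ Frt (closedBall z r) (Isl T c z r x) z) :
    ∃ j ∈ T y, j ≠ c := by
  by_contra hcon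
  push Not at hcon
  have hyK := frt_sub (convex_closedBall z r) (isl_closed h) hy
  have h1 : ∀ᶠ w in 𝓝 y, c ∈ T w := by
    filter_upwards [h.nhd y] with w hw
    obtain ⟨j, hj⟩ := h.ne w
    exact hcon j (hw hj) ▸ hj
  obtain ⟨ε, hε, hb⟩ := Metric.eventually_nhds_iff_ball.1 h1
  obtain ⟨w, hw, hwy⟩ := Metric.mem_closure_iff.1 hy.2 ε hε
  have hwD := connectedComponentIn_subset _ _ hw
  have h2 := isl_of ((convex_ball y ε).inter (convex_closedBall z r)).isPreconnected
    (y := y) ⟨mem_ball_self hε, isl_sub hyK⟩ hyK (fun v hv => hb v hv.1) fun v hv => hv.2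
  exact hwD.2 (h2 ⟨by rw [mem_ball, dist_comm]; exact hwy, hwD.1⟩)

/-- **the front of an island has one palette** -/
theorem frt_const (h : Irr U T) (hr : 0 < r)
    (h2 : ∀ w ∈ closedBall z r, w ≠ z → (T w).ncard ≤ 2) (hx : x ∈ Isl T c z r x)
    (hz : z ∉ Isl T c z r x) {p y : ℂ} {f : Fin k}
    (hp : p ∈ Frt (closedBall z r) (Isl T c z r x) z) (hf : f ≠ c) (hpf : f ∈ T p)
    (hy : y ∈ Frt (closedBall z r) (Isl T c z r x) z) : T y = {c, f} := by
  have hK := frt_sub (convex_closedBall z r) (isl_closed (T := T) (c := c) (z := z) (r := r)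
    (x := x) h) (u := z)
  have hcard : ∀ w ∈ Frt (closedBall z r) (Isl T c z r x) z, (T w).ncard ≤ 2 := by
    intro w hw
    refine h2 w (isl_sub (hK hw)) ?_
    rintro rfl
    exact hz (hK hw)
  have hpre := frt_pre hr (isl_closed h) isl_pre isl_sub ⟨x, hx⟩ z
  have hfy : f ∈ T y := by
    by_contra hfy
    obtain ⟨j, hj, hjc⟩ := frt_two h hy
    have hcl : IsClosed (⋃ i ∈ {i : Fin k | i ≠ c ∧ i ≠ f}, {w | i ∈ T w}) :=
      (Set.toFinite _).isClosed_biUnion fun i _ => h.closed i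
    have h3 := (isPreconnected_closed_iff.1 hpre) {w | f ∈ T w}
      (⋃ i ∈ {i : Fin k | i ≠ c ∧ i ≠ f}, {w | i ∈ T w}) (h.closed f) hcl
      (fun w hw => by
        obtain ⟨i, hi, hic⟩ := frt_two h hw
        by_cases hif : i = f
        · exact Or.inl (hif ▸ hi)
        · exact Or.inr (mem_biUnion (show i ∈ {i : Fin k | i ≠ c ∧ i ≠ f} from ⟨hic, hif⟩) hi))
      ⟨p, hp, hpf⟩
      ⟨y, hy, mem_biUnion (show j ∈ {i : Fin k | i ≠ c ∧ i ≠ f} from
        ⟨hjc, fun e => hfy (e ▸ hj)⟩) hj⟩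
    obtain ⟨w, hw, hwf, hw2⟩ := h3
    obtain ⟨i, ⟨hic, hif⟩, hiw⟩ := mem_iUnion₂.1 hw2
    have h4 : ({c, f, i} : Set (Fin k)) ⊆ T w := by
      rintro l (rfl | rfl | rfl)
      · exact isl_col (hK hw)
      · exact hwf
      · exact hiw
    have h5 : ({c, f, i} : Set (Fin k)).ncard = 3 := by
      rw [Set.ncard_eq_three]
      exact ⟨c, f, i, hf.symm, fun e => hic e.symm, fun e => hif e.symm, rfl⟩
    have h6 := Set.ncard_le_ncard h4 (Set.toFinite _)
    have h7 := hcard w hw
    omega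
  have h4 : ({c, f} : Set (Fin k)) ⊆ T y := by
    rintro l (rfl | rfl)
    · exact isl_col (hK hy)
    · exact hfy
  have h5 : ({c, f} : Set (Fin k)).ncard = 2 := Set.ncard_pair hf.symm
  exact (Set.eq_of_subset_of_ncard_le h4 (by rw [h5]; exact hcard y hy) (Set.toFinite _)).symm

/-- **the front rule** -/
theorem front928 (h : Irr U T) (ht : ∀ᶠ w in 𝓝[≠] z, (T w).ncard ≤ 2) {m : ℂ} (hm : ‖m‖ = 1)
    (hc1 : ∀ᶠ x in nap z m, c ∉ T x) (hc2 : ∀ᶠ x in nap z (-m), c ∉ T x) {R : ℝ} (hR : 0 < R) :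
    ∀ᶠ x in 𝓝[≠] z, c ∈ T x →
      (∃ C, IsPreconnected C ∧ z ∈ C ∧ x ∈ C ∧ C ⊆ closedBall z R ∧ ∀ y ∈ C, c ∈ T y) ∨
      ∃ f, f ≠ c ∧ x ∈ U f ∧ x ∈ U c ∧ ∃ p ∈ segment ℝ z x, p ≠ z ∧ T p = {c, f} := by
  obtain ⟨r0, hr0, hb0⟩ := Metric.eventually_nhds_iff_ball.1 (eventually_nhdsWithin_iff.1 ht)
  obtain ⟨κ0, hκ0, hcone⟩ := cone928 hm hc1 hc2
  obtain ⟨r, hr, hrr0, hrR⟩ : ∃ r > 0, r < r0 ∧ r ≤ R :=
    ⟨min (r0 / 2) R, lt_min (by linarith) hR, lt_of_le_of_lt (min_le_left _ _) (by linarith),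
      min_le_right _ _⟩
  have h2 : ∀ w ∈ closedBall z r, w ≠ z → (T w).ncard ≤ 2 := fun w hw hwz =>
    hb0 w (closedBall_subset_ball hrr0 hw) hwz
  obtain ⟨κ, hκ, hκ1, hκκ, hκr⟩ : ∃ κ > 0, κ ≤ 1 ∧ κ ≤ κ0 ∧ κ ≤ r :=
    ⟨min 1 (min κ0 r), by positivity, min_le_left _ _, (min_le_right _ _).trans (min_le_left _ _),
      (min_le_right _ _).trans (min_le_right _ _)⟩
  set τ := κ / (2 * (κ + 1)) with hτ
  have hτ0 : 0 < τ := by positivity
  have hτκ : τ ≤ κ / 2 := by
    rw [hτ, div_le_div_iff₀ (by positivity) (by norm_num)]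
    nlinarith
  have hε : 0 < τ ^ 2 / 2 := by positivity
  refine eventually_nhdsWithin_iff.2 (Metric.eventually_nhds_iff_ball.2
    ⟨τ ^ 2 / 2, hε, fun x hx hxz hcx => ?_⟩)
  have hxz : x ≠ z := hxz
  have hxn : ‖x - z‖ < τ ^ 2 / 2 := by rw [← dist_eq_norm]; exact hx
  have hxκ : ‖x - z‖ < κ / 2 := by nlinarith
  have hxD : x ∈ closedBall z r := by
    rw [mem_closedBall, dist_eq_norm]; linarith
  have hxK : x ∈ Isl T c z r x := mem_connectedComponentIn ⟨hcx, hxD⟩
  by_cases hzK : z ∈ Isl T c z r x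
  · exact Or.inl ⟨_, isl_pre, hzK, hxK, isl_sub.trans (closedBall_subset_closedBall hrR),
      fun y hy => isl_col hy⟩
  right
  set K := Isl T c z r x with hKdef
  have hKc : IsClosed K := isl_closed h
  have hD := convex_closedBall z r
  have hzO : z ∈ connectedComponentIn (closedBall z r \ K) z :=
    mem_connectedComponentIn ⟨mem_closedBall_self hr.le, hzK⟩
  have hKO : ∀ y ∈ K, y ∉ connectedComponentIn (closedBall z r \ K) z := fun y hy hyO =>
    (connectedComponentIn_subset _ _ hyO).2 hy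
  -- the first point of the segment
  obtain ⟨t0, ht0, hpF, -⟩ := exit928 hD isClosed_closedBall hKc (u := z)
    (γ := fun t : ℝ => x + (t : ℂ) * (z - x)) (by fun_prop) (a := 0) (b := 1) zero_le_one
    (fun t ht => by
      rw [mem_closedBall, dist_eq_norm]
      have e : x + (t : ℂ) * (z - x) - z = ((1 - t : ℝ) : ℂ) * (x - z) := by push_cast; ring
      rw [e, norm_mul, Complex.norm_real, Real.norm_eq_abs, abs_of_nonneg (by linarith [ht.2])]
      have h3 : ‖x - z‖ ≤ r := by linarith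
      nlinarith [norm_nonneg (x - z), ht.1])
    (by simpa using hKO x hxK) (by simpa using hzO)
  set p := x + (t0 : ℂ) * (z - x) with hp
  have hpK : p ∈ K := frt_sub hD hKc hpF
  obtain ⟨f, hfp, hfc⟩ := frt_two h hpF
  have hTp : T p = {c, f} := frt_const h hr h2 hxK hzK hpF hfc hfp hpF
  have hxU : x ∈ U f := by
    refine h.max f x fun q hq hdq => ?_
    -- a point of the circle about `q` in the cone
    obtain ⟨t1, ht1, hmeet⟩ := meet928 (z := z) hm hκ hκ1 (x := x) (q := q) hdq hxn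
    have hxq : ‖x - q‖ = 1 := by rw [← dist_eq_norm]; exact hdq
    have hmove : ∀ t : ℝ, |t| ≤ κ / 2 → ‖q + (x - q) * cis t - z‖ < κ := by
      intro t ht
      have e : q + (x - q) * cis t - z = (x - z) + (x - q) * (cis t - 1) := by ring
      rw [e]
      refine (norm_add_le _ _).trans_lt ?_
      rw [norm_mul, hxq, one_mul]
      have := norm_cis_sub_one928 t
      linarith
    set w := q + (x - q) * cis t1 with hw
    have hwO : w ∈ connectedComponentIn (closedBall z r \ K) z := by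
      rcases hmeet with h3 | h3
      · rw [h3]; exact hzO
      · have hwκ := hmove t1 ht1
        have hseg : segment ℝ z w ⊆ closedBall z r \ K := by
          rintro _ ⟨a, b, ha, hb, hab, rfl⟩
          have e : a • z + b • w - z = (b : ℂ) * (w - z) := by
            have : (a : ℂ) + b = 1 := by exact_mod_cast hab
            simp only [Complex.real_smul]
            linear_combination z * this
          have hn : ‖a • z + b • w - z‖ = b * ‖w - z‖ := by
            rw [e, norm_mul, Complex.norm_real, Real.norm_eq_abs, abs_of_nonneg hb]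
          have hb1 : b ≤ 1 := by linarith
          have hn2 : ‖a • z + b • w - z‖ < κ := by
            rw [hn]; nlinarith [norm_nonneg (w - z)]
          refine ⟨by rw [mem_closedBall, dist_eq_norm]; linarith, fun hyK => ?_⟩
          rcases hb.eq_or_lt with hb0 | hb0
          · have : a • z + b • w = z := by
              have := e
              rw [← hb0, Complex.ofReal_zero, zero_mul] at this
              exact sub_eq_zero.1 (by rw [← hb0]; exact this)
            rw [this] at hyK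
            exact hzK hyK
          · refine hcone (a • z + b • w) ?_ (lt_of_lt_of_le hn2 hκκ) ?_ (isl_col hyK)
            · intro h4
              rw [h4] at hyK
              exact hzK hyK
            · rw [e, mul_assoc, Complex.im_ofReal_mul, Complex.re_ofReal_mul, abs_mul, abs_mul,
                abs_of_pos hb0]
              have h5 : |((w - z) * (starRingEnd ℂ) m).im| <
                  κ0 * |((w - z) * (starRingEnd ℂ) m).re| := by
                refine lt_of_lt_of_le h3 ?_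
                exact mul_le_mul_of_nonneg_right hκκ (abs_nonneg _)
              nlinarith
        exact (convex_segment z w).isPreconnected.subset_connectedComponentIn
          (left_mem_segment ℝ z w) hseg (right_mem_segment ℝ z w)
    -- the arc
    have hcc := continuous_cis
    have hγ : Continuous fun s : ℝ => q + (x - q) * cis (s * t1) := by fun_prop
    have hst : ∀ s ∈ Icc (0 : ℝ) 1, |s * t1| ≤ κ / 2 := by
      intro s hs
      rw [abs_mul, abs_of_nonneg hs.1]
      nlinarith [abs_nonneg t1, hs.2]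
    have hγD : ∀ s ∈ Icc (0 : ℝ) 1, q + (x - q) * cis (s * t1) ∈ closedBall z r := by
      intro s hs
      rw [mem_closedBall, dist_eq_norm]
      have := hmove _ (hst s hs)
      linarith
    have hcis0 : cis 0 = 1 := by simp [cis]
    obtain ⟨s0, hs0, hs0F, hs0O⟩ := exit928 hD isClosed_closedBall hKc (u := z) hγ (a := 0)
      (b := 1) zero_le_one hγD
      (by
        simp only [zero_mul, hcis0, mul_one]
        have e : q + (x - q) = x := by ring
        rw [e]
        exact hKO x hxK)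
      (by simp only [one_mul]; exact hwO)
    have hT0 : T (q + (x - q) * cis (s0 * t1)) = {c, f} :=
      frt_const h hr h2 hxK hzK hpF hfc hfp hs0F
    have hsph : ∀ s : ℝ, q + (x - q) * cis (s * t1) ∈ sphere q 1 := by
      intro s
      rw [mem_sphere, dist_eq_norm, add_sub_cancel_left, norm_mul, hxq, one_mul, norm_cis928]
    have hB := h.arcB (x := q + (x - q) * cis (s0 * t1)) (y := q) (i := f) (j := c)
      (by rw [hT0, pair_comm]) hq
    rw [eventually_nhdsWithin_iff] at hB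
    have hB2 : ∀ᶠ s in 𝓝 s0, c ∈ T (q + (x - q) * cis (s * t1)) :=
      (hγ.tendsto s0).eventually hB |>.mono fun s hs => hs (hsph s)
    obtain ⟨η, hη, hηb⟩ := Metric.eventually_nhds_iff_ball.1 hB2
    obtain ⟨s1, hs1, hs11, hs1η⟩ : ∃ s1, s0 < s1 ∧ s1 ≤ 1 ∧ s1 < s0 + η :=
      ⟨min ((s0 + 1) / 2) (s0 + η / 2), lt_min (by linarith [hs0.2]) (by linarith),
        (min_le_left _ _).trans (by linarith [hs0.2]),
        lt_of_le_of_lt (min_le_right _ _) (by linarith)⟩
    have himg : (fun s : ℝ => q + (x - q) * cis (s * t1)) '' Icc s0 s1 ⊆ K := by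
      refine isl_of (isPreconnected_Icc.image _ hγ.continuousOn)
        (mem_image_of_mem _ (left_mem_Icc.2 hs1.le)) (frt_sub hD hKc hs0F) ?_ ?_
      · rintro _ ⟨s, hs, rfl⟩
        refine hηb s ?_
        rw [mem_ball, Real.dist_eq, abs_of_nonneg (by linarith [hs.1])]
        linarith [hs.2]
      · rintro _ ⟨s, hs, rfl⟩
        exact hγD s ⟨hs0.1.trans hs.1, hs.2.trans hs11⟩
    exact hKO _ (himg (mem_image_of_mem _ (right_mem_Icc.2 hs1.le))) (hs0O s1 ⟨hs1, hs11⟩)
  refine ⟨f, hfc, hxU, h.off x (fun hX => hX f hxU) c hcx, p, ?_, ?_, hTp⟩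
  · refine ⟨t0, 1 - t0, ht0.1, by linarith [ht0.2], by ring, ?_⟩
    rw [hp]
    simp only [Complex.real_smul]
    push_cast
    ring
  · intro hpz
    rw [hpz] at hpK
    exact hzK hpK

/-- an overlap near `z` is no exact letter of the circle -/
theorem no_letter928 (h : Irr U T) {g : ℂ} (hg : dist g z = 1) {c f : Fin k} (hT : T g ⊆ {c, f}) :
    ∀ᶠ x in 𝓝 z, ¬ (x ∈ U c ∧ x ∈ U f) := by
  have hc : Continuous fun x : ℂ => g + (x - z) := by fun_prop
  have h1 := hc.tendsto z
  have e : g + (z - z) = g := by ring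
  rw [e] at h1
  filter_upwards [h1.eventually (h.nhd g)] with x hx hcf
  obtain ⟨j, hj⟩ := h.ne (g + (x - z))
  have hd : dist x (g + (x - z)) = 1 := by
    rw [dist_comm, dist_eq_norm]
    rw [dist_eq_norm] at hg
    rw [← hg]
    congr 1
    ring
  rcases hT (hx hj) with rfl | hjf
  · exact h.mx.notMem' hcf.1 hd (h.sub _ hj)
  · have hjf : j = f := hjf
    subst hjf
    exact h.mx.notMem' hcf.2 hd (h.sub _ hj)

end Vale.Agent.P032.H928
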