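import Vale.Agent.P032.H448.Cov
import Vale.Agent.P032.H928.Front

/-!
# P032: the front rule of a tame centre in the form of helper448

`front448_928` : `Front448 T U z` at a tame point `z` all colours of which occur on exact arcs of
its circle.  `tame_win928` : the windows of a tame centre of order six, both ends honest.
-/

open Set Filter Topology Metric

noncomputable section

namespace Vale.Agent.P032.H928

open Vale.Agent.P032.Six Vale.Agent.P032.Sweep Vale.Agent.P032.S5.H767 Vale.Agent.P032.S5.H122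
  Vale.Agent.P032.H158 Vale.Agent.P032.H429 Vale.Agent.P032.H187 Vale.Agent.P032.H266
  Vale.Agent.P032.H259 Vale.Agent.P032.H448

variable {U : Fin 6 → Set ℂ} {T : ℂ → Set (Fin 6)} {z : ℂ} {c : Fin 6}

/-- a colour of an arc of the circle has a free double cone -/
theorem cones928 (h : Irr U T) {s : ℝ} (hs : s ∈ Lc T z) (hc : c ∈ T (pt z s)) :
    (∀ᶠ x in nap z (cis ((s + 3 / 2) * (Real.pi / 3))), c ∉ T x) ∧
      ∀ᶠ x in nap z (-cis ((s + 3 / 2) * (Real.pi / 3))), c ∉ T x := by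
  have key : ∀ x : ℝ, Real.cos ((x - s) * (Real.pi / 3)) = 0 →
      ∀ᶠ w in nap z (cis (x * (Real.pi / 3))), c ∉ T w := by
    intro x hx
    by_contra hcon
    have h1 : ∃ᶠ w in nap z (cis (x * (Real.pi / 3))), c ∈ T w := fun h2 => hcon h2
    exact dir_perp h hs hc h1 hx
  refine ⟨key _ ?_, ?_⟩
  · have e : (s + 3 / 2 - s) * (Real.pi / 3) = Real.pi / 2 := by ring
    rw [e, Real.cos_pi_div_two]
  · have e : -cis ((s + 3 / 2) * (Real.pi / 3)) = cis ((s + 9 / 2) * (Real.pi / 3)) := by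
      rw [← cis_add_pi326]
      congr 1
      ring
    rw [e]
    refine key _ ?_
    have e2 : (s + 9 / 2 - s) * (Real.pi / 3) = Real.pi / 2 + Real.pi := by ring
    rw [e2, Real.cos_add_pi, Real.cos_pi_div_two, neg_zero]

/-- **the front rule at a tame centre** -/
theorem front448_928 (h : Irr U T) (hz : ∀ i, i ∈ T z)
    (ht : ∀ᶠ w in 𝓝[≠] z, (T w).ncard ≤ 2) (hns : ∀ i, ∃ s ∈ Lc T z, i ∈ T (pt z s)) :
    Front448 T U z := by
  intro c
  obtain ⟨s, hs, hcs⟩ := hns c
  obtain ⟨h1, h2⟩ := cones928 h hs hcs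
  have hzC : z ∈ {y | c ∈ T y} ∩ closedBall z (1 : ℝ) :=
    ⟨hz c, mem_closedBall_self zero_le_one⟩
  obtain ⟨δ, hδ, hb⟩ := Metric.eventually_nhds_iff_ball.1 (eventually_nhdsWithin_iff.1
    (front928 h ht (norm_cis928 _) h1 h2 zero_lt_one))
  refine ⟨connectedComponentIn ({y | c ∈ T y} ∩ closedBall z 1) z,
    isPreconnected_connectedComponentIn, mem_connectedComponentIn hzC,
    fun x hx => (connectedComponentIn_subset _ _ hx).1, δ, hδ, fun x hx hcx hxC => ?_⟩
  have hxz : x ≠ z := by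
    rintro rfl
    exact hxC (mem_connectedComponentIn hzC)
  rcases hb x hx hxz hcx with ⟨C, hC, hzC', hxC', hCs, hCc⟩ | ⟨f, hfc, hxf, -, p, hp, hpz, hTp⟩
  · have h3 : C ⊆ connectedComponentIn ({y | c ∈ T y} ∩ closedBall z 1) z :=
      hC.subset_connectedComponentIn hzC' fun y hy => ⟨hCc y hy, hCs hy⟩
    exact absurd (h3 hxC') hxC
  · obtain ⟨a, b, ha, hb', hab, rfl⟩ := hp
    have e : a • z + b • x = z + (b : ℂ) * (x - z) := by
      have : (a : ℂ) + b = 1 := by exact_mod_cast hab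
      simp only [Complex.real_smul]
      linear_combination z * this
    rw [e] at hpz hTp
    refine ⟨f, hfc, hxf, b, ?_, by linarith, hTp⟩
    rcases hb'.eq_or_lt with h0 | h0
    · rw [← h0] at hpz
      simp at hpz
    · exact h0

/-- **the windows of a tame centre** of order six all colours of which occur in exact pair arcs:
both ends are honest directions -/
theorem tame_win928 (h : Irr U T) (hmin : Mh259 U T) (hz : ∀ i, i ∈ T z)
    (ht : ∀ᶠ w in 𝓝[≠] z, (T w).ncard ≤ 2)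
    (hns : ∀ i, ∃ s ∈ Lc T z, i ∈ T (pt z s) ∧ (T (pt z s)).ncard = 2) :
    ∃ L R : Fin 6 → ℝ, WinData T z L R ∧ (∀ i, L i ∈ HD U z i ∧ R i ∈ HD U z i) ∧
      ∀ i, ∀ s ∈ HD U z i, ∃ n : ℤ, L i + 6 * n ≤ s ∧ s ≤ R i + 6 * n :=
  tame_front448 h hmin hz ht hns (front448_928 h hz ht fun i => by
    obtain ⟨s, hs, hi, -⟩ := hns i
    exact ⟨s, hs, hi⟩)

end Vale.Agent.P032.H928
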