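import Vale.Agent.P032.H928.CovG
import Vale.Agent.P032.H928.FrontZ
import Vale.Agent.P032.H259W.Ex

/-!
# P032: honest directions and windows of a tame centre with one silent colour

`cov_hd928` : at a tame centre, if of any two colours at least one occurs on an arc of the circle
(at most one colour is silent), every direction is an honest direction of some colour.
`tame_w3_928` : a tame centre of order six with at most one silent colour has windows `W3`.
`tame_silent928` : it has windows with honest ends (`WinData`), or the windows are closed half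
circles for exactly one colour, which is silent.
-/

open Set Filter Topology Metric

noncomputable section

namespace Vale.Agent.P032.H928

open Vale.Agent.P032.Six Vale.Agent.P032.Sweep Vale.Agent.P032.S5.H767 Vale.Agent.P032.S5.H122
  Vale.Agent.P032.H158 Vale.Agent.P032.H429 Vale.Agent.P032.H187 Vale.Agent.P032.H266
  Vale.Agent.P032.H259 Vale.Agent.P032.H448 Vale.Agent.P032.H259W

variable {U : Fin 6 → Set ℂ} {T : ℂ → Set (Fin 6)} {z : ℂ} {c : Fin 6}

/-- **every direction of a tame centre with at most one silent colour is honest** -/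
theorem cov_hd928 (h : Irr U T) (ht : ∀ᶠ w in 𝓝[≠] z, (T w).ncard ≤ 2)
    (hns : ∀ c f : Fin 6, c ≠ f → ∃ g, (g = c ∨ g = f) ∧ ∃ s ∈ Lc T z, g ∈ T (pt z s)) (s : ℝ) :
    ∃ i, s ∈ HD U z i := by
  rcases cov928 h ht (fun c f hcf => by
      obtain ⟨g, hg, s, hs, hgs⟩ := hns c f hcf
      exact ⟨g, hg, _, norm_cis928 _, cones928 h hs hgs⟩)
    (norm_cis928 (s * (Real.pi / 3))) one_pos with ⟨i, hi⟩ | ⟨f, hf⟩
  · refine ⟨i, hd_of_comp h (isl_pre (T := T) (c := i) (z := z) (r := 1) (x := z)) ?_
      (fun x hx => isl_col hx) hi⟩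
    obtain ⟨v, hv⟩ := hi.exists
    by_contra hcon
    unfold Isl at hv hcon
    rw [connectedComponentIn_eq_empty (fun hz => hcon (mem_connectedComponentIn hz))] at hv
    exact hv
  · exact ⟨f, HD_of_Dr h.mx (subset_closure (ray_of_nap hf))⟩

/-- **windows of a tame centre with at most one silent colour** -/
theorem tame_w3_928 (h : Irr U T) (hmin : Mh259 U T) (hz : ∀ i, i ∈ T z)
    (ht : ∀ᶠ w in 𝓝[≠] z, (T w).ncard ≤ 2)
    (hns : ∀ c f : Fin 6, c ≠ f → ∃ g, (g = c ∨ g = f) ∧ ∃ s ∈ Lc T z, g ∈ T (pt z s)) :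
    ∃ L R : Fin 6 → ℝ, W3 U T z L R := by
  have h6 := ncard_all259 hz
  exact w3_of_hd h hz (fun i => tame_att259 h hmin (by omega) ht (hz i)) (cov_hd928 h ht hns)

end Vale.Agent.P032.H928
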