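import Vale.Agent.P032.H928.Sep

/-!
# P032: the directions of a tame centre

`cov928` : at a tame point `z` such that of any two colours at least one has a free double cone at
`z`, every direction is a direction of the component of `z` in a colour (in a disc) or a direction
solid for a colour.
-/

open Set Filter Topology Metric

noncomputable section

namespace Vale.Agent.P032.H928

open Vale.Agent.P032.Six

variable {k : ℕ} {U : Fin k → Set ℂ} {T : ℂ → Set (Fin k)} {z : ℂ} {c f : Fin k} {r : ℝ}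

theorem isl_near' (h : Irr U T) {w : ℂ} (hw : w ∈ closedBall z r) {L : Set ℂ}
    (hL : IsClosed L) (hd : ∀ y ∈ L, y ∉ Isl T c z r w) :
    ∀ᶠ v in 𝓝 w, Disjoint (Isl T c z r v) L := by
  by_cases hc : c ∈ T w
  · exact isl_near h hw hc hL hd
  · filter_upwards [(h.closed c).isOpen_compl.mem_nhds hc] with v hv
    unfold Isl
    rw [connectedComponentIn_eq_empty (fun h => hv h.1)]
    exact Set.empty_disjoint _

/-- **every direction of a tame centre is attached or solid** -/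
theorem cov928 (h : Irr U T) (ht : ∀ᶠ w in 𝓝[≠] z, (T w).ncard ≤ 2)
    (hc : ∀ c f : Fin k, c ≠ f → ∃ g, (g = c ∨ g = f) ∧ ∃ n : ℂ, ‖n‖ = 1 ∧
      (∀ᶠ x in nap z n, g ∉ T x) ∧ ∀ᶠ x in nap z (-n), g ∉ T x)
    {m : ℂ} (hm : ‖m‖ = 1) {R : ℝ} (hR : 0 < R) :
    (∃ i, ∃ᶠ v in nap z m, v ∈ Isl T i z R z) ∨ ∃ f, ∀ᶠ v in nap z m, v ∈ U f := by
  rw [or_iff_not_imp_left]
  intro hA
  push Not at hA
  obtain ⟨r0, hr0, hb0⟩ := Metric.eventually_nhds_iff_ball.1 (eventually_nhdsWithin_iff.1 ht)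
  obtain ⟨r, hr, hrr0, hrR⟩ : ∃ r > 0, r < r0 ∧ r ≤ R :=
    ⟨min (r0 / 2) R, lt_min (by linarith) hR, lt_of_le_of_lt (min_le_left _ _) (by linarith),
      min_le_right _ _⟩
  have h2 : ∀ w ∈ closedBall z r, w ≠ z → (T w).ncard ≤ 2 := fun w hw hwz =>
    hb0 w (closedBall_subset_ball hrr0 hw) hwz
  have hD := convex_closedBall z r
  have hKO : ∀ {K : Set ℂ}, ∀ v ∈ K, v ∉ connectedComponentIn (closedBall z r \ K) z :=
    fun v hv hvO => (connectedComponentIn_subset _ _ hvO).2 hv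
  have hA' : ∀ᶠ v in nap z m, ∀ i, v ∉ Isl T i z r z := by
    refine eventually_all.2 fun i => ?_
    filter_upwards [hA i] with v hv hvr
    exact hv (connectedComponentIn_mono z
      (inter_subset_inter_right _ (closedBall_subset_closedBall hrR)) hvr)
  obtain ⟨δ0, hδ0, hdel0⟩ := nap_iff.1 hA'
  obtain ⟨δ, hδ, hδ1, hδr⟩ : ∃ δ > 0, δ ≤ δ0 ∧ δ ≤ r :=
    ⟨min δ0 r, lt_min hδ0 hr, min_le_left _ _, min_le_right _ _⟩
  have hdel : ∀ s ρ : ℝ, |s| < δ → 0 < ρ → ρ < δ → ∀ i, z + ρ * (m * cis s) ∉ Isl T i z r z :=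
    fun s ρ hs h0 h1 => hdel0 s ρ (hs.trans_le hδ1) h0 (h1.trans_le hδ1)
  have hnorm : ∀ s ρ : ℝ, 0 ≤ ρ → ‖z + ρ * (m * cis s) - z‖ = ρ := by
    intro s ρ h0
    rw [add_sub_cancel_left, norm_mul, norm_mul, hm, norm_cis928, one_mul, mul_one,
      Complex.norm_real, Real.norm_eq_abs, abs_of_nonneg h0]
  have hsecD : ∀ s ρ : ℝ, 0 ≤ ρ → ρ ≤ r → z + ρ * (m * cis s) ∈ closedBall z r := by
    intro s ρ h0 h1
    rw [mem_closedBall, dist_eq_norm, hnorm s ρ h0]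
    exact h1
  have hcis0 : cis 0 = 1 := by simp [cis]
  obtain ⟨ρ0, hρ0, hρ0δ⟩ : ∃ ρ0 : ℝ, 0 < ρ0 ∧ ρ0 < δ := ⟨δ / 2, by linarith, by linarith⟩
  set y := z + (ρ0 : ℂ) * (m * cis 0) with hy
  have hyD : y ∈ closedBall z r := hsecD 0 ρ0 hρ0.le (hρ0δ.le.trans hδr)
  have hyz : y ≠ z := by
    intro he
    have := hnorm 0 ρ0 hρ0.le
    rw [← hy, he, sub_self, norm_zero] at this
    linarith
  have hwt : ∀ t : ℝ, z + (t : ℂ) * (y - z) = z + ((t * ρ0 : ℝ) : ℂ) * (m * cis 0) := by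
    intro t
    rw [hy]
    push_cast
    ring
  have hwD : ∀ t ∈ Icc (0 : ℝ) 1, z + (t : ℂ) * (y - z) ∈ closedBall z r := by
    intro t ht
    rw [hwt]
    exact hsecD _ _ (mul_nonneg ht.1 hρ0.le) (by nlinarith [ht.2])
  have hfree : ∀ t ∈ Ioc (0 : ℝ) 1, ∀ i, z + (t : ℂ) * (y - z) ∉ Isl T i z r z := by
    intro t ht
    rw [hwt]
    exact hdel 0 _ (by rw [abs_zero]; exact hδ) (mul_pos ht.1 hρ0) (by nlinarith [ht.2])
  have hzK : ∀ t ∈ Ioc (0 : ℝ) 1, ∀ i ∈ T (z + (t : ℂ) * (y - z)),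
      z ∉ Isl T i z r (z + (t : ℂ) * (y - z)) := by
    intro t ht i hi hz
    refine hfree t ht i ?_
    unfold Isl at hz ⊢
    rw [← connectedComponentIn_eq hz]
    exact mem_connectedComponentIn ⟨hi, hwD t ⟨ht.1.le, ht.2⟩⟩
  -- constant palette of the cutting islands
  obtain ⟨c, f, hcf⟩ : ∃ c f : Fin k, ∃ᶠ t in 𝓝[>] (0 : ℝ), t ∈ Ioc (0 : ℝ) 1 ∧
      c ∈ T (z + (t : ℂ) * (y - z)) ∧
      y ∉ connectedComponentIn (closedBall z r \ Isl T c z r (z + (t : ℂ) * (y - z))) z ∧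
      f ≠ c ∧ ∀ p ∈ Frt (closedBall z r) (Isl T c z r (z + (t : ℂ) * (y - z))) z, T p = {c, f} := by
    by_contra hcon
    rw [not_exists] at hcon
    have h3 : ∀ᶠ t in 𝓝[>] (0 : ℝ), ∀ c f : Fin k, ¬ (t ∈ Ioc (0 : ℝ) 1 ∧
      c ∈ T (z + (t : ℂ) * (y - z)) ∧
      y ∉ connectedComponentIn (closedBall z r \ Isl T c z r (z + (t : ℂ) * (y - z))) z ∧
      f ≠ c ∧
      ∀ p ∈ Frt (closedBall z r) (Isl T c z r (z + (t : ℂ) * (y - z))) z, T p = {c, f}) :=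
      eventually_all.2 fun c => eventually_all.2 fun f =>
        Filter.not_frequently.1 (not_exists.1 (hcon c) f)
    obtain ⟨η, hη, hsub⟩ := mem_nhdsGT_iff_exists_Ioo_subset.1 h3
    obtain ⟨t, ht, htη, c, hct, hcO⟩ := sep928 h hr h2 hyD hyz hfree hη
    have hz := hzK t ht c hct
    have hxK : z + (t : ℂ) * (y - z) ∈ Isl T c z r (z + (t : ℂ) * (y - z)) :=
      mem_connectedComponentIn ⟨hct, hwD t ⟨ht.1.le, ht.2⟩⟩
    obtain ⟨s, hs, hsF, -⟩ := exit928 hD isClosed_closedBall (isl_closed h) (u := z)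
      (γ := fun s : ℝ => z + ((1 - s : ℝ) : ℂ) * (y - z)) (by fun_prop) (a := 0) (b := 1)
      zero_le_one (fun s hs => hwD (1 - s) ⟨by linarith [hs.2], by linarith [hs.1]⟩)
      (by
        have e : z + ((1 - 0 : ℝ) : ℂ) * (y - z) = y := by push_cast; ring
        show z + ((1 - 0 : ℝ) : ℂ) * (y - z) ∉ _
        rw [e]
        exact hcO)
      (by
        have e : z + ((1 - 1 : ℝ) : ℂ) * (y - z) = z := by push_cast; ring
        show z + ((1 - 1 : ℝ) : ℂ) * (y - z) ∈ _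
        rw [e]
        exact mem_connectedComponentIn ⟨mem_closedBall_self hr.le, hz⟩)
    obtain ⟨f, hf, hfc⟩ := frt_two h hsF
    exact hsub ⟨ht.1, htη⟩ c f ⟨ht, hct, hcO, hfc, fun p hp =>
      frt_const h hr h2 hxK hz hsF hfc hf hp⟩
  refine ⟨f, ?_⟩
  have hfc : f ≠ c := by
    obtain ⟨t, ht⟩ := hcf.exists
    exact ht.2.2.2.1
  obtain ⟨g, hg, n, hn, hn1, hn2⟩ := hc c f hfc.symm
  obtain ⟨κ0, hκ0, hcone⟩ := cone928 hn hn1 hn2
  obtain ⟨κ, hκ, hκ1, hκκ, hκr⟩ : ∃ κ > 0, κ ≤ 1 ∧ κ ≤ κ0 ∧ κ ≤ r :=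
    ⟨min 1 (min κ0 r), by positivity, min_le_left _ _, (min_le_right _ _).trans (min_le_left _ _),
      (min_le_right _ _).trans (min_le_right _ _)⟩
  have hcone' : ∀ w, w ≠ z → ‖w - z‖ < κ →
      |((w - z) * (starRingEnd ℂ) n).im| < κ * |((w - z) * (starRingEnd ℂ) n).re| → g ∉ T w :=
    fun w hw1 hw2 hw3 => hcone w hw1 (hw2.trans_le hκκ)
      (hw3.trans_le (mul_le_mul_of_nonneg_right hκκ (abs_nonneg _)))
  have hε : 0 < (κ / (2 * (κ + 1))) ^ 2 / 2 := by positivity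
  refine nap_iff.2 ⟨min δ ((κ / (2 * (κ + 1))) ^ 2 / 2), lt_min hδ hε, fun s ρ hs hρ hρδ => ?_⟩
  have hsδ : |s| < δ := hs.trans_le (min_le_left _ _)
  have hρ1 : ρ < δ := hρδ.trans_le (min_le_left _ _)
  have hρ2 : ρ < (κ / (2 * (κ + 1))) ^ 2 / 2 := hρδ.trans_le (min_le_right _ _)
  -- the path in the sector
  set γ : ℝ → ℂ := fun u => z + (((1 - u) * ρ0 + u * ρ : ℝ) : ℂ) * (m * cis (u * s)) with hγ
  have hγc : Continuous γ := by
    have := continuous_cis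
    fun_prop
  have hγ0 : γ 0 = y := by
    simp only [hγ, hy]
    push_cast
    ring_nf
  have hγ1 : γ 1 = z + (ρ : ℂ) * (m * cis s) := by
    simp only [hγ]
    push_cast
    ring_nf
  have hγp : ∀ u ∈ Icc (0 : ℝ) 1, |u * s| < δ ∧ 0 < (1 - u) * ρ0 + u * ρ ∧
      (1 - u) * ρ0 + u * ρ < δ := by
    intro u hu
    refine ⟨?_, ?_, ?_⟩
    · rw [abs_mul, abs_of_nonneg hu.1]
      nlinarith [abs_nonneg s, hu.2]
    · rcases hu.1.eq_or_lt with h0 | h0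
      · rw [← h0]; linarith
      · nlinarith [mul_pos h0 hρ, mul_nonneg (sub_nonneg.2 hu.2) hρ0.le]
    · rcases hu.1.eq_or_lt with h0 | h0
      · rw [← h0]; linarith
      · nlinarith [mul_pos h0 (sub_pos.2 hρ1), mul_nonneg (sub_nonneg.2 hu.2) (sub_pos.2 hρ0δ).le]
  have hLc : IsCompact (γ '' Icc 0 1) := isCompact_Icc.image hγc
  have hLp : IsPreconnected (γ '' Icc 0 1) := isPreconnected_Icc.image _ hγc.continuousOn
  have hLf : ∀ p ∈ γ '' Icc 0 1, p ∉ Isl T c z r z := by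
    rintro _ ⟨u, hu, rfl⟩
    obtain ⟨h3, h4, h5⟩ := hγp u hu
    exact hdel _ _ h3 h4 h5 c
  have hLD : γ '' Icc 0 1 ⊆ closedBall z r := by
    rintro _ ⟨u, hu, rfl⟩
    obtain ⟨h3, h4, h5⟩ := hγp u hu
    exact hsecD _ _ h4.le (h5.le.trans hδr)
  have hev := isl_near' h (c := c) (z := z) (r := r) (mem_closedBall_self hr.le) hLc.isClosed hLf
  have hct : Continuous fun t : ℝ => z + (t : ℂ) * (y - z) := by fun_prop
  have htd : Tendsto (fun t : ℝ => z + (t : ℂ) * (y - z)) (𝓝[>] 0) (𝓝 z) := by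
    have h3 := hct.tendsto 0
    simp only [Complex.ofReal_zero, zero_mul, add_zero] at h3
    exact h3.mono_left nhdsWithin_le_nhds
  obtain ⟨t, ⟨ht, hct', hyO, -, hF⟩, hdis⟩ := (hcf.and_eventually (htd.eventually hev)).exists
  have hz := hzK t ht c hct'
  have hLK : γ '' Icc 0 1 ⊆ closedBall z r \ Isl T c z r (z + (t : ℂ) * (y - z)) := fun p hp =>
    ⟨hLD hp, fun hpK => Set.disjoint_left.1 hdis hpK hp⟩
  refine behind928 h hn hκ hκ1 hκr hg hcone' hz hF ?_ (by rw [hnorm s ρ hρ.le]; exact hρ2)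
  intro hvO
  refine hyO ?_
  rw [connectedComponentIn_eq hvO]
  refine hLp.subset_connectedComponentIn ?_ hLK ?_
  · rw [← hγ1]
    exact mem_image_of_mem _ (right_mem_Icc.2 zero_le_one)
  · rw [← hγ0]
    exact mem_image_of_mem _ (left_mem_Icc.2 zero_le_one)

end Vale.Agent.P032.H928
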