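import Vale.Agent.P032.H928.Front
import Vale.Agent.P032.S5.Clopen

/-!
# P032: islands between a point and a tame centre

`behind928` : behind an island of the colour `c` with the front palette `{c, f}`, all points near
`z` are in `U f`, if `c` or `f` has a free double cone at `z`.
`sep928` : if the segment from `z` to `y` meets no component of `z` in a colour (in the disc), then
islands through points of the segment arbitrarily near to `z` separate `y` from `z` in the disc.
-/

open Set Filter Topology Metric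

noncomputable section

namespace Vale.Agent.P032.H928

open Vale.Agent.P032.Six

/-! ### Clopen parts of a compact set -/

theorem clo_sep {A : Set ℂ} (hA : IsCompact A) {w : ℂ} (hw : w ∈ A) {L : Set ℂ} (hL : IsClosed L)
    (h : ∀ y ∈ L, y ∉ connectedComponentIn A w) :
    ∃ X ⊆ A, IsClosed X ∧ IsClosed (A \ X) ∧ w ∈ X ∧ Disjoint X L := by
  have : CompactSpace A := isCompact_iff_compactSpace.1 hA
  obtain ⟨N, hN, hwN, hd⟩ := S5.exists_clopen_point (x := (⟨w, hw⟩ : A))
    (hL.preimage continuous_subtype_val) (by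
      intro y hy hyc
      refine h y hy ?_
      rw [connectedComponentIn_eq_image hw]
      exact ⟨y, hyc, rfl⟩)
  refine ⟨Subtype.val '' N, ?_, (hN.1.isCompact.image continuous_subtype_val).isClosed, ?_,
    ⟨_, hwN, rfl⟩, ?_⟩
  · rintro _ ⟨y, -, rfl⟩
    exact y.2
  · have e : A \ Subtype.val '' N = Subtype.val '' Nᶜ := by
      ext y
      constructor
      · rintro ⟨hyA, hy⟩
        exact ⟨⟨y, hyA⟩, fun hyN => hy ⟨_, hyN, rfl⟩, rfl⟩
      · rintro ⟨y, hy, rfl⟩
        refine ⟨y.2, ?_⟩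
        rintro ⟨y', hy', he⟩
        rw [Subtype.val_injective he] at hy'
        exact hy hy'
    rw [e]
    exact (hN.compl.1.isCompact.image continuous_subtype_val).isClosed
  · rw [Set.disjoint_left]
    rintro _ ⟨y, hy, rfl⟩ hyL
    exact Set.disjoint_left.1 hd hy hyL

theorem clo_conn {A X S : Set ℂ} (hX : IsClosed X) (hAX : IsClosed (A \ X))
    (hS : IsPreconnected S) (hSA : S ⊆ A) {w : ℂ} (hw : w ∈ S) (hwX : w ∈ X) : S ⊆ X := by
  intro y hy
  by_contra hcon
  obtain ⟨v, -, h1, h2⟩ := (isPreconnected_closed_iff.1 hS) X (A \ X) hX hAX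
    (fun v hv => by
      by_cases h : v ∈ X
      · exact Or.inl h
      · exact Or.inr ⟨hSA hv, h⟩) ⟨w, hw, hwX⟩ ⟨y, hy, hSA hy, hcon⟩
  exact h2.2 h1

theorem clo_nhd {A X : Set ℂ} (hAX : IsClosed (A \ X)) {p : ℂ} (hp : p ∈ X) :
    ∀ᶠ w in 𝓝 p, w ∈ A → w ∈ X := by
  filter_upwards [hAX.isOpen_compl.mem_nhds (fun h => h.2 hp)] with w hw hwA
  by_contra h
  exact hw ⟨hwA, h⟩

variable {k : ℕ} {U : Fin k → Set ℂ} {T : ℂ → Set (Fin k)} {z : ℂ} {c f : Fin k} {r : ℝ}

/-- points of `O` are joined to `z` by a compact connected set -/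
theorem joint928 (hr : 0 < r) {K : Set ℂ} (hK : IsClosed K) (hz : z ∉ K) {y : ℂ}
    (hy : y ∈ connectedComponentIn (closedBall z r \ K) z) :
    ∃ J : Set ℂ, IsCompact J ∧ IsPreconnected J ∧ z ∈ J ∧ y ∈ J ∧ J ⊆ closedBall z r \ K := by
  set O := connectedComponentIn (closedBall z r \ K) z with hO
  have hOD : O ⊆ closedBall z r := fun w hw => (connectedComponentIn_subset _ _ hw).1
  have hzO : z ∈ O := mem_connectedComponentIn ⟨mem_closedBall_self hr.le, hz⟩
  have hρ := rho_cont (z := z) hr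
  have hopen : IsOpen (rho z r ⁻¹' O) := by
    rw [isOpen_iff_mem_nhds]
    intro a ha
    obtain ⟨ε, hε, hb⟩ := comp_nhd (convex_closedBall z r) hK ha
    filter_upwards [hρ.continuousAt.preimage_mem_nhds (ball_mem_nhds _ hε)] with v hv
    exact hb ⟨hv, rho_mem hr v⟩
  have hz' : z ∈ rho z r ⁻¹' O := by
    rw [mem_preimage, rho_of_mem hr (hOD hzO)]; exact hzO
  have hy' : y ∈ rho z r ⁻¹' O := by
    rw [mem_preimage, rho_of_mem hr (hOD hy)]; exact hy
  have hconn : IsConnected (rho z r ⁻¹' O) := ⟨⟨z, hz'⟩, pre_rho hr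
    isPreconnected_connectedComponentIn hOD⟩
  obtain ⟨γ, hγ⟩ := (hopen.isConnected_iff_isPathConnected.1 hconn).joinedIn z hz' y hy'
  have hc : Continuous fun t => rho z r (γ t) := hρ.comp γ.continuous
  refine ⟨range fun t => rho z r (γ t), isCompact_range hc, isPreconnected_range hc, ⟨0, ?_⟩,
    ⟨1, ?_⟩, ?_⟩
  · show rho z r (γ 0) = z
    rw [γ.source, rho_of_mem hr (hOD hzO)]
  · show rho z r (γ 1) = y
    rw [γ.target, rho_of_mem hr (hOD hy)]
  · rintro _ ⟨t, rfl⟩
    exact connectedComponentIn_subset _ _ (hγ t)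

theorem col_compact (h : Irr U T) : IsCompact ({y | c ∈ T y} ∩ closedBall z r) :=
  (isCompact_closedBall z r).inter_left (h.closed c)

/-- islands through points near `w` miss a closed set which misses the island of `w` -/
theorem isl_near (h : Irr U T) {w : ℂ} (hw : w ∈ closedBall z r) (hc : c ∈ T w) {L : Set ℂ}
    (hL : IsClosed L) (hd : ∀ y ∈ L, y ∉ Isl T c z r w) :
    ∀ᶠ v in 𝓝 w, Disjoint (Isl T c z r v) L := by
  obtain ⟨X, hXA, hX, hAX, hwX, hXL⟩ := clo_sep (col_compact h (c := c) (z := z) (r := r))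
    (w := w) ⟨hc, hw⟩ hL hd
  filter_upwards [clo_nhd hAX hwX] with v hv
  by_cases hvA : v ∈ {y | c ∈ T y} ∩ closedBall z r
  · exact hXL.mono_left (clo_conn hX hAX isPreconnected_connectedComponentIn
      (connectedComponentIn_subset _ _) (mem_connectedComponentIn hvA) (hv hvA))
  · unfold Isl
    rw [connectedComponentIn_eq_empty hvA]
    exact Set.empty_disjoint _

/-- **the behind rule** -/
theorem behind928 (h : Irr U T) {m : ℂ} (hm : ‖m‖ = 1) {κ : ℝ} (hκ : 0 < κ) (hκ1 : κ ≤ 1)
    (hκr : κ ≤ r) {g : Fin k} (hg : g = c ∨ g = f)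
    (hcone : ∀ w, w ≠ z → ‖w - z‖ < κ →
      |((w - z) * (starRingEnd ℂ) m).im| < κ * |((w - z) * (starRingEnd ℂ) m).re| → g ∉ T w)
    {w0 : ℂ} (hz : z ∉ Isl T c z r w0)
    (hF : ∀ y ∈ Frt (closedBall z r) (Isl T c z r w0) z, T y = {c, f}) {x : ℂ}
    (hxO : x ∉ connectedComponentIn (closedBall z r \ Isl T c z r w0) z)
    (hxn : ‖x - z‖ < (κ / (2 * (κ + 1))) ^ 2 / 2) : x ∈ U f := by
  set τ := κ / (2 * (κ + 1)) with hτ
  have hτ0 : 0 < τ := by positivity
  have hτκ : τ ≤ κ / 2 := by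
    rw [hτ, div_le_div_iff₀ (by positivity) (by norm_num)]
    nlinarith
  have hr : 0 < r := hκ.trans_le hκr
  have hxκ : ‖x - z‖ < κ / 2 := by nlinarith
  set K := Isl T c z r w0 with hKdef
  have hKc : IsClosed K := isl_closed h
  have hD := convex_closedBall z r
  have hzO : z ∈ connectedComponentIn (closedBall z r \ K) z :=
    mem_connectedComponentIn ⟨mem_closedBall_self hr.le, hz⟩
  have hKO : ∀ y ∈ K, y ∉ connectedComponentIn (closedBall z r \ K) z := fun y hy hyO =>
    (connectedComponentIn_subset _ _ hyO).2 hy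
  refine h.max f x fun q hq hdq => ?_
  obtain ⟨t1, ht1, hmeet⟩ := meet928 (z := z) hm hκ hκ1 (x := x) (q := q) hdq hxn
  have hxq : ‖x - q‖ = 1 := by rw [← dist_eq_norm]; exact hdq
  have hmove : ∀ t : ℝ, |t| ≤ κ / 2 → ‖q + (x - q) * cis t - z‖ < κ := by
    intro t ht
    have e : q + (x - q) * cis t - z = (x - z) + (x - q) * (cis t - 1) := by ring
    rw [e]
    refine (norm_add_le _ _).trans_lt ?_
    rw [norm_mul, hxq, one_mul]
    have := norm_cis_sub_one928 t
    linarith
  set w := q + (x - q) * cis t1 with hw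
  have hwO : w ∈ connectedComponentIn (closedBall z r \ K) z := by
    rcases hmeet with h3 | h3
    · rw [h3]; exact hzO
    · have hwκ := hmove t1 ht1
      by_contra hwO
      obtain ⟨s, hs, hsF, -⟩ := exit928 hD isClosed_closedBall hKc (u := z)
        (γ := fun t : ℝ => w + (t : ℂ) * (z - w)) (by fun_prop) (a := 0) (b := 1) zero_le_one
        (fun t ht => by
          rw [mem_closedBall, dist_eq_norm]
          have e : w + (t : ℂ) * (z - w) - z = ((1 - t : ℝ) : ℂ) * (w - z) := by push_cast; ring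
          rw [e, norm_mul, Complex.norm_real, Real.norm_eq_abs,
            abs_of_nonneg (by linarith [ht.2])]
          nlinarith [norm_nonneg (w - z), ht.1])
        (by simpa using hwO) (by simpa using hzO)
      have hT := hF _ hsF
      have e : w + (s : ℂ) * (z - w) - z = ((1 - s : ℝ) : ℂ) * (w - z) := by push_cast; ring
      have hs1 : 0 < 1 - s := by linarith [hs.2]
      refine hcone (w + (s : ℂ) * (z - w)) ?_ ?_ ?_ (by rw [hT]; exact hg)
      · intro h4
        have h5 := frt_sub hD hKc hsF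
        simp only [h4] at h5
        exact hz h5
      · rw [e, norm_mul, Complex.norm_real, Real.norm_eq_abs, abs_of_pos hs1]
        nlinarith [norm_nonneg (w - z), hs.1]
      · rw [e, mul_assoc, Complex.im_ofReal_mul, Complex.re_ofReal_mul, abs_mul, abs_mul,
          abs_of_pos hs1]
        nlinarith
  have hcc := continuous_cis
  have hγ : Continuous fun s : ℝ => q + (x - q) * cis (s * t1) := by fun_prop
  have hst : ∀ s ∈ Icc (0 : ℝ) 1, |s * t1| ≤ κ / 2 := by
    intro s hs
    rw [abs_mul, abs_of_nonneg hs.1]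
    nlinarith [abs_nonneg t1, hs.2]
  have hγD : ∀ s ∈ Icc (0 : ℝ) 1, q + (x - q) * cis (s * t1) ∈ closedBall z r := by
    intro s hs
    rw [mem_closedBall, dist_eq_norm]
    have := hmove _ (hst s hs)
    linarith
  have hcis0 : cis 0 = 1 := by simp [cis]
  obtain ⟨s0, hs0, hs0F, hs0O⟩ := exit928 hD isClosed_closedBall hKc (u := z) hγ (a := 0)
    (b := 1) zero_le_one hγD
    (by
      simp only [zero_mul, hcis0, mul_one]
      have e : q + (x - q) = x := by ring
      rw [e]
      exact hxO)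
    (by simp only [one_mul]; exact hwO)
  have hT0 : T (q + (x - q) * cis (s0 * t1)) = {c, f} := hF _ hs0F
  have hsph : ∀ s : ℝ, q + (x - q) * cis (s * t1) ∈ sphere q 1 := by
    intro s
    rw [mem_sphere, dist_eq_norm, add_sub_cancel_left, norm_mul, hxq, one_mul, norm_cis928]
  have hB := h.arcB (x := q + (x - q) * cis (s0 * t1)) (y := q) (i := f) (j := c)
    (by rw [hT0, pair_comm]) hq
  rw [eventually_nhdsWithin_iff] at hB
  have hB2 : ∀ᶠ s in 𝓝 s0, c ∈ T (q + (x - q) * cis (s * t1)) :=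
    (hγ.tendsto s0).eventually hB |>.mono fun s hs => hs (hsph s)
  obtain ⟨η, hη, hηb⟩ := Metric.eventually_nhds_iff_ball.1 hB2
  obtain ⟨s1, hs1, hs11, hs1η⟩ : ∃ s1, s0 < s1 ∧ s1 ≤ 1 ∧ s1 < s0 + η :=
    ⟨min ((s0 + 1) / 2) (s0 + η / 2), lt_min (by linarith [hs0.2]) (by linarith),
      (min_le_left _ _).trans (by linarith [hs0.2]),
      lt_of_le_of_lt (min_le_right _ _) (by linarith)⟩
  have himg : (fun s : ℝ => q + (x - q) * cis (s * t1)) '' Icc s0 s1 ⊆ K := by
    refine isl_of (isPreconnected_Icc.image _ hγ.continuousOn)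
      (mem_image_of_mem _ (left_mem_Icc.2 hs1.le)) (frt_sub hD hKc hs0F) ?_ ?_
    · rintro _ ⟨s, hs, rfl⟩
      refine hηb s ?_
      rw [mem_ball, Real.dist_eq, abs_of_nonneg (by linarith [hs.1])]
      linarith [hs.2]
    · rintro _ ⟨s, hs, rfl⟩
      exact hγD s ⟨hs0.1.trans hs.1, hs.2.trans hs11⟩
  exact hKO _ (himg (mem_image_of_mem _ (right_mem_Icc.2 hs1.le))) (hs0O s1 ⟨hs1, hs11⟩)

end Vale.Agent.P032.H928
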