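import Vale.Agent.P032.H926.Unico

/-!
# P032: fronts of continua in a disc

`disc_unico` : if a closed disc is the union of two closed connected sets, their intersection is
connected.  For a connected closed subset `K` of the disc `D` and the component `O` of a point in
`D \ K`, the front `(D \ O) ∩ closure O` lies in `K` and is connected (`front_pre`); a path in `D`
from a point outside `O` to a point of `O` passes the front (`exit928`).
-/

open Set Filter Topology Metric

noncomputable section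

namespace Vale.Agent.P032.H928

open Vale.Agent.P032.H926

variable {z : ℂ} {r : ℝ}

/-- the radial projection onto the closed disc -/
def rho (z : ℂ) (r : ℝ) (y : ℂ) : ℂ := z + ((r / max r ‖y - z‖ : ℝ) : ℂ) * (y - z)

theorem rho_cont (hr : 0 < r) : Continuous (rho z r) := by
  unfold rho
  have h1 : Continuous fun y : ℂ => r / max r ‖y - z‖ := by
    refine Continuous.div continuous_const (by fun_prop) fun y => ?_
    exact (lt_of_lt_of_le hr (le_max_left _ _)).ne'
  exact continuous_const.add ((Complex.continuous_ofReal.comp h1).mul (by fun_prop))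

theorem rho_mem (hr : 0 < r) (y : ℂ) : rho z r y ∈ closedBall z r := by
  have hm : 0 < max r ‖y - z‖ := lt_of_lt_of_le hr (le_max_left _ _)
  rw [mem_closedBall, dist_eq_norm, rho, add_sub_cancel_left, norm_mul, Complex.norm_real,
    Real.norm_eq_abs, abs_of_pos (div_pos hr hm), div_mul_eq_mul_div, div_le_iff₀ hm]
  exact mul_le_mul_of_nonneg_left (le_max_right _ _) hr.le

theorem rho_of_mem (hr : 0 < r) {y : ℂ} (hy : y ∈ closedBall z r) : rho z r y = y := by
  rw [mem_closedBall, dist_eq_norm] at hy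
  rw [rho, max_eq_left hy, div_self hr.ne']
  simp

theorem rho_seg (hr : 0 < r) {y w : ℂ} (hw : w ∈ segment ℝ (rho z r y) y) :
    rho z r w = rho z r y := by
  by_cases hy : ‖y - z‖ ≤ r
  · rw [rho_of_mem hr (by rw [mem_closedBall, dist_eq_norm]; exact hy), segment_same,
      mem_singleton_iff] at hw
    rw [hw, rho_of_mem hr (by rw [mem_closedBall, dist_eq_norm]; exact hy)]
  push Not at hy
  have hR : 0 < ‖y - z‖ := hr.trans hy
  obtain ⟨a, b, ha, hb, hab, rfl⟩ := hw
  have e1 : rho z r y = z + ((r / ‖y - z‖ : ℝ) : ℂ) * (y - z) := by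
    rw [rho, max_eq_right hy.le]
  set s : ℝ := a * (r / ‖y - z‖) + b with hs
  have e2 : a • rho z r y + b • y - z = (s : ℂ) * (y - z) := by
    rw [e1, hs]
    have : (a : ℂ) + b = 1 := by exact_mod_cast hab
    simp only [Complex.real_smul]
    push_cast
    linear_combination (z) * this
  have hs1 : r / ‖y - z‖ ≤ s := by
    have h1 : r / ‖y - z‖ ≤ 1 := by rw [div_le_one hR]; exact hy.le
    have h2 : b * (r / ‖y - z‖) ≤ b * 1 := mul_le_mul_of_nonneg_left h1 hb
    have h3 : r / ‖y - z‖ = a * (r / ‖y - z‖) + b * (r / ‖y - z‖) := by rw [← add_mul, hab, one_mul]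
    rw [hs]; linarith
  have hs0 : 0 < s := lt_of_lt_of_le (div_pos hr hR) hs1
  have e3 : ‖a • rho z r y + b • y - z‖ = s * ‖y - z‖ := by
    rw [e2, norm_mul, Complex.norm_real, Real.norm_eq_abs, abs_of_pos hs0]
  have h4 : r ≤ s * ‖y - z‖ := by
    rw [div_le_iff₀ hR] at hs1; exact hs1
  rw [rho, e3, max_eq_right h4, e2, e1, ← mul_assoc, ← Complex.ofReal_mul]
  congr 3
  field_simp

theorem pre_rho (hr : 0 < r) {A : Set ℂ} (hA : IsPreconnected A) (hAD : A ⊆ closedBall z r) :
    IsPreconnected (rho z r ⁻¹' A) := by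
  rcases A.eq_empty_or_nonempty with rfl | ⟨a0, ha0⟩
  · rw [preimage_empty]; exact isPreconnected_empty
  refine isPreconnected_of_forall a0 fun y hy => ?_
  refine ⟨A ∪ segment ℝ (rho z r y) y, union_subset (fun w hw => ?_) (fun w hw => ?_), Or.inl ha0,
    Or.inr (right_mem_segment ℝ _ _), ?_⟩
  · rw [mem_preimage, rho_of_mem hr (hAD hw)]; exact hw
  · rw [mem_preimage, rho_seg hr hw]; exact hy
  · exact hA.union (rho z r y) hy (left_mem_segment ℝ _ _) (convex_segment _ _).isPreconnected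

/-- **the closed disc is unicoherent** -/
theorem disc_unico (hr : 0 < r) {A B : Set ℂ} (hA : IsClosed A) (hB : IsClosed B)
    (hAB : A ∪ B = closedBall z r) (hAc : IsPreconnected A) (hBc : IsPreconnected B) :
    IsPreconnected (A ∩ B) := by
  rw [isPreconnected_closed_iff]
  intro t t' ht ht' hsub ⟨p, hp, hpt⟩ ⟨q, hq, hqt⟩
  by_contra hcon
  rw [not_nonempty_iff_eq_empty] at hcon
  have hd : Disjoint (A ∩ B ∩ t) (A ∩ B ∩ t') := by
    rw [Set.disjoint_left]
    intro x hx hx'
    have : x ∈ A ∩ B ∩ (t ∩ t') := ⟨hx.1, hx.2, hx'.2⟩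
    rw [hcon] at this
    exact this
  obtain ⟨f, hf0, hf1, -⟩ := exists_continuous_zero_one_of_isClosed ((hA.inter hB).inter ht)
    ((hA.inter hB).inter ht') hd
  have hρ := rho_cont (z := z) hr
  have hAD : A ⊆ closedBall z r := hAB ▸ subset_union_left
  have hBD : B ⊆ closedBall z r := hAB ▸ subset_union_right
  refine not_both (A := rho z r ⁻¹' A) (B := rho z r ⁻¹' B) (hA.preimage hρ) (hB.preimage hρ) ?_
    (pre_rho hr hAc hAD) (pre_rho hr hBc hBD) (φ := fun x => f (rho z r x))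
    (f.continuous.comp hρ) ?_ (p := p) (q := q) ?_ ?_ ?_ ?_
  · rw [← preimage_union, hAB]
    exact eq_univ_of_forall fun y => rho_mem hr y
  · rintro x ⟨h1, h2⟩
    rcases hsub ⟨h1, h2⟩ with h3 | h3
    · exact Or.inl (hf0 ⟨⟨h1, h2⟩, h3⟩)
    · exact Or.inr (hf1 ⟨⟨h1, h2⟩, h3⟩)
  · refine ⟨?_, ?_⟩
    · rw [mem_preimage, rho_of_mem hr (hAD hp.1)]; exact hp.1
    · rw [mem_preimage, rho_of_mem hr (hAD hp.1)]; exact hp.2
  · refine ⟨?_, ?_⟩
    · rw [mem_preimage, rho_of_mem hr (hAD hq.1)]; exact hq.1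
    · rw [mem_preimage, rho_of_mem hr (hAD hq.1)]; exact hq.2
  · show f (rho z r p) = 0
    rw [rho_of_mem hr (hAD hp.1)]
    exact hf0 ⟨hp, hpt⟩
  · show f (rho z r q) = 1
    rw [rho_of_mem hr (hAD hq.1)]
    exact hf1 ⟨hq, hqt⟩

/-! ### components of the complement of a closed set in a convex set -/

variable {D K : Set ℂ}

/-- a component of `D \ K` is open in `D` -/
theorem comp_nhd (hD : Convex ℝ D) (hK : IsClosed K) {u y : ℂ}
    (hy : y ∈ connectedComponentIn (D \ K) u) :
    ∃ ε > 0, ball y ε ∩ D ⊆ connectedComponentIn (D \ K) u := by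
  have h1 := connectedComponentIn_subset _ _ hy
  obtain ⟨ε, hε, hb⟩ := Metric.isOpen_iff.1 hK.isOpen_compl y h1.2
  refine ⟨ε, hε, ?_⟩
  rw [connectedComponentIn_eq hy]
  exact ((convex_ball y ε).inter hD).isPreconnected.subset_connectedComponentIn
    ⟨mem_ball_self hε, h1.1⟩ fun w hw => ⟨hw.2, hb hw.1⟩

/-- its closure adds only points of `K` -/
theorem comp_closure (hD : Convex ℝ D) (hK : IsClosed K) {u y : ℂ}
    (hy : y ∈ closure (connectedComponentIn (D \ K) u)) (hyD : y ∈ D) (hyK : y ∉ K) :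
    y ∈ connectedComponentIn (D \ K) u := by
  obtain ⟨ε, hε, hb⟩ := Metric.isOpen_iff.1 hK.isOpen_compl y hyK
  obtain ⟨w, hw, hwy⟩ := Metric.mem_closure_iff.1 hy ε hε
  rw [connectedComponentIn_eq hw]
  have hwb : w ∈ ball y ε ∩ D :=
    ⟨by rw [mem_ball, dist_comm]; exact hwy, (connectedComponentIn_subset _ _ hw).1⟩
  have h1 := ((convex_ball y ε).inter hD).isPreconnected.subset_connectedComponentIn hwb
    (F := D \ K) fun v hv => ⟨hv.2, hb hv.1⟩
  exact h1 ⟨mem_ball_self hε, hyD⟩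

/-- the complement in `D` is closed -/
theorem rest_closed (hD : Convex ℝ D) (hDc : IsClosed D) (hK : IsClosed K) (u : ℂ) :
    IsClosed (D \ connectedComponentIn (D \ K) u) := by
  refine isClosed_of_closure_subset fun y hy => ?_
  have hyD : y ∈ D := hDc.closure_subset_iff.2 sdiff_subset hy
  refine ⟨hyD, fun hyO => ?_⟩
  obtain ⟨ε, hε, hb⟩ := comp_nhd hD hK hyO
  obtain ⟨w, hw, hwy⟩ := Metric.mem_closure_iff.1 hy ε hε
  exact hw.2 (hb ⟨by rw [mem_ball, dist_comm]; exact hwy, hw.1⟩)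

/-- a component of `D \ K` touches `K` -/
theorem comp_touch (hD : Convex ℝ D) (hK : IsClosed K) (hKD : K ⊆ D)
    (hKn : K.Nonempty) {u : ℂ} (hu : u ∈ D \ K) :
    ∃ y ∈ K, y ∈ closure (connectedComponentIn (D \ K) u) := by
  by_contra hcon
  push Not at hcon
  set P := connectedComponentIn (D \ K) u with hP
  have huP : u ∈ P := mem_connectedComponentIn hu
  have hcl : ∀ y ∈ D, y ∈ closure P → y ∈ P := fun y hy hyc =>
    comp_closure hD hK hyc hy fun hyK => hcon y hyK hyc
  have hPD : P ⊆ D := fun y hy => (connectedComponentIn_subset _ _ hy).1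
  have hop : ∀ y ∈ P, ∃ ε > 0, ball y ε ∩ D ⊆ P := fun y hy => comp_nhd hD hK hy
  choose! ε hε hb using hop
  have h1 := hD.isPreconnected (⋃ y ∈ P, ball y (ε y)) (closure P)ᶜ
    (isOpen_biUnion fun _ _ => isOpen_ball) isClosed_closure.isOpen_compl
    (fun y hy => by
      by_cases hyP : y ∈ closure P
      · exact Or.inl (mem_biUnion (hcl y hy hyP) (mem_ball_self (hε y (hcl y hy hyP))))
      · exact Or.inr hyP)
    ⟨u, hu.1, mem_biUnion huP (mem_ball_self (hε u huP))⟩
    (by
      obtain ⟨y, hy⟩ := hKn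
      exact ⟨y, hKD hy, hcon y hy⟩)
  obtain ⟨y, hyD, hy1, hy2⟩ := h1
  obtain ⟨w, hw, hyw⟩ := mem_iUnion₂.1 hy1
  exact hy2 (subset_closure (hb w hw ⟨hyw, hyD⟩))

/-- the complement in `D` of a component of `D \ K` is connected -/
theorem rest_pre (hD : Convex ℝ D) (hK : IsClosed K) (hKc : IsPreconnected K)
    (hKD : K ⊆ D) (hKn : K.Nonempty) (u : ℂ) :
    IsPreconnected (D \ connectedComponentIn (D \ K) u) := by
  obtain ⟨x, hx⟩ := hKn
  have hKO : ∀ y ∈ K, y ∉ connectedComponentIn (D \ K) u := fun y hy hyO =>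
    (connectedComponentIn_subset _ _ hyO).2 hy
  refine isPreconnected_of_forall x fun y hy => ?_
  by_cases hyK : y ∈ K
  · exact ⟨K, fun w hw => ⟨hKD hw, hKO w hw⟩, hx, hyK, hKc⟩
  have hyP : y ∈ connectedComponentIn (D \ K) y := mem_connectedComponentIn ⟨hy.1, hyK⟩
  obtain ⟨y0, hy0, hy0c⟩ := comp_touch hD hK hKD ⟨x, hx⟩ (u := y) ⟨hy.1, hyK⟩
  refine ⟨K ∪ insert y0 (connectedComponentIn (D \ K) y), ?_, Or.inl hx, Or.inr (Or.inr hyP), ?_⟩
  · refine union_subset (fun w hw => ⟨hKD hw, hKO w hw⟩) (insert_subset ⟨hKD hy0, hKO y0 hy0⟩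
      fun w hw => ⟨(connectedComponentIn_subset _ _ hw).1, fun hwO => hy.2 ?_⟩)
    rw [connectedComponentIn_eq hwO, ← connectedComponentIn_eq hw]
    exact hyP
  · exact hKc.union y0 hy0 (mem_insert _ _)
      (isPreconnected_connectedComponentIn.subset_closure (subset_insert _ _)
        (insert_subset hy0c subset_closure))

/-- the front of `K` seen from `u` -/
def Frt (D K : Set ℂ) (u : ℂ) : Set ℂ :=
  (D \ connectedComponentIn (D \ K) u) ∩ closure (connectedComponentIn (D \ K) u)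

theorem frt_sub (hD : Convex ℝ D) (hK : IsClosed K) {u : ℂ} : Frt D K u ⊆ K := by
  rintro y ⟨h1, h2⟩
  by_contra hcon
  exact h1.2 (comp_closure hD hK h2 h1.1 hcon)

/-- **the front is connected** -/
theorem frt_pre (hr : 0 < r) (hK : IsClosed K) (hKc : IsPreconnected K)
    (hKD : K ⊆ closedBall z r) (hKn : K.Nonempty) (u : ℂ) :
    IsPreconnected (Frt (closedBall z r) K u) := by
  refine disc_unico (z := z) hr (rest_closed (convex_closedBall z r) isClosed_closedBall hK u)
    isClosed_closure ?_ (rest_pre (convex_closedBall z r) hK hKc hKD hKn u)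
    isPreconnected_connectedComponentIn.closure
  have h1 : closure (connectedComponentIn (closedBall z r \ K) u) ⊆ closedBall z r :=
    isClosed_closedBall.closure_subset_iff.2 fun y hy => (connectedComponentIn_subset _ _ hy).1
  refine Subset.antisymm (union_subset sdiff_subset h1) fun y hy => ?_
  by_cases hyO : y ∈ connectedComponentIn (closedBall z r \ K) u
  · exact Or.inr (subset_closure hyO)
  · exact Or.inl ⟨hy, hyO⟩

/-- **a path to `O` passes the front** -/
theorem exit928 (hD : Convex ℝ D) (hDc : IsClosed D) (hK : IsClosed K) {u : ℂ} {γ : ℝ → ℂ}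
    (hγ : Continuous γ) {a b : ℝ} (hab : a ≤ b) (hγD : ∀ t ∈ Icc a b, γ t ∈ D)
    (ha : γ a ∉ connectedComponentIn (D \ K) u) (hb : γ b ∈ connectedComponentIn (D \ K) u) :
    ∃ t ∈ Ico a b, γ t ∈ Frt D K u ∧ ∀ s ∈ Ioc t b, γ s ∈ connectedComponentIn (D \ K) u := by
  set O := connectedComponentIn (D \ K) u with hO
  have hcomp : IsCompact (Icc a b ∩ γ ⁻¹' (D \ O)) :=
    isCompact_Icc.inter_right ((rest_closed hD hDc hK u).preimage hγ)
  obtain ⟨t, ⟨ht, htO⟩, hmax⟩ := hcomp.exists_isGreatest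
    ⟨a, left_mem_Icc.2 hab, hγD a (left_mem_Icc.2 hab), ha⟩
  have htb : t ≠ b := by
    rintro rfl
    exact htO.2 hb
  have htb' : t < b := lt_of_le_of_ne ht.2 htb
  have hs : ∀ s ∈ Ioc t b, γ s ∈ O := by
    intro s hs
    by_contra hcon
    have h1 := hmax ⟨⟨ht.1.trans hs.1.le, hs.2⟩, hγD s ⟨ht.1.trans hs.1.le, hs.2⟩, hcon⟩
    linarith [hs.1]
  refine ⟨t, ⟨ht.1, htb'⟩, ⟨htO, ?_⟩, hs⟩
  have h1 : t ∈ closure (Ioc t b) := by
    rw [closure_Ioc htb]
    exact left_mem_Icc.2 htb'.le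
  exact closure_mono (image_subset_iff.2 hs) (image_closure_subset_closure_image hγ ⟨t, h1, rfl⟩)

end Vale.Agent.P032.H928
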