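import Vale.Agent.P032.H928.Full
import Vale.Agent.P032.H492.Full
import Vale.Agent.P032.H416.Props2

/-!
# P032: the block `FullB` from: the four coloured neighbours of a two-pair point have its palette
-/

open Set Filter Topology Metric

noncomputable section

namespace Vale.Agent.P032.Six

/-- the four coloured points on the circle of a two-pair point have its palette -/
def OnlyJ : Prop := ∀ (U : Fin 6 → Set ℂ) (T : ℂ → Set (Fin 6)), DF U T → NoComp T →
  ∀ z v, (∃ a b c d, DPt T z a b c d) → dist v z = 1 → (T v).ncard = 4 → T v = T z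

/-- a two-pair point whose four coloured neighbours have its palette is full -/
theorem fullP_of_J {U : Fin 6 → Set ℂ} {T : ℂ → Set (Fin 6)} (h : Irr U T) (hN : NoComp T) {z : ℂ}
    (hz : ∃ a b c d, DPt T z a b c d) (hJ : ∀ v, dist v z = 1 → 4 ≤ (T v).ncard → T v = T z) :
    FullP T z :=
  ⟨H928.full_of_J h hN (fun _ _ _ _ _ _ hz nd hJ hX => full_of_noX h hz nd hJ hX) hz hJ, hJ⟩

/-- **the block `FullB` from `OnlyJ`** -/
theorem fullB_of_onlyJ (hO : OnlyJ) : FullB := by
  intro U T h hN z v hz hv hv4
  exact fullP_of_J h.irr hN hz fun w hw hw4 =>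
    hO U T h hN z w hz hw (le_antisymm (h.le4 w) hw4)

end Vale.Agent.P032.Six
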