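import Mathlib.Data.Fintype.Pi
import Mathlib.Data.Fin.VecNotation
import Mathlib.Tactic

/-!
# P032: the components of the columns of a two-pair centre without `f`-ends

Letters `0 = e`, `1 = f`, `2 = ab`, `3 = cd`.  A column is legal if neighbours are different and
`ab`, `cd` are not antipodal.  `lab` is a label of the legal columns with the values `0, .., 4`,
invariant under `e - f`, `e - ab`, `e - cd` at one slot and under `ab - cd` everywhere; the rotation by
one slot has no fixed label.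
-/

namespace Vale.Agent.P032.H928

/-- the letters `e, f, pair` -/
def mg (x : ℕ) : ℕ := bif Nat.ble 2 x then 2 else x

/-- the table of the labels (base `8`) -/
def tbl : ℕ := 11798441671861975705790199916711395797410141377228895026496608840799523195676480982578593517218932355533535930381920326631816450059105006859839751750379205574301649118730485874873231069270370652942048078594668911972610873760389809627807336428256243066183522614726453824173214882435026725119939694629153501999198886123044233881713250664859679190718178419925946402628662180191448821942233479193364302077421696874650240427791250150454772676600459568300854211550517276317323753174256914282825455764917867196336378090816032802553669680449429808912003215848486814546254264451220913615427871554211535928964305295099825546897941074921482839659112616358313984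

/-- the label -/
def labN (x0 x1 x2 x3 x4 x5 : ℕ) : ℕ :=
  tbl / 2 ^ (3 * (mg x0 + 3 * mg x1 + 9 * mg x2 + 27 * mg x3 + 81 * mg x4 + 243 * mg x5)) % 8

/-- antipodal letters -/
def an (x y : ℕ) : Bool := !(Nat.beq x 2 && Nat.beq y 3) && !(Nat.beq x 3 && Nat.beq y 2)

/-- legal columns -/
def legN (x0 x1 x2 x3 x4 x5 : ℕ) : Bool :=
  !Nat.beq x0 x1 && (!Nat.beq x1 x2 && (!Nat.beq x2 x3 && (!Nat.beq x3 x4 && (!Nat.beq x4 x5 &&
    (!Nat.beq x5 x0 && (an x0 x3 && (an x1 x4 && an x2 x5)))))))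

/-- the two letters are not `f, ab` or `f, cd` -/
def mvN (x y : ℕ) : Bool := !(Nat.beq x 1 && Nat.ble 2 y) && !(Nat.beq y 1 && Nat.ble 2 x)

theorem chk0 : ∀ x0 x1 x2 x3 x4 x5 y : Fin 4,
    (!legN x0 x1 x2 x3 x4 x5 || (!legN y x1 x2 x3 x4 x5 || (!mvN x0 y ||
      Nat.beq (labN x0 x1 x2 x3 x4 x5) (labN y x1 x2 x3 x4 x5)))) = true := by decide +kernel

theorem chk1 : ∀ x0 x1 x2 x3 x4 x5 y : Fin 4,
    (!legN x0 x1 x2 x3 x4 x5 || (!legN x0 y x2 x3 x4 x5 || (!mvN x1 y ||
      Nat.beq (labN x0 x1 x2 x3 x4 x5) (labN x0 y x2 x3 x4 x5)))) = true := by decide +kernel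

theorem chk2 : ∀ x0 x1 x2 x3 x4 x5 y : Fin 4,
    (!legN x0 x1 x2 x3 x4 x5 || (!legN x0 x1 y x3 x4 x5 || (!mvN x2 y ||
      Nat.beq (labN x0 x1 x2 x3 x4 x5) (labN x0 x1 y x3 x4 x5)))) = true := by decide +kernel

theorem chk3 : ∀ x0 x1 x2 x3 x4 x5 y : Fin 4,
    (!legN x0 x1 x2 x3 x4 x5 || (!legN x0 x1 x2 y x4 x5 || (!mvN x3 y ||
      Nat.beq (labN x0 x1 x2 x3 x4 x5) (labN x0 x1 x2 y x4 x5)))) = true := by decide +kernel

theorem chk4 : ∀ x0 x1 x2 x3 x4 x5 y : Fin 4,
    (!legN x0 x1 x2 x3 x4 x5 || (!legN x0 x1 x2 x3 y x5 || (!mvN x4 y ||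
      Nat.beq (labN x0 x1 x2 x3 x4 x5) (labN x0 x1 x2 x3 y x5)))) = true := by decide +kernel

theorem chk5 : ∀ x0 x1 x2 x3 x4 x5 y : Fin 4,
    (!legN x0 x1 x2 x3 x4 x5 || (!legN x0 x1 x2 x3 x4 y || (!mvN x5 y ||
      Nat.beq (labN x0 x1 x2 x3 x4 x5) (labN x0 x1 x2 x3 x4 y)))) = true := by decide +kernel

theorem chk_rot : ∀ x0 x1 x2 x3 x4 x5 : Fin 4,
    (!legN x0 x1 x2 x3 x4 x5 ||
      !Nat.beq (labN x0 x1 x2 x3 x4 x5) (labN x1 x2 x3 x4 x5 x0)) = true := by decide +kernel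

/-- legal columns -/
def Leg (h : Fin 6 → Fin 4) : Prop := (∀ i, h i ≠ h (i + 1)) ∧ ∀ i, ¬ (h i = 2 ∧ h (i + 3) = 3)

/-- the label of a column -/
def lab (h : Fin 6 → Fin 4) : ℕ := labN (h 0) (h 1) (h 2) (h 3) (h 4) (h 5)

theorem nb : ∀ x y : Fin 4, x ≠ y → Nat.beq x y = false := by decide

theorem an_of : ∀ x y : Fin 4, ¬ (x = 2 ∧ y = 3) → ¬ (y = 2 ∧ x = 3) → an x y = true := by decide

theorem Leg.legN {h : Fin 6 → Fin 4} (hl : Leg h) :
    legN (h 0) (h 1) (h 2) (h 3) (h 4) (h 5) = true := by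
  unfold H928.legN
  have k0 := nb (h 0) (h 1) (hl.1 0)
  have k1 := nb (h 1) (h 2) (hl.1 1)
  have k2 := nb (h 2) (h 3) (hl.1 2)
  have k3 := nb (h 3) (h 4) (hl.1 3)
  have k4 := nb (h 4) (h 5) (hl.1 4)
  have k5 := nb (h 5) (h 0) (hl.1 5)
  have m0 := an_of (h 0) (h 3) (hl.2 0) (hl.2 3)
  have m1 := an_of (h 1) (h 4) (hl.2 1) (hl.2 4)
  have m2 := an_of (h 2) (h 5) (hl.2 2) (hl.2 5)
  rw [k0, k1, k2, k3, k4, k5, m0, m1, m2]
  rfl

/-- a move of one slot: no change between `f` and a pair -/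
def Mv (x y : Fin 4) : Prop := ¬ (x = 1 ∧ 2 ≤ y) ∧ ¬ (y = 1 ∧ 2 ≤ x)

theorem mvN_of : ∀ x y : Fin 4, Mv x y → mvN x y = true := by unfold Mv; decide

theorem or4 {p q r s : Bool} (h : (!p || (!q || (!r || s))) = true) (hp : p = true) (hq : q = true)
    (hr : r = true) : s = true := by
  subst hp hq hr; simpa using h

/-- **one slot** -/
theorem lab_upd {h h' : Fin 6 → Fin 4} (hl : Leg h) (hl' : Leg h') (i : Fin 6)
    (hj : ∀ j, j ≠ i → h' j = h j) (hm : Mv (h i) (h' i)) : lab h = lab h' := by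
  have k := hl'.legN
  have hmv := mvN_of _ _ hm
  unfold lab
  fin_cases i
  · rw [hj 1 (by decide), hj 2 (by decide), hj 3 (by decide), hj 4 (by decide),
      hj 5 (by decide)] at k ⊢
    exact Nat.eq_of_beq_eq_true (or4 (chk0 _ _ _ _ _ _ _) hl.legN k hmv)
  · rw [hj 0 (by decide), hj 2 (by decide), hj 3 (by decide), hj 4 (by decide),
      hj 5 (by decide)] at k ⊢
    exact Nat.eq_of_beq_eq_true (or4 (chk1 _ _ _ _ _ _ _) hl.legN k hmv)
  · rw [hj 0 (by decide), hj 1 (by decide), hj 3 (by decide), hj 4 (by decide),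
      hj 5 (by decide)] at k ⊢
    exact Nat.eq_of_beq_eq_true (or4 (chk2 _ _ _ _ _ _ _) hl.legN k hmv)
  · rw [hj 0 (by decide), hj 1 (by decide), hj 2 (by decide), hj 4 (by decide),
      hj 5 (by decide)] at k ⊢
    exact Nat.eq_of_beq_eq_true (or4 (chk3 _ _ _ _ _ _ _) hl.legN k hmv)
  · rw [hj 0 (by decide), hj 1 (by decide), hj 2 (by decide), hj 3 (by decide),
      hj 5 (by decide)] at k ⊢
    exact Nat.eq_of_beq_eq_true (or4 (chk4 _ _ _ _ _ _ _) hl.legN k hmv)
  · rw [hj 0 (by decide), hj 1 (by decide), hj 2 (by decide), hj 3 (by decide),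
      hj 4 (by decide)] at k ⊢
    exact Nat.eq_of_beq_eq_true (or4 (chk5 _ _ _ _ _ _ _) hl.legN k hmv)

/-- the label depends only on the letters `e, f, pair` -/
theorem lab_pat {h h' : Fin 6 → Fin 4} (hp : ∀ i, mg (h i) = mg (h' i)) : lab h = lab h' := by
  unfold lab labN
  rw [hp 0, hp 1, hp 2, hp 3, hp 4, hp 5]

/-- **the rotation has no fixed label** -/
theorem lab_rot {h : Fin 6 → Fin 4} (hl : Leg h) : lab h ≠ lab fun i => h (i + 1) := by
  intro he
  have h1 := chk_rot (h 0) (h 1) (h 2) (h 3) (h 4) (h 5)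
  have h2 : Nat.beq (labN (h 0) (h 1) (h 2) (h 3) (h 4) (h 5))
      (labN (h 1) (h 2) (h 3) (h 4) (h 5) (h 0)) = true := by
    rw [Nat.beq_eq]; exact he
  rw [hl.legN, h2] at h1
  exact absurd h1 (by decide)

end Vale.Agent.P032.H928
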