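import Vale.Agent.P032.H928.Lab

/-!
# P032: the local step at a two-pair centre without `f`-ends

`LocR A K` : the letters `A i` available at the six points at a time `u`; `K` = the points with the
palette of the centre.  `LocR.lab_eq` : all legal available columns have the same label.
-/

namespace Vale.Agent.P032.H928

/-- the local rules -/
structure LocR (A : Fin 6 → Fin 4 → Prop) (K : Fin 6 → Prop) : Prop where
  noK : ∀ i, ¬ K i → ¬ (A i 2 ∧ A i 3)
  K2 : ∀ i, K i → ∀ l, A i l → 2 ≤ l
  nof : ∀ i, A i 1 → ¬ A i 2 ∧ ¬ A i 3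
  anti : ∀ i, K i → ¬ K (i + 3)
  ap : ∀ i, A i 2 → ¬ A (i + 3) 3
  swap : ∀ i, ¬ K i → ¬ K (i + 1) → ∀ l m, A i l → A i m → A (i + 1) l → A (i + 1) m → l = m
  dbl : ∀ i, ¬ K i → ¬ K (i + 1) → ¬ K (i + 2) → ∀ l m, l ≠ m → A i l → A (i + 1) l →
    A (i + 1) m → A (i + 2) m → l < 2 ∧ m < 2

theorem f51 : ∀ i : Fin 6, i + 5 + 1 = i := by decide
theorem f42 : ∀ i : Fin 6, i + 4 + 2 = i := by decide
theorem f41 : ∀ i : Fin 6, i + 4 + 1 = i + 5 := by decide
theorem f52 : ∀ i : Fin 6, i + 5 + 2 = i + 1 := by decide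
theorem f55 : ∀ i : Fin 6, i + 5 + 5 = i + 4 := by decide
theorem f11 : ∀ i : Fin 6, i + 1 + 1 = i + 2 := by decide
theorem f15 : ∀ i : Fin 6, i + 1 + 5 = i := by decide
theorem f13 : ∀ i : Fin 6, i + 1 + 3 = i + 4 := by decide
theorem f23 : ∀ i : Fin 6, i + 2 + 3 = i + 5 := by decide

theorem four : ∀ x : Fin 4, x = 0 ∨ x = 1 ∨ x = 2 ∨ x = 3 := by decide

theorem lt_two : ∀ x : Fin 4, x < 2 → x = 0 ∨ x = 1 := by decide

theorem ge_two : ∀ x : Fin 4, 2 ≤ x → x = 2 ∨ x = 3 := by decide

namespace LocR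

variable {A : Fin 6 → Fin 4 → Prop} {K : Fin 6 → Prop} {h h' : Fin 6 → Fin 4}

/-- two different letters of `i`, `i + 1` in common: impossible off `K` -/
theorem common (R : LocR A K) {i : Fin 6} (hi : ¬ K i ∨ ¬ K (i + 1)) {l m : Fin 4} (hlm : l ≠ m)
    (h1 : A i l) (h2 : A i m) (h3 : A (i + 1) l) (h4 : A (i + 1) m) : False := by
  have key : ∀ j, ¬ K j → A j l → A j m → 2 ≤ l → 2 ≤ m → False := by
    intro j hj k1 k2 k3 k4
    rcases ge_two l k3 with rfl | rfl <;> rcases ge_two m k4 with rfl | rfl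
    · exact hlm rfl
    · exact R.noK j hj ⟨k1, k2⟩
    · exact R.noK j hj ⟨k2, k1⟩
    · exact hlm rfl
  by_cases k1 : K i
  · have k2 : ¬ K (i + 1) := hi.resolve_left (not_not.2 k1)
    exact key (i + 1) k2 h3 h4 (R.K2 i k1 l h1) (R.K2 i k1 m h2)
  · by_cases k2 : K (i + 1)
    · exact key i k1 h1 h2 (R.K2 _ k2 l h3) (R.K2 _ k2 m h4)
    · exact hlm (R.swap i k1 k2 l m h1 h2 h3 h4)

/-- next to a pair letter: only `e` -/
theorem to_zero (R : LocR A K) {i : Fin 6} (hi : ¬ K i) {l m : Fin 4} (hlm : l ≠ m) (h1 : A i l)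
    (h2 : A i m) (hm : 2 ≤ m) : l = 0 := by
  rcases four l with h | h | h | h
  · exact h
  · subst h
    rcases ge_two m hm with rfl | rfl
    · exact ((R.nof i h1).1 h2).elim
    · exact ((R.nof i h1).2 h2).elim
  · subst h
    rcases ge_two m hm with rfl | rfl
    · exact absurd rfl hlm
    · exact (R.noK i hi ⟨h1, h2⟩).elim
  · subst h
    rcases ge_two m hm with rfl | rfl
    · exact (R.noK i hi ⟨h2, h1⟩).elim
    · exact absurd rfl hlm

/-- next to `f`: only `e` -/
theorem of_one (R : LocR A K) {i : Fin 6} {l : Fin 4} (hl : l ≠ 1) (h1 : A i l)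
    (h2 : A i 1) : l = 0 := by
  rcases four l with h | h | h | h
  · exact h
  · exact absurd h hl
  · subst h; exact ((R.nof i h2).1 h1).elim
  · subst h; exact ((R.nof i h2).2 h1).elim

/-- blocked in both directions, forward -/
theorem no_F (R : LocR A K) (hl : Leg h) (hl' : Leg h') (ha : ∀ i, A i (h i))
    (ha' : ∀ i, A i (h' i))
    (hb : ∀ i, ¬ K i → h i ≠ h' i → (h' i = h (i + 1) ∨ h' i = h (i + 5)) ∧
      (h i = h' (i + 1) ∨ h i = h' (i + 5)))
    {i : Fin 6} (hi : ¬ K i) (hne : h i ≠ h' i) (h1 : h' i = h (i + 1)) (h2 : h i = h' (i + 5)) :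
    False := by
  -- propagation to the right
  have right : ∀ i, ¬ K i → h i ≠ h' i → h' i = h (i + 1) → ¬ K (i + 1) →
      h (i + 1) ≠ h' (i + 1) ∧ h' (i + 1) = h (i + 2) := by
    intro i hi hne h1 hK
    have hne1 : h (i + 1) ≠ h' (i + 1) := by rw [← h1]; exact hl'.1 i
    refine ⟨hne1, ?_⟩
    rcases (hb (i + 1) hK hne1).1 with h3 | h3
    · rwa [f11] at h3
    · rw [f15] at h3
      refine (R.common (Or.inl hi) hne (ha i) (ha' i) ?_ ?_).elim
      · rw [← h3]; exact ha' _
      · rw [h1]; exact ha _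
  -- propagation to the left
  have left : ∀ i, ¬ K i → h i ≠ h' i → h i = h' (i + 5) → ¬ K (i + 5) →
      h (i + 5) ≠ h' (i + 5) ∧ h (i + 5) = h' (i + 4) := by
    intro i hi hne h2 hK
    have hne1 : h (i + 5) ≠ h' (i + 5) := by
      rw [← h2]
      have := hl.1 (i + 5)
      rwa [f51] at this
    refine ⟨hne1, ?_⟩
    rcases (hb (i + 5) hK hne1).2 with h3 | h3
    · rw [f51] at h3
      have e := f51 i
      refine (R.common (i := i + 5) (Or.inl hK) hne ?_ ?_ ?_ ?_).elim
      · rw [h2]; exact ha' _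
      · rw [← h3]; exact ha _
      · rw [e]; exact ha i
      · rw [e]; exact ha' i
    · rwa [f55] at h3
  by_cases k1 : K (i + 1)
  · have e1 : 2 ≤ h' i := by rw [h1]; exact R.K2 _ k1 _ (ha _)
    have e0 : h i = 0 := R.to_zero hi hne (ha i) (ha' i) e1
    have kj : ¬ K (i + 5) := fun hK => by
      have := R.K2 _ hK _ (ha' _)
      rw [← h2, e0] at this
      exact absurd this (by decide)
    obtain ⟨g1, g2⟩ := left i hi hne h2 kj
    have kk : ¬ K (i + 4) := by rw [← f13]; exact R.anti _ k1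
    have hk2 : h' (i + 5) = 0 := by rw [← h2]; exact e0
    -- `dbl` at `i + 5`
    have e5 := f41 i
    have e6 := f42 i
    have g3 := R.dbl (i + 4) kk (by rw [e5]; exact kj) (by rw [e6]; exact hi)
      (h (i + 5)) (h' (i + 5)) g1 (by rw [g2]; exact ha' _) (by rw [e5]; exact ha _)
      (by rw [e5]; exact ha' _) (by rw [e6, ← h2]; exact ha i)
    have g4 : h (i + 5) = 1 := (lt_two _ g3.1).resolve_left (fun h0 => g1 (h0.trans hk2.symm))
    have g5 : h' (i + 4) = 1 := by rw [← g2]; exact g4
    have g6 : h (i + 4) ≠ h' (i + 4) := by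
      have := hl.1 (i + 4)
      rw [e5, g2] at this
      exact this
    have g7 : h (i + 4) = 0 := R.of_one (fun h0 => g6 (h0.trans g5.symm)) (ha _)
      (by rw [← g5]; exact ha' _)
    refine R.common (i := i + 4) (Or.inl kk) (l := 0) (m := 1) (by decide) ?_ ?_ ?_ ?_
    · rw [← g7]; exact ha _
    · rw [← g5]; exact ha' _
    · rw [e5, ← hk2]; exact ha' _
    · rw [e5, ← g4]; exact ha _
  · obtain ⟨g1, g2⟩ := right i hi hne h1 k1
    by_cases k5 : K (i + 5)
    · have e1 : 2 ≤ h i := by rw [h2]; exact R.K2 _ k5 _ (ha' _)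
      have e0 : h' i = 0 := R.to_zero hi hne.symm (ha' i) (ha i) e1
      have e0' : h (i + 1) = 0 := by rw [← h1]; exact e0
      have kk : ¬ K (i + 2) := fun hK => R.anti _ hK (by rw [f23]; exact k5)
      have g3 := R.dbl i hi k1 kk (h (i + 1)) (h' (i + 1)) g1 (by rw [← h1]; exact ha' _)
        (ha _) (ha' _) (by rw [g2]; exact ha _)
      have g4 : h' (i + 1) = 1 := (lt_two _ g3.2).resolve_left (fun h0 => g1 (e0'.trans h0.symm))
      have g5 : h (i + 2) = 1 := by rw [← g2]; exact g4
      have g6 : h' (i + 2) ≠ 1 := by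
        have := hl'.1 (i + 1)
        rw [f11, g4] at this
        exact this.symm
      have g7 : h' (i + 2) = 0 := R.of_one g6 (ha' _) (by rw [← g5]; exact ha _)
      refine R.common (i := i + 1) (Or.inl k1) (l := 0) (m := 1) (by decide) ?_ ?_ ?_ ?_
      · rw [← e0']; exact ha _
      · rw [← g4]; exact ha' _
      · rw [f11, ← g7]; exact ha' _
      · rw [f11, ← g5]; exact ha _
    · obtain ⟨g3, g4⟩ := left i hi hne h2 k5
      have e1 := f51 i
      have e2 := f52 i
      have g5 := R.dbl (i + 5) k5 (by rw [e1]; exact hi) (by rw [e2]; exact k1) (h i) (h' i) hne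
        (by rw [h2]; exact ha' _) (by rw [e1]; exact ha _) (by rw [e1]; exact ha' _)
        (by rw [e2, h1]; exact ha _)
      rcases lt_two _ g5.1 with g6 | g6
      · have g7 : h' i = 1 := (lt_two _ g5.2).resolve_left (fun h0 => hne (g6.trans h0.symm))
        have g8 : h (i + 1) = 1 := by rw [← h1]; exact g7
        have g9 : h' (i + 1) = 0 := R.of_one (fun h0 => g1 (g8.trans h0.symm)) (ha' _)
          (by rw [← g8]; exact ha _)
        refine R.common (i := i) (Or.inl hi) (l := 0) (m := 1) (by decide) ?_ ?_ ?_ ?_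
        · rw [← g6]; exact ha _
        · rw [← g7]; exact ha' _
        · rw [← g9]; exact ha' _
        · rw [← g8]; exact ha _
      · have g7 : h' i = 0 := (lt_two _ g5.2).resolve_right (fun h0 => hne (g6.trans h0.symm))
        have g8 : h' (i + 5) = 1 := by rw [← h2]; exact g6
        have g9 : h (i + 5) = 0 := R.of_one (fun h0 => g3 (h0.trans g8.symm)) (ha _)
          (by rw [← g8]; exact ha' _)
        refine R.common (i := i + 5) (Or.inl k5) (l := 0) (m := 1) (by decide) ?_ ?_ ?_ ?_
        · rw [← g9]; exact ha _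
        · rw [← g8]; exact ha' _
        · rw [e1, ← g7]; exact ha' _
        · rw [e1, ← g6]; exact ha _

/-- some slot is free in one of the two columns -/
theorem exists_free (R : LocR A K) (hl : Leg h) (hl' : Leg h') (ha : ∀ i, A i (h i))
    (ha' : ∀ i, A i (h' i)) {i : Fin 6} (hi : ¬ K i) (hne : h i ≠ h' i) :
    ∃ j, ¬ K j ∧ h j ≠ h' j ∧ ((h' j ≠ h (j + 1) ∧ h' j ≠ h (j + 5)) ∨
      (h j ≠ h' (j + 1) ∧ h j ≠ h' (j + 5))) := by
  by_contra hcon
  have hb : ∀ i, ¬ K i → h i ≠ h' i → (h' i = h (i + 1) ∨ h' i = h (i + 5)) ∧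
      (h i = h' (i + 1) ∨ h i = h' (i + 5)) := by
    intro j hj hj'
    constructor
    · by_contra hc
      push Not at hc
      exact hcon ⟨j, hj, hj', Or.inl hc⟩
    · by_contra hc
      push Not at hc
      exact hcon ⟨j, hj, hj', Or.inr hc⟩
  have e := f51 i
  obtain ⟨h1, h2⟩ := hb i hi hne
  rcases h1 with h1 | h1 <;> rcases h2 with h2 | h2
  · refine R.common (i := i) (Or.inl hi) hne (ha i) (ha' i) ?_ ?_
    · rw [h2]; exact ha' _
    · rw [h1]; exact ha _
  · exact R.no_F hl hl' ha ha' hb hi hne h1 h2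
  · exact R.no_F hl' hl ha' ha (fun j hj hj' => ⟨(hb j hj hj'.symm).2, (hb j hj hj'.symm).1⟩) hi
      hne.symm h2 h1
  · refine R.common (i := i + 5) (Or.inr (by rw [e]; exact hi)) hne ?_ ?_ ?_ ?_
    · rw [h2]; exact ha' _
    · rw [h1]; exact ha _
    · rw [e]; exact ha i
    · rw [e]; exact ha' i

theorem leg_update (R : LocR A K) (hl : Leg h) (ha : ∀ i, A i (h i)) {j : Fin 6} {l : Fin 4}
    (hj : A j l) (h1 : l ≠ h (j + 1)) (h2 : l ≠ h (j + 5)) : Leg (Function.update h j l) := by
  have key : ∀ i : Fin 6, i ≠ i + 1 := by decide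
  constructor
  · intro i
    by_cases h3 : i = j
    · subst h3
      rw [Function.update_self, Function.update_of_ne (key i).symm]
      exact h1
    · by_cases h4 : i + 1 = j
      · have h5 : i = j + 5 := by rw [← h4, f15]
        rw [h4, Function.update_self, Function.update_of_ne h3, h5]
        exact h2.symm
      · rw [Function.update_of_ne h3, Function.update_of_ne h4]
        exact hl.1 i
  · have hA : ∀ i, A i (Function.update h j l i) := by
      intro i
      by_cases h3 : i = j
      · subst h3; rw [Function.update_self]; exact hj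
      · rw [Function.update_of_ne h3]; exact ha i
    intro i hi
    have e1 := hA i
    have e2 := hA (i + 3)
    rw [hi.1] at e1
    rw [hi.2] at e2
    exact R.ap i e1 e2

theorem mv (R : LocR A K) {i : Fin 6} {l m : Fin 4} (h1 : A i l) (h2 : A i m) : Mv l m := by
  constructor
  · rintro ⟨rfl, h3⟩
    rcases ge_two _ h3 with rfl | rfl
    · exact (R.nof i h1).1 h2
    · exact (R.nof i h1).2 h2
  · rintro ⟨rfl, h3⟩
    rcases ge_two _ h3 with rfl | rfl
    · exact (R.nof i h2).1 h1
    · exact (R.nof i h2).2 h1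

/-- **the local step** -/
theorem lab_eq (R : LocR A K) : ∀ (n : ℕ) (h h' : Fin 6 → Fin 4), Leg h → Leg h' →
    (∀ i, A i (h i)) → (∀ i, A i (h' i)) →
    {i | ¬ K i ∧ h i ≠ h' i}.ncard = n → lab h = lab h' := by
  intro n
  induction n with
  | zero =>
    intro h h' hl hl' ha ha' hn
    rw [Set.ncard_eq_zero (Set.toFinite _)] at hn
    refine lab_pat fun i => ?_
    by_cases hK : K i
    · have e1 : ∀ x : Fin 4, 2 ≤ x → mg x = 2 := by decide
      rw [e1 _ (R.K2 i hK _ (ha i)), e1 _ (R.K2 i hK _ (ha' i))]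
    · by_cases he : h i = h' i
      · rw [he]
      · have : i ∈ {i | ¬ K i ∧ h i ≠ h' i} := ⟨hK, he⟩
        rw [hn] at this
        exact this.elim
  | succ n ih =>
    intro h h' hl hl' ha ha' hn
    obtain ⟨i, hi, hne⟩ : {i | ¬ K i ∧ h i ≠ h' i}.Nonempty := by
      rw [← Set.ncard_pos (Set.toFinite _)]; omega
    obtain ⟨j, hj, hjne, hfree⟩ := R.exists_free hl hl' ha ha' hi hne
    have hcard : ({i | ¬ K i ∧ h i ≠ h' i} \ {j}).ncard = n := by
      rw [Set.ncard_sdiff_singleton_of_mem (show j ∈ {i | ¬ K i ∧ h i ≠ h' i} from ⟨hj, hjne⟩)]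
      omega
    rcases hfree with ⟨k1, k2⟩ | ⟨k1, k2⟩
    · have hL := R.leg_update hl ha (ha' j) k1 k2
      have hA : ∀ i, A i (Function.update h j (h' j) i) := by
        intro i
        by_cases h3 : i = j
        · subst h3; rw [Function.update_self]; exact ha' i
        · rw [Function.update_of_ne h3]; exact ha i
      have e1 : lab h = lab (Function.update h j (h' j)) :=
        lab_upd hl hL j (fun i hi => Function.update_of_ne hi _ _)
          (by rw [Function.update_self]; exact R.mv (ha j) (ha' j))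
      rw [e1]
      refine ih _ h' hL hl' hA ha' ?_
      rw [← hcard]
      congr 1
      ext i
      simp only [Set.mem_ofPred_eq, Set.mem_sdiff, Set.mem_singleton_iff]
      by_cases h3 : i = j
      · subst h3; simp
      · rw [Function.update_of_ne h3]
        exact ⟨fun h => ⟨h, h3⟩, fun h => h.1⟩
    · have hL := R.leg_update hl' ha' (ha j) k1 k2
      have hA : ∀ i, A i (Function.update h' j (h j) i) := by
        intro i
        by_cases h3 : i = j
        · subst h3; rw [Function.update_self]; exact ha i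
        · rw [Function.update_of_ne h3]; exact ha' i
      have e1 : lab h' = lab (Function.update h' j (h j)) :=
        lab_upd hl' hL j (fun i hi => Function.update_of_ne hi _ _)
          (by rw [Function.update_self]; exact R.mv (ha' j) (ha j))
      rw [e1]
      refine ih h _ hl hL ha hA ?_
      rw [← hcard]
      congr 1
      ext i
      simp only [Set.mem_ofPred_eq, Set.mem_sdiff, Set.mem_singleton_iff]
      by_cases h3 : i = j
      · subst h3; simp
      · rw [Function.update_of_ne h3]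
        exact ⟨fun h => ⟨h, h3⟩, fun h => h.1⟩

end LocR

end Vale.Agent.P032.H928
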