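import Vale.Agent.P032.H928.Loc
import Vale.Agent.P032.H383.Letters
import Vale.Agent.P032.H169.Full
import Vale.Agent.P032.S5.H496.Start

/-!
# P032: the plain ends of a two-pair centre do not all carry the same free colour

`z` a two-pair point such that all the points of `S(z)` with at least four colours have the palette
of `z`.  If no point of `S(z)` has the palette `{a, b, f}` or `{c, d, f}`: contradiction
(`DPt.s1`).
-/

open Set Filter Topology Metric

noncomputable section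

namespace Vale.Agent.P032.H928

open Vale.Agent.P032.Six Vale.Agent.P032.S5.H767 Vale.Agent.P032.Sweep

variable {U : Fin 6 → Set ℂ} {T : ℂ → Set (Fin 6)} {z : ℂ} {a b c d e f : Fin 6}

open Classical in
/-- the letter of a palette: `0 = e`, `1 = f`, `2 = ab`, `3 = cd` -/
def ltr (a e f : Fin 6) (P : Set (Fin 6)) : Fin 4 :=
  if e ∈ P then 0 else if f ∈ P then 1 else if a ∈ P then 2 else 3

/-- the palettes of the letters -/
theorem ltr_cases (C : Ctr U T z a b c d e f) {s : ℝ} (hs : s ∈ Lc T z) :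
    (ltr a e f (T (pt z s)) = 0 ∧ e ∈ T (pt z s)) ∨ (ltr a e f (T (pt z s)) = 1 ∧ f ∈ T (pt z s)) ∨
      (ltr a e f (T (pt z s)) = 2 ∧ T (pt z s) = {a, b}) ∨
      (ltr a e f (T (pt z s)) = 3 ∧ T (pt z s) = {c, d}) := by
  by_cases he : e ∈ T (pt z s)
  · exact Or.inl ⟨by unfold ltr; rw [if_pos he], he⟩
  by_cases hf : f ∈ T (pt z s)
  · exact Or.inr (Or.inl ⟨by unfold ltr; rw [if_neg he, if_pos hf], hf⟩)
  have hsub : T (pt z s) ⊆ T z := by
    intro i hi
    by_contra hcon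
    rcases C.miss hcon with rfl | rfl
    · exact he hi
    · exact hf hi
  have hn := C.nd
  simp only [List.nodup_cons, List.mem_cons, List.not_mem_nil, or_false, not_or, List.nodup_nil,
    and_true, not_false_eq_true] at hn
  obtain ⟨⟨ab, ac, ad, ae, af⟩, ⟨bc, bd, be, bf⟩, ⟨cd, ce, cf⟩, ⟨de, df⟩, ef⟩ := hn
  rcases C.pairs _ (dist_pt z s) (Lc_circle hs) hsub with h1 | h1
  · refine Or.inr (Or.inr (Or.inl ⟨?_, h1⟩))
    unfold ltr
    rw [if_neg he, if_neg hf, if_pos (by rw [h1]; simp)]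
  · refine Or.inr (Or.inr (Or.inr ⟨?_, h1⟩))
    unfold ltr
    rw [if_neg he, if_neg hf, if_neg (by
      rw [h1]; rintro (h2 | h2)
      · exact ac h2
      · exact ad h2)]

/-- the centre of the only circle -/
def ctr1 (z : ℂ) : Unit → ℂ := fun _ => z

/-- available letters are letters of the closed circle -/
theorem Lt_of_Xl (C : Ctr U T z a b c d e f) {i : Fin 6} {l : Fin 4} {u : ℝ}
    (hu : u ∈ Xl T (ctr1 z) 0 (fun _ => ltr a e f) ((), i) l) :
    pt z (0 + u + (i.val : ℝ)) ∈ Lt T z a b c d e f l := by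
  obtain ⟨P, hP, hcl, hEx⟩ := Xl_pal hu
  have hd := dist_pt z (0 + u + (i.val : ℝ))
  obtain ⟨v, hv⟩ := closure_nonempty_iff.1 ⟨_, hcl⟩
  have hvL : v ∈ Lc T z := hv.1
  have hvP : T (pt z v) = P := hv.2
  have hsub := sub_of_closure C.irr hEx
  have hPT : P ⊆ T (pt z (0 + u + (i.val : ℝ))) := hsub
  have key := ltr_cases C hvL
  rw [hvP] at key
  have hP : ltr a e f P = l := hP
  rw [hP] at key
  rcases key with ⟨rfl, h1⟩ | ⟨rfl, h1⟩ | ⟨rfl, h1⟩ | ⟨rfl, h1⟩
  · exact ⟨hd, hPT h1⟩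
  · exact ⟨hd, hPT h1⟩
  · rw [h1] at hEx
    exact hEx
  · rw [h1] at hEx
    exact hEx

theorem pt_add2 (z : ℂ) (φ u : ℝ) (j : Fin 6) :
    pt z (φ + u + ((j + 2 : Fin 6).val : ℝ)) = pt z (φ + u + (j.val : ℝ) + 2) := by
  by_cases hj : j.val < 4
  · have h1 : (j + 2 : Fin 6).val = j.val + 2 := by
      have : ∀ j : Fin 6, j.val < 4 → (j + 2 : Fin 6).val = j.val + 2 := by decide
      exact this j hj
    rw [h1]
    push_cast
    rw [show φ + u + ((j.val : ℝ) + 2) = φ + u + (j.val : ℝ) + 2 by ring]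
  · have h1 : (j + 2 : Fin 6).val + 4 = j.val := by
      have : ∀ j : Fin 6, ¬ j.val < 4 → (j + 2 : Fin 6).val + 4 = j.val := by decide
      exact this j hj
    have h2 : (j.val : ℝ) = ((j + 2 : Fin 6).val : ℝ) + 4 := by
      rw [← h1]; push_cast; ring
    rw [h2, ← pt_six z (φ + u + ((j + 2 : Fin 6).val : ℝ))]
    congr 1
    ring

/-- a set with at most three elements and three different elements -/
theorem eq_three {s : Set (Fin 6)} {p q r : Fin 6} (h3 : s.ncard ≤ 3) (hp : p ∈ s) (hq : q ∈ s)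
    (hr : r ∈ s) (pq : p ≠ q) (pr : p ≠ r) (qr : q ≠ r) : s = {p, q, r} := by
  symm
  refine Set.eq_of_subset_of_ncard_le ?_ ?_ (Set.toFinite _)
  · rintro i (rfl | rfl | hi)
    · exact hp
    · exact hq
    · rw [mem_singleton_iff] at hi; subst hi; exact hr
  · rw [Set.ncard_eq_three.2 ⟨p, q, r, pq, pr, qr, rfl⟩]; exact h3

variable (hz : DPt T z a b c d)

/-- **the local rules at every time** -/
theorem locR (h : Irr U T) (hz : DPt T z a b c d) (nd : [a, b, c, d, e, f].Nodup)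
    (hJ : ∀ v, dist v z = 1 → 4 ≤ (T v).ncard → T v = T z)
    (hf : ∀ v, dist v z = 1 → T v ≠ {a, b, f} ∧ T v ≠ {c, d, f}) (u : ℝ) :
    LocR (fun i l => u ∈ Xl T (ctr1 z) 0 (fun _ => ltr a e f) ((), i) l)
      (fun i => T (pt z (0 + u + (i.val : ℝ))) = T z) := by
  have C : Ctr U T z a b c d e f := hz.ctr' h nd
  have hn := nd
  simp only [List.nodup_cons, List.mem_cons, List.not_mem_nil, or_false, not_or, List.nodup_nil,
    and_true, not_false_eq_true] at hn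
  obtain ⟨⟨ab, ac, ad, ae, af⟩, ⟨bc, bd, be, bf⟩, ⟨cd, ce, cf⟩, ⟨de, df⟩, ef⟩ := hn
  have h3 : ∀ s : ℝ, T (pt z s) ≠ T z → (T (pt z s)).ncard ≤ 3 := by
    intro s hs
    by_contra hcon
    exact hs (hJ _ (dist_pt z s) (by omega))
  have heT : e ∉ T z := by
    rw [hz.pal]
    rintro (h1 | h1 | h1 | h1)
    exacts [ae h1.symm, be h1.symm, ce h1.symm, de h1.symm]
  have hfT : f ∉ T z := by
    rw [hz.pal]
    rintro (h1 | h1 | h1 | h1)
    exacts [af h1.symm, bf h1.symm, cf h1.symm, df h1.symm]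
  have anti : ∀ s : ℝ, a ∈ T (pt z s) → b ∈ T (pt z s) → c ∈ T (pt z (s + 3)) →
      d ∈ T (pt z (s + 3)) → False := by
    intro s h1 h2 h4 h5
    rw [pt_three] at h4 h5
    exact h.anti hz (dist_pt z s) (h.sub _ h1) (h.sub _ h2) (h.sub _ h4) (h.sub _ h5)
  refine ⟨?_, ?_, ?_, ?_, ?_, ?_, ?_⟩
  · rintro i hi ⟨h1, h2⟩
    exact C.noAC (h3 _ hi) (Lt_of_Xl C h1) (Lt_of_Xl C h2)
  · intro i hi l hl
    have hi : T (pt z (0 + u + (i.val : ℝ))) = T z := hi
    have h1 := Lt_of_Xl C hl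
    rcases four l with rfl | rfl | rfl | rfl
    · have h2 : e ∈ T (pt z (0 + u + (i.val : ℝ))) := h1.2
      rw [hi] at h2
      exact absurd h2 heT
    · have h2 : f ∈ T (pt z (0 + u + (i.val : ℝ))) := h1.2
      rw [hi] at h2
      exact absurd h2 hfT
    · decide
    · decide
  · intro i h1
    have h2 : f ∈ T (pt z (0 + u + (i.val : ℝ))) := (Lt_of_Xl C h1).2
    have h4 : (T (pt z (0 + u + (i.val : ℝ)))).ncard ≤ 3 := h3 _ fun h5 => hfT (h5 ▸ h2)
    constructor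
    · intro h5
      have h6 : ({a, b} : Set (Fin 6)) ⊆ T (pt z (0 + u + (i.val : ℝ))) :=
        Lt_col (a := a) (b := b) (c := c) (d := d) (e := e) (f := f) h (Lt_of_Xl C h5)
      exact (hf _ (dist_pt z _)).1
        (eq_three h4 (h6 (Or.inl rfl)) (h6 (Or.inr rfl)) h2 ab af bf)
    · intro h5
      have h6 : ({c, d} : Set (Fin 6)) ⊆ T (pt z (0 + u + (i.val : ℝ))) :=
        Lt_col (a := a) (b := b) (c := c) (d := d) (e := e) (f := f) h (Lt_of_Xl C h5)
      exact (hf _ (dist_pt z _)).2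
        (eq_three h4 (h6 (Or.inl rfl)) (h6 (Or.inr rfl)) h2 cd cf df)
  · intro i h1 h2
    have h1 : T (pt z (0 + u + (i.val : ℝ))) = T z := h1
    have h2 : T (pt z (0 + u + ((i + 3 : Fin 6).val : ℝ))) = T z := h2
    rw [pt_add3] at h2
    refine anti (0 + u + (i.val : ℝ)) ?_ ?_ ?_ ?_
    · rw [h1, hz.pal]; simp
    · rw [h1, hz.pal]; simp
    · rw [h2, hz.pal]; simp
    · rw [h2, hz.pal]; simp
  · intro i h1 h2
    have h6 : ({a, b} : Set (Fin 6)) ⊆ T (pt z (0 + u + (i.val : ℝ))) :=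
      Lt_col (a := a) (b := b) (c := c) (d := d) (e := e) (f := f) h (Lt_of_Xl C h1)
    have h7 : ({c, d} : Set (Fin 6)) ⊆ T (pt z (0 + u + ((i + 3 : Fin 6).val : ℝ))) :=
      Lt_col (a := a) (b := b) (c := c) (d := d) (e := e) (f := f) h (Lt_of_Xl C h2)
    rw [pt_add3] at h7
    exact anti _ (h6 (Or.inl rfl)) (h6 (Or.inr rfl)) (h7 (Or.inl rfl)) (h7 (Or.inr rfl))
  · intro i hi hi1 l m h1 h2 h4 h5
    have k1 := Lt_of_Xl C h1
    have k2 := Lt_of_Xl C h2
    have k4 := Lt_of_Xl C h4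
    have k5 := Lt_of_Xl C h5
    have hi1 : T (pt z (0 + u + ((i + 1 : Fin 6).val : ℝ))) ≠ T z := hi1
    rw [pt_succ] at k4 k5 hi1
    by_contra hlm
    exact C.noswap hlm (dist_pt_one z _) (h3 _ hi) (h3 _ hi1) k1 k2 k4 k5
  · intro i hi hi1 hi2 l m hlm h1 h2 h4 h5
    have k1 := Lt_of_Xl C h1
    have k2 := Lt_of_Xl C h2
    have k4 := Lt_of_Xl C h4
    have k5 := Lt_of_Xl C h5
    have hi1 : T (pt z (0 + u + ((i + 1 : Fin 6).val : ℝ))) ≠ T z := hi1
    have hi2 : T (pt z (0 + u + ((i + 2 : Fin 6).val : ℝ))) ≠ T z := hi2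
    rw [pt_succ] at k2 k4 hi1
    rw [pt_add2] at k5 hi2
    have := C.x_dbl hlm (u := 0 + u + (i.val : ℝ)) (h3 _ hi1) (h3 _ hi) (h3 _ hi2) k1 k2 k4 k5
    exact ⟨this.1, this.2⟩

/-- the sweep structure -/
theorem sw1 (h : Irr U T) (hz : DPt T z a b c d) (nd : [a, b, c, d, e, f].Nodup) :
    Sw (Xl T (ctr1 z) 0 (fun _ => ltr a e f)) (fun g => Leg fun i => g ((), i)) := by
  have C : Ctr U T z a b c d e f := hz.ctr' h nd
  have hn := nd
  simp only [List.nodup_cons, List.mem_cons, List.not_mem_nil, or_false, not_or, List.nodup_nil,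
    and_true, not_false_eq_true] at hn
  obtain ⟨⟨ab, ac, ad, ae, af⟩, ⟨bc, bd, be, bf⟩, ⟨cd, ce, cf⟩, ⟨de, df⟩, ef⟩ := hn
  refine sw_of h dense_univ fun u _ hu => ?_
  have hL : ∀ j : Fin 6, 0 + u + (j.val : ℝ) ∈ Lc T z := fun j => hu ((), j)
  constructor
  · intro i he
    have h0 := dj_sixty h (hL i)
    have h1 := ltr_cases C (hL i)
    have h2 := ltr_cases C (hL (i + 1))
    have he : ltr a e f (T (pt z (0 + u + (i.val : ℝ)))) =
      ltr a e f (T (pt z (0 + u + ((i + 1 : Fin 6).val : ℝ)))) := he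
    rw [← he] at h2
    rw [pt_succ] at h2
    generalize ltr a e f (T (pt z (0 + u + (i.val : ℝ)))) = l at h1 h2
    rw [Set.disjoint_left] at h0
    rcases h1 with ⟨rfl, h1⟩ | ⟨rfl, h1⟩ | ⟨rfl, h1⟩ | ⟨rfl, h1⟩ <;>
      rcases h2 with ⟨h3, h2⟩ | ⟨h3, h2⟩ | ⟨h3, h2⟩ | ⟨h3, h2⟩ <;>
      try exact absurd h3 (by decide)
    · exact h0 h1 h2
    · exact h0 h1 h2
    · rw [h1, h2] at h0
      exact h0 (Or.inl rfl) (Or.inl rfl)
    · rw [h1, h2] at h0
      exact h0 (Or.inl rfl) (Or.inl rfl)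
  · rintro i ⟨h1, h2⟩
    have h1 : ltr a e f (T (pt z (0 + u + (i.val : ℝ)))) = 2 := h1
    have h2 : ltr a e f (T (pt z (0 + u + ((i + 3 : Fin 6).val : ℝ)))) = 3 := h2
    have k1 := ltr_cases C (hL i)
    have k2 := ltr_cases C (hL (i + 3))
    rw [h1] at k1
    rw [h2] at k2
    have e1 : T (pt z (0 + u + (i.val : ℝ))) = {a, b} := by
      rcases k1 with ⟨h3, -⟩ | ⟨h3, -⟩ | ⟨-, h3⟩ | ⟨h3, -⟩
      · exact absurd h3 (by decide)
      · exact absurd h3 (by decide)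
      · exact h3
      · exact absurd h3 (by decide)
    have e2 : T (pt z (0 + u + ((i + 3 : Fin 6).val : ℝ))) = {c, d} := by
      rcases k2 with ⟨h3, -⟩ | ⟨h3, -⟩ | ⟨h3, -⟩ | ⟨-, h3⟩
      · exact absurd h3 (by decide)
      · exact absurd h3 (by decide)
      · exact absurd h3 (by decide)
      · exact h3
    rw [pt_add3, pt_three] at e2
    exact h.anti hz (dist_pt z _) (h.sub _ (by rw [e1]; simp)) (h.sub _ (by rw [e1]; simp))
      (h.sub _ (by rw [e2]; simp)) (h.sub _ (by rw [e2]; simp))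

/-- **Not all plain ends are `e`-ends.** -/
theorem DPt.s1 (h : Irr U T) (hz : DPt T z a b c d) (nd : [a, b, c, d, e, f].Nodup)
    (hJ : ∀ v, dist v z = 1 → 4 ≤ (T v).ncard → T v = T z)
    (hf : ∀ v, dist v z = 1 → T v ≠ {a, b, f} ∧ T v ≠ {c, d, f}) : False := by
  have w := sw1 h hz nd
  set X := Xl T (ctr1 z) 0 (fun _ => ltr a e f) with hX
  let R : (Unit × Fin 6 → Fin 4) → (Unit × Fin 6 → Fin 4) → Prop := fun g g' =>
    lab (fun i => g ((), i)) = lab fun i => g' ((), i)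
  have loc : ∀ u : ℝ, ∀ g ∈ LC X u ∪ RC X u, ∀ g' ∈ LC X u ∪ RC X u, R g g' := by
    intro u g hg g' hg'
    have R0 := locR h hz nd hJ hf u
    have av : ∀ g ∈ LC X u ∪ RC X u, Av X u g ∧ Leg fun i => g ((), i) := by
      rintro g (hg | hg)
      · exact ⟨w.av_of_LC hg, w.leg_of_LC hg⟩
      · exact ⟨w.av_of_RC hg, w.leg_of_RC hg⟩
    exact R0.lab_eq _ _ _ (av g hg).2 (av g' hg').2 (fun i => (av g hg).1 ((), i))
      (fun i => (av g' hg').1 ((), i)) rfl
  obtain ⟨g, hg⟩ := w.LC_ne 0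
  obtain ⟨g', hg'⟩ := w.RC_ne 0
  have h1 : R g' (g ∘ rt Unit) := w.turn (σ := rt Unit) (fun s l u => Xl_per s l u)
    (fun _ _ _ h1 h2 => h1.trans h2) 0 (fun u _ => loc u) g hg g' hg'
  have h2 : R g g' := loc 0 g (Or.inl hg) g' (Or.inr hg')
  exact lab_rot (w.leg_of_LC hg) (h2.trans h1)

end Vale.Agent.P032.H928
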