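import Vale.Agent.P032.H928.Cut

/-!
# P032: islands between a point and a tame centre, the cutting islands

`sep928` : if the half open segment from `z` to `y` meets no component of `z` in a colour (in the
disc), then islands through points of the segment arbitrarily near to `z` cut `y` off from `z` in
the disc.
-/

open Set Filter Topology Metric

noncomputable section

namespace Vale.Agent.P032.H928

open Vale.Agent.P032.Six

variable {k : ℕ} {U : Fin k → Set ℂ} {T : ℂ → Set (Fin k)} {z : ℂ} {c f : Fin k} {r : ℝ}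

/-- a smaller component: if the front of `K` lies in `K'`, then `O(K') ⊆ O(K)` -/
theorem comp_of_frt (hD : Convex ℝ (closedBall z r)) {K K' : Set ℂ} (hK : IsClosed K)
    (hr : 0 < r) (hz : z ∉ K) (hF : Frt (closedBall z r) K z ⊆ K') {y : ℂ}
    (hy : y ∈ connectedComponentIn (closedBall z r \ K') z) :
    y ∈ connectedComponentIn (closedBall z r \ K) z := by
  by_contra hcon
  have hsub := connectedComponentIn_subset (closedBall z r \ K') z
  have hz' : z ∈ closedBall z r \ K' := by
    by_contra h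
    rw [connectedComponentIn_eq_empty h] at hy
    exact hy
  obtain ⟨v, hv, h1, h2⟩ := (isPreconnected_closed_iff.1
    (isPreconnected_connectedComponentIn (F := closedBall z r \ K') (x := z)))
    (closedBall z r \ connectedComponentIn (closedBall z r \ K) z)
    (closure (connectedComponentIn (closedBall z r \ K) z))
    (rest_closed hD isClosed_closedBall hK z) isClosed_closure
    (fun v hv => by
      by_cases h : v ∈ connectedComponentIn (closedBall z r \ K) z
      · exact Or.inr (subset_closure h)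
      · exact Or.inl ⟨(hsub hv).1, h⟩)
    ⟨y, hy, (hsub hy).1, hcon⟩
    ⟨z, mem_connectedComponentIn hz', subset_closure
      (mem_connectedComponentIn ⟨mem_closedBall_self hr.le, hz⟩)⟩
  exact (hsub hv).2 (hF ⟨h1, h2⟩)

/-- the set of parameters with a cutting island is closed -/
theorem cut_closed (h : Irr U T) (hr : 0 < r) {y : ℂ} (hy : y ∈ closedBall z r)
    (hfree : ∀ t ∈ Ioc (0 : ℝ) 1, ∀ i, z + t * (y - z) ∉ Isl T i z r z) {η : ℝ} (hη : 0 < η)
    (c : Fin k) :
    IsClosed {t : ℝ | t ∈ Icc η 1 ∧ c ∈ T (z + t * (y - z)) ∧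
      y ∉ connectedComponentIn (closedBall z r \ Isl T c z r (z + t * (y - z))) z} := by
  have hcont : Continuous fun t : ℝ => z + (t : ℂ) * (y - z) := by fun_prop
  refine isClosed_of_closure_subset fun t ht => ?_
  have hS : IsClosed {t : ℝ | t ∈ Icc η 1 ∧ c ∈ T (z + t * (y - z))} :=
    isClosed_Icc.inter ((h.closed c).preimage hcont)
  obtain ⟨htI, htc⟩ : t ∈ Icc η 1 ∧ c ∈ T (z + t * (y - z)) :=
    (hS.closure_subset_iff.2 fun s hs => ⟨hs.1, hs.2.1⟩) ht
  refine ⟨htI, htc, fun hyO => ?_⟩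
  have hwD : z + (t : ℂ) * (y - z) ∈ closedBall z r := by
    rw [mem_closedBall, dist_eq_norm] at hy ⊢
    rw [add_sub_cancel_left, norm_mul, Complex.norm_real, Real.norm_eq_abs,
      abs_of_nonneg (hη.le.trans htI.1)]
    nlinarith [norm_nonneg (y - z), htI.2]
  have hzK : z ∉ Isl T c z r (z + t * (y - z)) := fun hzK => by
    refine hfree t ⟨hη.trans_le htI.1, htI.2⟩ c ?_
    unfold Isl at hzK ⊢
    rw [← connectedComponentIn_eq hzK]
    exact mem_connectedComponentIn ⟨htc, hwD⟩
  obtain ⟨J, hJ, hJc, hzJ, hyJ, hJs⟩ := joint928 hr (isl_closed h) hzK hyO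
  have hev := isl_near h (c := c) (r := r) (z := z) hwD htc hJ.isClosed fun y hy => (hJs hy).2
  have hev2 := hcont.continuousAt.eventually hev
  obtain ⟨s, hs, hsd⟩ := ((mem_closure_iff_frequently.1 ht).and_eventually hev2).exists
  refine hs.2.2 ?_
  have hJs2 : J ⊆ closedBall z r \ Isl T c z r (z + s * (y - z)) := fun v hv =>
    ⟨(hJs hv).1, fun hvK => Set.disjoint_left.1 hsd hvK hv⟩
  exact hJc.subset_connectedComponentIn hzJ hJs2 hyJ

/-- **cutting islands near `z`** -/
theorem sep928 (h : Irr U T) (hr : 0 < r)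
    (h2 : ∀ w ∈ closedBall z r, w ≠ z → (T w).ncard ≤ 2) {y : ℂ} (hy : y ∈ closedBall z r)
    (hyz : y ≠ z) (hfree : ∀ t ∈ Ioc (0 : ℝ) 1, ∀ i, z + t * (y - z) ∉ Isl T i z r z) {η : ℝ}
    (hη : 0 < η) :
    ∃ t ∈ Ioc (0 : ℝ) 1, t < η ∧ ∃ c ∈ T (z + t * (y - z)),
      y ∉ connectedComponentIn (closedBall z r \ Isl T c z r (z + t * (y - z))) z := by
  by_contra hcon
  push Not at hcon
  have hD := convex_closedBall z r
  have hDw : ∀ t ∈ Icc (0 : ℝ) 1, z + (t : ℂ) * (y - z) ∈ closedBall z r := by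
    intro t ht
    rw [mem_closedBall, dist_eq_norm] at hy ⊢
    rw [add_sub_cancel_left, norm_mul, Complex.norm_real, Real.norm_eq_abs, abs_of_nonneg ht.1]
    nlinarith [norm_nonneg (y - z), ht.2]
  have hKO : ∀ {K : Set ℂ}, ∀ v ∈ K, v ∉ connectedComponentIn (closedBall z r \ K) z :=
    fun v hv hvO => (connectedComponentIn_subset _ _ hvO).2 hv
  -- the least parameter
  set Q : Set ℝ := ⋃ c : Fin k, {t : ℝ | t ∈ Icc (min η 1) 1 ∧ c ∈ T (z + t * (y - z)) ∧
      y ∉ connectedComponentIn (closedBall z r \ Isl T c z r (z + t * (y - z))) z} with hQ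
  have hη1 : 0 < min η 1 := lt_min hη one_pos
  have hQc : IsCompact Q := by
    refine IsCompact.of_isClosed_subset (isCompact_Icc (a := min η 1) (b := 1))
      (isClosed_iUnion_of_finite fun c => cut_closed h hr hy hfree hη1 c) ?_
    exact iUnion_subset fun c t ht => ht.1
  have hQn : Q.Nonempty := by
    obtain ⟨c, hc⟩ := h.ne y
    have e : z + ((1 : ℝ) : ℂ) * (y - z) = y := by push_cast; ring
    refine ⟨1, mem_iUnion.2 ⟨c, ⟨min_le_right _ _, le_rfl⟩, ?_, ?_⟩⟩
    · rw [e]; exact hc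
    · rw [e]
      exact hKO y (mem_connectedComponentIn ⟨hc, hy⟩)
  obtain ⟨t, htQ, hmin⟩ := hQc.exists_isLeast hQn
  obtain ⟨c, ⟨htI, htc, htO⟩⟩ := mem_iUnion.1 htQ
  have ht0 : 0 < t := hη1.trans_le htI.1
  have hgood : ∀ s ∈ Ioc (0 : ℝ) 1, ∀ i ∈ T (z + s * (y - z)),
      y ∉ connectedComponentIn (closedBall z r \ Isl T i z r (z + s * (y - z))) z → t ≤ s := by
    intro s hs i hi hsO
    refine hmin (mem_iUnion.2 ⟨i, ⟨?_, hs.2⟩, hi, hsO⟩)
    by_contra hlt
    push Not at hlt
    exact hsO (hcon s hs (hlt.trans_le (min_le_left _ _)) i hi)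
  set w := z + (t : ℂ) * (y - z) with hw
  have hwD : w ∈ closedBall z r := hDw t ⟨ht0.le, htI.2⟩
  -- clopen parts
  have hX : ∀ i, ∃ X ⊆ {v | i ∈ T v} ∩ closedBall z r, IsClosed X ∧
      IsClosed (({v | i ∈ T v} ∩ closedBall z r) \ X) ∧ z ∉ X ∧ (i ∈ T w → w ∈ X) := by
    intro i
    by_cases hi : i ∈ T w
    · obtain ⟨X, hXA, hXc, hAX, hwX, hXL⟩ := clo_sep (col_compact h (c := i) (z := z) (r := r))
        (w := w) ⟨hi, hwD⟩ (L := {z}) isClosed_singleton (by
          rintro v hv hvc
          rw [mem_singleton_iff] at hv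
          subst hv
          refine hfree t ⟨ht0, htI.2⟩ i ?_
          unfold Isl
          rw [← connectedComponentIn_eq hvc]
          exact mem_connectedComponentIn ⟨hi, hwD⟩)
      exact ⟨X, hXA, hXc, hAX, fun hzX => Set.disjoint_left.1 hXL hzX rfl, fun _ => hwX⟩
    · exact ⟨∅, empty_subset _, isClosed_empty, by
        rw [sdiff_empty]; exact (h.closed i).inter isClosed_closedBall, notMem_empty _,
        fun h => absurd h hi⟩
  choose X hXA hXc hAX hzX hwX using hX
  set Y := ⋃ i, X i with hY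
  have hYc : IsClosed Y := isClosed_iUnion_of_finite hXc
  have hYD : Y ⊆ closedBall z r := iUnion_subset fun i v hv => (hXA i hv).2
  have hwY : w ∈ Y := mem_iUnion.2 ⟨c, hwX c htc⟩
  set K := connectedComponentIn Y w with hK
  have hwK : w ∈ K := mem_connectedComponentIn hwY
  have hKY : K ⊆ Y := connectedComponentIn_subset _ _
  have hKc : IsClosed K := by
    refine isClosed_of_closure_subset ?_
    exact isPreconnected_connectedComponentIn.closure.subset_connectedComponentIn
      (subset_closure hwK) (hYc.closure_subset_iff.2 hKY)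
  have hzK : z ∉ K := fun hzK => by
    obtain ⟨i, hi⟩ := mem_iUnion.1 (hKY hzK)
    exact hzX i hi
  have hzO : z ∈ connectedComponentIn (closedBall z r \ K) z :=
    mem_connectedComponentIn ⟨mem_closedBall_self hr.le, hzK⟩
  -- a point with a full neighbourhood is not on the front
  have hN : ∀ p ∈ K, (∀ i ∈ T p, p ∈ X i) → p ∉ Frt (closedBall z r) K z := by
    intro p hp hpX hpF
    have hev : ∀ᶠ v in 𝓝 p, v ∈ closedBall z r → v ∈ Y := by
      have h3 : ∀ i, ∀ᶠ v in 𝓝 p, i ∈ T p → v ∈ {v | i ∈ T v} ∩ closedBall z r → v ∈ X i := by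
        intro i
        by_cases hi : i ∈ T p
        · filter_upwards [clo_nhd (hAX i) (hpX i hi)] with v hv _
          exact hv
        · exact Eventually.of_forall fun v hv => absurd hv hi
      filter_upwards [eventually_all.2 h3, h.nhd p] with v hv hvT hvD
      obtain ⟨i, hi⟩ := h.ne v
      exact mem_iUnion.2 ⟨i, hv i (hvT hi) ⟨hi, hvD⟩⟩
    obtain ⟨ε, hε, hb⟩ := Metric.eventually_nhds_iff_ball.1 hev
    obtain ⟨v, hv, hvp⟩ := Metric.mem_closure_iff.1 hpF.2 ε hε
    have hvD := connectedComponentIn_subset _ _ hv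
    have h3 : ball p ε ∩ closedBall z r ⊆ K := by
      rw [hK, connectedComponentIn_eq hp]
      exact ((convex_ball p ε).inter hD).isPreconnected.subset_connectedComponentIn
        ⟨mem_ball_self hε, hYD (hKY hp)⟩ fun u hu => hb u hu.1 hu.2
    exact hvD.2 (h3 ⟨by rw [mem_ball, dist_comm]; exact hvp, hvD.1⟩)
  have hIK : Isl T c z r w ⊆ K := by
    refine isPreconnected_connectedComponentIn.subset_connectedComponentIn
      (mem_connectedComponentIn ⟨htc, hwD⟩) ?_
    exact (clo_conn (hXc c) (hAX c) isPreconnected_connectedComponentIn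
      (connectedComponentIn_subset _ _) (mem_connectedComponentIn ⟨htc, hwD⟩) (hwX c htc)).trans
        (subset_iUnion X c)
  have hyO : y ∉ connectedComponentIn (closedBall z r \ K) z := fun hyO =>
    htO (connectedComponentIn_mono _ (sdiff_subset_sdiff_right hIK) hyO)
  have hFK : Frt (closedBall z r) K z ⊆ K := frt_sub hD hKc
  have hpre := frt_pre hr hKc isPreconnected_connectedComponentIn (hKY.trans hYD) ⟨w, hwK⟩ z
  -- the front meets the segment
  obtain ⟨s, hs, hsF, -⟩ := exit928 hD isClosed_closedBall hKc (u := z)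
    (γ := fun s : ℝ => z + ((t * (1 - s) : ℝ) : ℂ) * (y - z)) (by fun_prop) (a := 0) (b := 1)
    zero_le_one
    (fun s hs => hDw (t * (1 - s)) ⟨mul_nonneg ht0.le (by linarith [hs.2]), by
      have := htI.2
      nlinarith [hs.1, hs.2]⟩)
    (by
      have e : z + ((t * (1 - 0) : ℝ) : ℂ) * (y - z) = w := by rw [sub_zero, mul_one]
      show z + ((t * (1 - 0) : ℝ) : ℂ) * (y - z) ∉ _
      rw [e]
      exact hKO w hwK)
    (by
      have e : z + ((t * (1 - 1) : ℝ) : ℂ) * (y - z) = z := by
        rw [sub_self, mul_zero, Complex.ofReal_zero, zero_mul, add_zero]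
      show z + ((t * (1 - 1) : ℝ) : ℂ) * (y - z) ∈ _
      rw [e]
      exact hzO)
  set t' := t * (1 - s) with ht'
  have ht'0 : 0 < t' := mul_pos ht0 (by linarith [hs.2])
  have ht't : t' ≤ t := by nlinarith [hs.1]
  have ht'1 : t' ≤ 1 := ht't.trans htI.2
  have hsF' : z + (t' : ℂ) * (y - z) ∈ Frt (closedBall z r) K z := hsF
  obtain ⟨i, hi⟩ := mem_iUnion.1 (hKY (hFK hsF'))
  -- the front lies in `X i`
  have hFX : Frt (closedBall z r) K z ⊆ X i := by
    intro v hv
    by_contra hvi
    obtain ⟨j, hj⟩ := mem_iUnion.1 (hKY (hFK hv))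
    have hij : j ≠ i := by
      rintro rfl
      exact hvi hj
    obtain ⟨p, hp, hpi, hpj⟩ := (isPreconnected_closed_iff.1 hpre) (X i)
      (⋃ l ∈ {l : Fin k | l ≠ i}, X l) (hXc i)
      ((Set.toFinite _).isClosed_biUnion fun l _ => hXc l)
      (fun u hu => by
        obtain ⟨l, hl⟩ := mem_iUnion.1 (hKY (hFK hu))
        by_cases hli : l = i
        · exact Or.inl (hli ▸ hl)
        · exact Or.inr (mem_biUnion (show l ∈ {l : Fin k | l ≠ i} from hli) hl))
      ⟨_, hsF', hi⟩
      ⟨v, hv, mem_biUnion (show j ∈ {l : Fin k | l ≠ i} from hij) hj⟩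
    obtain ⟨l, hli, hpl⟩ := mem_iUnion₂.1 hpj
    have hli : l ≠ i := hli
    have hpz : p ≠ z := by
      rintro rfl
      exact hzK (hFK hp)
    have h3 := h2 p (hXA i hpi).2 hpz
    have h4 : ({i, l} : Set (Fin k)) ⊆ T p := by
      rintro a (rfl | rfl)
      · exact (hXA _ hpi).1
      · exact (hXA _ hpl).1
    have h5 : ({i, l} : Set (Fin k)) = T p :=
      Set.eq_of_subset_of_ncard_le h4 (by rw [Set.ncard_pair hli.symm]; exact h3) (Set.toFinite _)
    refine hN p (hFK hp) (fun a ha => ?_) hp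
    rw [← h5] at ha
    rcases ha with rfl | rfl
    · exact hpi
    · exact hpl
  -- the island of the front
  have hti : i ∈ T (z + (t' : ℂ) * (y - z)) := (hXA i hi).1
  have hFI : Frt (closedBall z r) K z ⊆ Isl T i z r (z + (t' : ℂ) * (y - z)) :=
    isl_of hpre hsF' (mem_connectedComponentIn ⟨hti, hDw t' ⟨ht'0.le, ht'1⟩⟩)
      (fun v hv => (hXA i (hFX hv)).1) fun v hv => (hXA i (hFX hv)).2
  have h6 := hgood t' ⟨ht'0, ht'1⟩ i hti fun hyI => hyO (comp_of_frt hD hKc hr hzK hFI hyI)
  have h7 : t' = t := le_antisymm ht't h6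
  rw [h7] at hsF'
  exact hN w hwK (fun i hi => hwX i hi) hsF'

end Vale.Agent.P032.H928
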