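import Vale.Agent.P032.H928.CovS
import Vale.Agent.P032.H169.SixHD

/-!
# P032: silent colours of a tame centre of order six

`silent_of928` : if there is no centre of order six with windows with honest ends (`EndW`), then a
tame centre of order six has a silent colour `i` (on no arc of its circle), and either a second
silent colour or `i` occurs on the circle in at most two antipodal points.
-/

open Set Filter Topology Metric

noncomputable section

namespace Vale.Agent.P032.H928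

open Vale.Agent.P032.Six Vale.Agent.P032.Sweep Vale.Agent.P032.S5.H767 Vale.Agent.P032.S5.H122
  Vale.Agent.P032.H158 Vale.Agent.P032.H429 Vale.Agent.P032.H187 Vale.Agent.P032.H266
  Vale.Agent.P032.H259 Vale.Agent.P032.H448 Vale.Agent.P032.H259W

variable {U : Fin 6 → Set ℂ} {T : ℂ → Set (Fin 6)} {z : ℂ} {i : Fin 6}

/-- a colour in a letter has a window shorter than a half turn -/
theorem w3_lt928 {L R : Fin 6 → ℝ} (w : W3 U T z L R) {s : ℝ} (hs : s ∈ Lc T z)
    (hi : i ∈ T (pt z s)) : R i < L i + 3 := by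
  rcases w.side s hs i hi with ⟨n, h1, h2⟩ | ⟨n, h1, h2⟩ <;> linarith

/-- **silent colours of a tame centre of order six** -/
theorem silent_of928 (E : H169.EndW) (h : Irr U T) (hmin : Mh259 U T) (hz : ∀ i, i ∈ T z)
    (ht : ∀ᶠ w in 𝓝[≠] z, (T w).ncard ≤ 2) :
    ∃ i, (∀ s ∈ Lc T z, i ∉ T (pt z s)) ∧
      ((∃ j, j ≠ i ∧ ∀ s ∈ Lc T z, j ∉ T (pt z s)) ∨
        ∃ t0 : ℝ, ∀ t, i ∈ T (pt z t) → ∃ n : ℤ, t = t0 + 3 * n) := by
  by_cases hns : ∀ c f : Fin 6, c ≠ f → ∃ g, (g = c ∨ g = f) ∧ ∃ s ∈ Lc T z, g ∈ T (pt z s)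
  · obtain ⟨L, R, w⟩ := tame_w3_928 h hmin hz ht hns
    by_cases hlt : ∀ i, R i < L i + 3
    · exact (E U T z L R h hmin hz ⟨w.le, hlt, w.cover, w.side, w.front, w.back⟩ w.hon).elim
    push Not at hlt
    obtain ⟨i, hi⟩ := hlt
    have hi3 : R i = L i + 3 := le_antisymm (w.lt3 i) hi
    refine ⟨i, fun s hs his => ?_, Or.inr ⟨L i + 3 / 2, fun t hit => ?_⟩⟩
    · have := w3_lt928 w hs his
      linarith
    · rcases out_or_inn h.mx (i := i) (y := pt z t) (z := z) (h.sub _ hit) with h1 | h1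
      · obtain ⟨n, h3, h4⟩ := w.outH i t h1
        refine ⟨2 * n - 1, ?_⟩
        push_cast
        linarith
      · obtain ⟨n, h3, h4⟩ := w.innH i t h1
        refine ⟨2 * n, ?_⟩
        push_cast
        linarith
  · push Not at hns
    obtain ⟨c, f, hcf, hg⟩ := hns
    exact ⟨c, fun s hs => hg c (Or.inl rfl) s hs, Or.inl ⟨f, hcf.symm, fun s hs =>
      hg f (Or.inr rfl) s hs⟩⟩

/-- a silent colour is in no pair of the circle -/
theorem silent_three928 (h : Irr U T) (hz : ∀ i, i ∈ T z) (hs : ∀ s ∈ Lc T z, i ∉ T (pt z s))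
    {q : ℂ} (hq : dist q z = 1) (hi : i ∈ T q) : 3 ≤ (T q).ncard := by
  by_contra h3
  obtain ⟨t, rfl⟩ := exists_pt3 hq
  have h1 : 1 < (T (pt z t)).ncard := by
    by_contra h1
    have h3 : T (pt z t) ⊆ {i} := fun m hm =>
      (Set.ncard_le_one (Set.toFinite _)).1 (by omega) m hm i hi
    exact h.mx.notMem' (h.mem_of_single h3) hq (h.sub z (hz i))
  have hc : Continuous fun u : ℝ => pt z u := by
    unfold pt
    have := continuous_cis
    fun_prop
  have h2 : ∀ᶠ u in 𝓝 t, T (pt z u) ⊆ T (pt z t) := hc.continuousAt.eventually (h.nhd _)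
  obtain ⟨V, hV, hVo, htV⟩ := _root_.eventually_nhds_iff.1 h2
  have hD : Dense (WinData.L0 T z) := by rw [WinData.L0_eq]; exact Lall_dense h
  obtain ⟨u, huV, hu⟩ := hD.inter_open_nonempty V hVo ⟨t, htV⟩
  have l0 : u ∈ Lc T z := by simpa using hu 0
  have n0 := (two_out h l0 fun i _ => hz i).1
  have h4 := hV u huV
  have h5 : T (pt z u) = T (pt z t) :=
    Set.eq_of_subset_of_ncard_le h4 (by omega) (Set.toFinite _)
  exact hs u l0 (by rw [h5]; exact hi)

/-- near every point of the circle there are points without the silent colour -/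
theorem silent_dense928 (h : Irr U T) (hs : ∀ s ∈ Lc T z, i ∉ T (pt z s)) {q : ℂ}
    (hq : dist q z = 1) {ε : ℝ} (hε : 0 < ε) :
    ∃ p, dist p z = 1 ∧ dist p q < ε ∧ i ∉ T p := by
  obtain ⟨t, rfl⟩ := exists_pt3 hq
  have hc : Continuous fun u : ℝ => pt z u := by
    unfold pt
    have := continuous_cis
    fun_prop
  have h2 : ∀ᶠ u in 𝓝 t, dist (pt z u) (pt z t) < ε :=
    hc.continuousAt.eventually (ball_mem_nhds _ hε)
  obtain ⟨V, hV, hVo, htV⟩ := _root_.eventually_nhds_iff.1 h2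
  have hD : Dense (WinData.L0 T z) := by rw [WinData.L0_eq]; exact Lall_dense h
  obtain ⟨u, huV, hu⟩ := hD.inter_open_nonempty V hVo ⟨t, htV⟩
  have l0 : u ∈ Lc T z := by simpa using hu 0
  exact ⟨_, dist_pt z u, hV u huV, hs u l0⟩

/-- points of the circle in the directions `t0 + 3 n` -/
theorem pt_anti928 (z : ℂ) (t0 : ℝ) (n : ℤ) :
    pt z (t0 + 3 * n) = pt z t0 ∨ dist (pt z (t0 + 3 * n)) (pt z t0) = 2 := by
  have e : ∀ x : ℝ, ∀ m : ℤ, cis (x + m * (2 * Real.pi)) = cis x := by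
    intro x m
    unfold cis
    push_cast
    rw [show ((x : ℂ) + m * (2 * Real.pi)) * Complex.I = x * Complex.I +
      m * (2 * Real.pi * Complex.I) by ring, Complex.exp_add, Complex.exp_int_mul_two_pi_mul_I,
      mul_one]
  rcases Int.even_or_odd' n with ⟨m, rfl | rfl⟩
  · left
    unfold pt
    rw [← e (t0 * (Real.pi / 3)) m]
    congr 2
    push_cast
    ring
  · right
    have e1 : pt z (t0 + 3 * ((2 * m + 1 : ℤ) : ℝ)) = z - (pt z t0 - z) := by
      unfold pt
      have e2 : (t0 + 3 * ((2 * m + 1 : ℤ) : ℝ)) * (Real.pi / 3) =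
          (t0 * (Real.pi / 3) + m * (2 * Real.pi)) + Real.pi := by push_cast; ring
      rw [e2, cis_add_pi326, e]
      ring
    rw [e1, dist_eq_norm]
    have e3 : z - (pt z t0 - z) - pt z t0 = (-2 : ℂ) * (pt z t0 - z) := by ring
    have h4 := dist_pt z t0
    rw [dist_eq_norm] at h4
    rw [e3, norm_mul, h4]
    norm_num

end Vale.Agent.P032.H928
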