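import Vale.Agent.P032.H928.SilS

/-!
# P032: points near which all six sets are needed, silent indices

`six_ofS` : the statement in the plane.  `handSixSilent` : the hand-in, from `EndW`.
-/

open Set Filter Topology Metric

noncomputable section

namespace Vale.Agent.P032.H928

open Vale.Agent.P032.Six Vale.Agent.P032.Sweep Vale.Agent.P032.S5.H767 Vale.Agent.P032.S5.H122
  Vale.Agent.P032.H429 Vale.Agent.P032.H187 Vale.Agent.P032.H158 Vale.Agent.P032.H448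
  Vale.Agent.P032.H266 Vale.Agent.P032.H259 Vale.Agent.P032.S5.H843 Vale.Agent.P032.S5.H926
  Vale.Agent.P032.H169 Vale.Agent.P032.H259W

/-- **points near which all six sets are needed** -/
theorem six_ofS (E : EndW) {U : Fin 6 → Set (EuclideanSpace ℝ (Fin 2))}
    (hU : ∀ i, Maximal (fun W : Set (EuclideanSpace ℝ (Fin 2)) =>
      IsOpen W ∧ ∀ x ∈ W, ∀ y ∈ W, dist x y ≠ 1) (U i))
    (hd : Dense (⋃ i, U i)) {x : EuclideanSpace ℝ (Fin 2)}
    (hx : ∀ s : Set (Fin 6), s.ncard ≤ 5 → x ∈ closure ((⋃ j, U j) \ ⋃ i ∈ s, U i)) :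
    (∃ᶠ w in 𝓝[≠] x, Three U w) ∨
      ∃ i, (∀ y, dist y x = 1 → (∃ X : Set (Fin 6), X.ncard = 3 ∧ i ∈ X ∧ ∀ j ∈ X,
          y ∈ closure (U j)) ∨ y ∉ closure ((⋃ j, U j) \ ⋃ j ∈ ({i} : Set (Fin 6))ᶜ, U j)) ∧
        (∀ y, dist y x = 1 → ∀ ε > 0, ∃ q, dist q x = 1 ∧ dist q y < ε ∧
          q ∉ closure ((⋃ j, U j) \ ⋃ j ∈ ({i} : Set (Fin 6))ᶜ, U j)) ∧
        ((∃ k, k ≠ i ∧ ∀ y, dist y x = 1 → ∀ ε > 0, ∃ q, dist q x = 1 ∧ dist q y < ε ∧
          q ∉ closure ((⋃ j, U j) \ ⋃ j ∈ ({k} : Set (Fin 6))ᶜ, U j)) ∨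
        ∃ a, dist a x = 1 ∧ ∀ y, dist y x = 1 → y ≠ a → dist y a ≠ 2 →
          y ∉ closure ((⋃ j, U j) \ ⋃ j ∈ ({i} : Set (Fin 6))ᶜ, U j)) := by
  rw [or_iff_not_imp_left]
  intro hA
  obtain ⟨φ, T, h, hmin⟩ := frame169 hU hd
  obtain ⟨z, rfl⟩ := φ.surjective x
  have hsuf : ∀ (w : ℂ) (s : Set (Fin 6)), T w ⊆ s →
      φ w ∉ closure ((⋃ j, U j) \ ⋃ i ∈ s, U i) := by
    intro w s hs hcl
    refine Irr_suff h w ((cdf169 φ (T w) w).2 (closure_mono ?_ hcl))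
    exact sdiff_subset_sdiff_right (biUnion_mono hs fun _ _ => Subset.rfl)
  have hz : ∀ i, i ∈ T z := by
    intro i
    by_contra hi
    have h1 : (T z).ncard ≤ 5 := by
      by_contra h2
      have h3 : (T z).ncard = 6 := by
        have h4 : (T z).ncard ≤ 6 := (Set.ncard_le_card _).trans (by simp)
        omega
      have h5 : T z = univ := Set.eq_univ_of_forall fun j => by
        by_contra hj
        have h6 : T z ⊆ {j}ᶜ := fun k hk hkj => hj (by rw [mem_singleton_iff] at hkj; exact hkj ▸ hk)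
        have h7 := Set.ncard_le_ncard h6 (Set.toFinite _)
        have h8 := Set.ncard_add_ncard_compl ({j} : Set (Fin 6))
        rw [Set.ncard_singleton, Nat.card_eq_fintype_card, Fintype.card_fin] at h8
        omega
      rw [h5] at hi
      exact hi (mem_univ i)
    exact hsuf z (T z) Subset.rfl (hx (T z) h1)
  have ht : ∀ᶠ w in 𝓝[≠] z, (T w).ncard ≤ 2 := by
    by_contra hcon
    refine hA ?_
    have h1 : ∃ᶠ w in 𝓝[≠] z, ¬ (T w).ncard ≤ 2 := Filter.not_eventually.1 hcon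
    have h2 : Tendsto φ (𝓝[≠] z) (𝓝[≠] (φ z)) := by
      refine tendsto_nhdsWithin_iff.2 ⟨φ.continuous.continuousAt.tendsto.mono_left inf_le_left, ?_⟩
      filter_upwards [self_mem_nhdsWithin] with w hw h3
      exact hw (φ.injective h3)
    exact h2.frequently (h1.mono fun w hw => three_of h hw)
  have hno : ∀ (w : ℂ) (i : Fin 6), i ∉ T w →
      φ w ∉ closure ((⋃ j, U j) \ ⋃ j ∈ ({i} : Set (Fin 6))ᶜ, U j) := fun w i hi =>
    hsuf _ _ fun j hj hji => hi (by rw [mem_singleton_iff] at hji; exact hji ▸ hj)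
  have hdense : ∀ i : Fin 6, (∀ s ∈ Lc T z, i ∉ T (pt z s)) → ∀ y, dist y (φ z) = 1 → ∀ ε > 0,
      ∃ q, dist q (φ z) = 1 ∧ dist q y < ε ∧
        q ∉ closure ((⋃ j, U j) \ ⋃ j ∈ ({i} : Set (Fin 6))ᶜ, U j) := by
    intro i hs y hy ε hε
    obtain ⟨q, rfl⟩ := φ.surjective y
    rw [φ.dist_map] at hy
    obtain ⟨p, hp, hpq, hpi⟩ := silent_dense928 h hs hy hε
    exact ⟨φ p, by rw [φ.dist_map]; exact hp, by rw [φ.dist_map]; exact hpq, hno p i hpi⟩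
  obtain ⟨i, hsi, hor⟩ := silent_of928 E h hmin hz ht
  refine ⟨i, fun y hy => ?_, hdense i hsi, ?_⟩
  · obtain ⟨q, rfl⟩ := φ.surjective y
    rw [φ.dist_map] at hy
    by_cases hi : i ∈ T q
    · left
      obtain ⟨R, hR1, hR2, hR3⟩ := Set.exists_subsuperset_card_eq (s := {i}) (t := T q) (n := 3)
        (by rwa [Set.singleton_subset_iff]) (by rw [Set.ncard_singleton]; omega)
        (silent_three928 h hz hsi hy hi)
      exact ⟨R, hR3, hR1 rfl, fun j hj => clo169 h (hR2 hj)⟩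
    · exact Or.inr (hno q i hi)
  · rcases hor with ⟨j, hji, hsj⟩ | ⟨t0, ht0⟩
    · exact Or.inl ⟨j, hji, hdense j hsj⟩
    · refine Or.inr ⟨φ (pt z t0), by rw [φ.dist_map]; exact dist_pt z t0, fun y hy hya hy2 => ?_⟩
      obtain ⟨q, rfl⟩ := φ.surjective y
      rw [φ.dist_map] at hy
      obtain ⟨t, rfl⟩ := exists_pt3 hy
      refine hno _ i fun hit => ?_
      obtain ⟨n, rfl⟩ := ht0 t hit
      rcases pt_anti928 z t0 n with h1 | h1
      · exact hya (by rw [h1])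
      · exact hy2 (by rw [φ.dist_map]; exact h1)

/-- the hand-in, from the end -/
theorem handSixSilent (E : EndW) :
    (∀ V : Fin 6 → Set (EuclideanSpace ℝ (Fin 2)), (∀ i, IsOpen (V i)) →
      (∀ i, ∀ x ∈ V i, ∀ y ∈ V i, dist x y ≠ 1) → Dense (⋃ i, V i) →
      ∃ U : Fin 6 → Set (EuclideanSpace ℝ (Fin 2)), (∀ i, V i ⊆ U i) ∧ Dense (⋃ i, U i) ∧
        ∀ i, Maximal (fun W : Set (EuclideanSpace ℝ (Fin 2)) =>
          IsOpen W ∧ ∀ x ∈ W, ∀ y ∈ W, dist x y ≠ 1) (U i)) ∧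
    (∀ U : Fin 6 → Set (EuclideanSpace ℝ (Fin 2)), Dense (⋃ i, U i) →
      (∀ i, Maximal (fun W : Set (EuclideanSpace ℝ (Fin 2)) =>
        IsOpen W ∧ ∀ x ∈ W, ∀ y ∈ W, dist x y ≠ 1) (U i)) →
      ∀ x : EuclideanSpace ℝ (Fin 2),
        (∀ s : Set (Fin 6), s.ncard ≤ 5 → x ∈ closure ((⋃ j, U j) \ ⋃ i ∈ s, U i)) →
        (∀ r > 0, ∃ w, w ≠ x ∧ dist w x < r ∧
          ∃ X : Set (Fin 6), X.ncard = 3 ∧ ∀ i ∈ X, w ∈ closure (U i)) ∨
        ∃ i, (∀ y, dist y x = 1 → (∃ X : Set (Fin 6), X.ncard = 3 ∧ i ∈ X ∧ ∀ j ∈ X,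
            y ∈ closure (U j)) ∨ y ∉ closure ((⋃ j, U j) \ ⋃ j ∈ ({i} : Set (Fin 6))ᶜ, U j)) ∧
          (∀ y, dist y x = 1 → ∀ ε > 0, ∃ q, dist q x = 1 ∧ dist q y < ε ∧
            q ∉ closure ((⋃ j, U j) \ ⋃ j ∈ ({i} : Set (Fin 6))ᶜ, U j)) ∧
          ((∃ k, k ≠ i ∧ ∀ y, dist y x = 1 → ∀ ε > 0, ∃ q, dist q x = 1 ∧ dist q y < ε ∧
            q ∉ closure ((⋃ j, U j) \ ⋃ j ∈ ({k} : Set (Fin 6))ᶜ, U j)) ∨
          ∃ a, dist a x = 1 ∧ ∀ y, dist y x = 1 → y ≠ a → dist y a ≠ 2 →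
            y ∉ closure ((⋃ j, U j) \ ⋃ j ∈ ({i} : Set (Fin 6))ᶜ, U j))) :=
  ⟨fun V hV hfree hd => by
    choose U hVU hU using fun i => exists_maximal_ge (hV i) (hfree i)
    exact ⟨U, hVU, hd.mono (iUnion_mono hVU), hU⟩,
    fun U hd hU x hx => by
      rcases six_ofS E hU hd hx with h1 | h1
      · left
        intro r hr
        have h2 : ∀ᶠ w in 𝓝[≠] x, dist w x < r ∧ w ≠ x := by
          filter_upwards [mem_nhdsWithin_of_mem_nhds (ball_mem_nhds x hr), self_mem_nhdsWithin]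
            with w h3 h4
          exact ⟨h3, h4⟩
        obtain ⟨w, ⟨X, hX, hXc⟩, h3, h4⟩ := (h1.and_eventually h2).exists
        exact ⟨w, h4, h3, X, hX, hXc⟩
      · exact Or.inr h1⟩

end Vale.Agent.P032.H928
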