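import Vale.Agent.P032.H266.FamZ
import Vale.Agent.P032.H429.Corner
import Vale.Agent.P032.H326.Window
import Vale.Agent.P032.H154.StarDef
import Vale.Agent.P032.H448.Win

/-!
# P032: honest directions at a tame centre

`Tame T z` (154): near `z` all other points have at most two colours.

* `att_tame` : every colour of a tame point of order at least four is attached (429).
* `hd_tame` : it has an honest direction (266), `hd6_tame` : one for each of the six colours of a
  tame point of order six.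
* `ori_tame`, `pure_tame` : the exact arcs of its circle are oriented, with pure sides.
* `hulls_tame` : all windows, if every colour is carried by an exact arc; `wins_tame` : the windows
  of 448.
* `P5.tame928`, `P5.hd928`, `P5.hulls928` : a five-coloured point with its five diagonals is tame,
  its colours have honest directions (they have solid rays) and windows.
-/

open Set Filter Topology Metric

noncomputable section

namespace Vale.Agent.P032.H928

open Vale.Agent.P032.Six Vale.Agent.P032.Sweep Vale.Agent.P032.S5.H767 Vale.Agent.P032.S5.H122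
  Vale.Agent.P032.H158 Vale.Agent.P032.H429 Vale.Agent.P032.H266 Vale.Agent.P032.H154
  Vale.Agent.P032.H448

variable {U : Fin 6 → Set ℂ} {T : ℂ → Set (Fin 6)} {z : ℂ}

/-- **every colour of a tame point is attached** -/
theorem att_tame (h : Irr U T) (hmin : Mn U T) (h4 : 4 ≤ (T z).ncard) (ht : Tame T z) {i : Fin 6}
    (hi : i ∈ T z) : Att429 T z i :=
  h.att_of_two429 hmin h4 hi ((eventually_nhdsWithin_iff.1 ht).mono fun _ hw hwz _ => hw hwz)

/-- **an honest direction**, also a direction of the colour -/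
theorem hd_tame (h : Irr U T) (hmin : Mn U T) (h4 : 4 ≤ (T z).ncard) (ht : Tame T z) {i : Fin 6}
    (hi : i ∈ T z) : ∃ x ∈ HD U z i, x * (Real.pi / 3) ∈ Dir429 T z i :=
  hd_att h (att_tame h hmin h4 ht hi)

theorem hd_ne_tame (h : Irr U T) (hmin : Mn U T) (h4 : 4 ≤ (T z).ncard) (ht : Tame T z)
    {i : Fin 6} (hi : i ∈ T z) : (HD U z i).Nonempty := by
  obtain ⟨x, hx, -⟩ := hd_tame h hmin h4 ht hi
  exact ⟨x, hx⟩

theorem univ_of_six (h6 : (T z).ncard = 6) (i : Fin 6) : i ∈ T z := by
  have h1 : T z = univ := by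
    rw [Set.eq_univ_iff_ncard, h6]
    simp
  rw [h1]
  exact mem_univ i

/-- **one honest direction for each of the six colours** of a tame point of order six -/
theorem hd6_tame (h : Irr U T) (hmin : Mn U T) (h6 : (T z).ncard = 6) (ht : Tame T z) :
    ∃ X : Fin 6 → ℝ, ∀ i, X i ∈ HD U z i ∧ X i * (Real.pi / 3) ∈ Dir429 T z i := by
  have h1 : ∀ i, ∃ x, x ∈ HD U z i ∧ x * (Real.pi / 3) ∈ Dir429 T z i := fun i =>
    hd_tame h hmin (by omega) ht (univ_of_six h6 i)
  choose X hX using h1
  exact ⟨X, hX⟩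

/-- **the exact arcs of a tame point are oriented** -/
theorem ori_tame (h : Irr U T) (hmin : Mn U T) (h4 : 4 ≤ (T z).ncard) (ht : Tame T z) {θ : ℝ}
    {a b : Fin 6} (ha : a ∈ T z) (hb : b ∈ T z) (hab : a ≠ b) (hg : Arc T z (z + cis θ) {a, b}) :
    Ori429 U z θ a b ∨ Ori429 U z θ b a := by
  rcases h.collar_of_att hab (att_tame h hmin h4 ht ha) (att_tame h hmin h4 ht hb) hg with hC | hC
  · exact Or.inl (h.side_of_collar hC)
  · exact Or.inr (h.side_of_collar hC)

/-- the sides of the exact arcs of a tame point are pure -/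
theorem pure_tame (h : Irr U T) (hmin : Mn U T) (h4 : 4 ≤ (T z).ncard) (ht : Tame T z) {θ : ℝ}
    {a b : Fin 6} (ha : a ∈ T z) (hb : b ∈ T z) (hab : a ≠ b) (hg : Arc T z (z + cis θ) {a, b}) :
    Collar T z θ a b ∨ Collar T z θ b a :=
  h.collar_of_att hab (att_tame h hmin h4 ht ha) (att_tame h hmin h4 ht hb) hg

/-- **all windows of a tame point** whose colours are carried by exact arcs -/
theorem hulls_tame (h : Irr U T) (hmin : Mn U T) (h4 : 4 ≤ (T z).ncard) (ht : Tame T z)
    (harc : ∀ i ∈ T z, ∃ j ∈ T z, j ≠ i ∧ ∃ θ, Arc T z (z + cis θ) {i, j}) :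
    ∃ l r : Fin 6 → ℝ, (∀ i ∈ T z, Hull429 T z i (l i) (r i)) ∧
      ∀ θ, ∀ a ∈ T z, ∀ b ∈ T z, a ≠ b → Arc T z (z + cis θ) {a, b} →
        Ori429 U z θ a b ∨ Ori429 U z θ b a :=
  h.hulls_of_att (fun i hi => by rw [hi, Set.ncard_singleton] at h4; omega)
    (fun _ hi => att_tame h hmin h4 ht hi) harc

/-- the windows of 448 at a tame point of order six whose colours are carried by exact arcs -/
theorem wins_tame (h : Irr U T) (hmin : Mn U T) (h6 : (T z).ncard = 6) (ht : Tame T z)
    (harc : ∀ i, ∃ j, j ≠ i ∧ ∃ θ, Arc T z (z + cis θ) {i, j}) :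
    ∃ L R : Fin 6 → ℝ, Wins448 U T z L R := by
  have hz := univ_of_six (T := T) (z := z) h6
  refine exists_wins448 h hz fun i => ?_
  obtain ⟨j, hj, θ, hg⟩ := harc i
  rcases ori_tame h hmin (by omega) ht (hz i) (hz j) hj.symm hg with h1 | h1
  · exact ⟨θ, h1.1⟩
  · have e : -cis θ = cis (θ + Real.pi) := by rw [cis_add_pi326]
    exact ⟨θ + Real.pi, by rw [← e]; exact h1.2⟩

/-! ### Five colours, five diagonals -/

variable {c : Fin 5 → Fin 6}

/-- a point with its five diagonals is tame -/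
theorem P5.tame928 (P : P5 T z c) (h : Irr U T) (hmin : Mn U T) : Tame T z :=
  eventually_nhdsWithin_iff.2 (P.iso3 h hmin)

/-- **its colours have honest directions**: they have solid rays -/
theorem P5.hd928 (P : P5 T z c) (h : Irr U T) (hmin : Mn U T) {i : Fin 6} (hi : i ∈ T z) :
    ∃ x ∈ HD U z i, x * (Real.pi / 3) ∈ Dir429 T z i :=
  hd_tame h hmin (by rw [P.card]; norm_num) (P5.tame928 P h hmin) hi

/-- its colours are carried by exact arcs -/
theorem P5.arc928 (P : P5 T z c) (h : Irr U T) {i : Fin 6} (hi : i ∈ T z) :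
    ∃ j ∈ T z, j ≠ i ∧ ∃ θ, Arc T z (z + cis θ) {i, j} := by
  rw [P.rng] at hi
  obtain ⟨m, rfl⟩ := hi
  obtain ⟨q, hq, hT⟩ := P.ex m
  obtain ⟨θ, hθ⟩ := exists_cis (u := q - z) (by rw [← dist_eq_norm]; exact hq)
  refine ⟨c (m + 2), P.mem _, fun h1 => ne2_326 m (P.inj h1), θ, ?_⟩
  have e : z + cis θ = q := by rw [← hθ]; ring
  rw [e]
  exact h.arc_of326 hq hT (P.mem _) (P.mem _)

/-- **its windows** -/
theorem P5.hulls928 (P : P5 T z c) (h : Irr U T) (hmin : Mn U T) :
    ∃ l r : Fin 6 → ℝ, (∀ i ∈ T z, Hull429 T z i (l i) (r i)) ∧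
      ∀ θ, ∀ a ∈ T z, ∀ b ∈ T z, a ≠ b → Arc T z (z + cis θ) {a, b} →
        Ori429 U z θ a b ∨ Ori429 U z θ b a :=
  hulls_tame h hmin (by rw [P.card]; norm_num) (P5.tame928 P h hmin)
    fun _ hi => P5.arc928 P h hi

end Vale.Agent.P032.H928
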