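import Vale.Agent.P032.H460.CovW

/-!
# P032: the winding law of a quasi-full centre and windows of the ends

`windN928` : in the situation of `full_oddK` (quasi-full centre, J- or K-ends) the height gains
`6 w` on one turn with `w = 6 N + 3`, `N` the class of the steps.
`win928` : the changes `l | 2` (`l` = 0 or 1) outside the arc are not all in one closed window of 60
degrees; `opp928` : nor in two opposite directions.
-/

open Set Filter Topology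

noncomputable section

namespace Vale.Agent.P032.H460

open Vale.Agent.P032.H180 Vale.Agent.P032.H695

variable {Q : ℝ → Set (Fin 3)}

/-- **the winding law** -/
theorem windN928 (h : Cov Q) {α : ℝ} (hα0 : 0 < α) (hα1 : α ≤ 1)
    (hX : ∀ t ∈ Ioo (3 : ℝ) (3 + α), Q t ⊆ {2}) (hl : KEnd Q 3 2) (hr : KEnd Q (3 + α) (4 + α))
    (hB : ∀ t ∈ Icc (6 : ℝ) (6 + α), 2 ∉ Q t)
    (hinc : ∀ t ∈ Ioo (3 + α) (8 : ℝ), ¬ Q t ⊆ Q (t + 1) ∧ ¬ Q (t + 1) ⊆ Q t)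
    {M : ℝ → ℤ} (hM : ∀ t ∈ Icc (0 : ℝ) 12, ∀ l : Fin 3, l ∈ Q t ↔ Res (M t - 2 * (l : ℕ)))
    (hMloc : ∀ t ∈ Icc (0 : ℝ) 12, ∀ᶠ s in 𝓝[Icc (0 : ℝ) 12] t, |M s - M t| ≤ 1) {w : ℤ}
    (hP : ∀ t ∈ Icc (0 : ℝ) 6, M (t + 6) = M t + 6 * w) :
    ∃ N m0 : ℤ, m0 % 6 = 4 ∧ w = 6 * N + 3 ∧
      (∀ t ∈ Ioo (3 + α) (8 : ℝ), Stp N (M (t + 1) - M t)) ∧
      (∀ t ∈ Ioo (3 : ℝ) (3 + α), M t = m0) ∧
      ∀ t ∈ Ioo (9 : ℝ) (9 + α), M t = m0 + 6 * w := by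
  have hloc : ∀ t ∈ Ioo (0 : ℝ) 12, ∀ᶠ s in 𝓝 t, s ∈ Ioo (0 : ℝ) 12 ∧ |M s - M t| ≤ 1 := by
    intro t ht
    have h1 := hMloc t ⟨ht.1.le, ht.2.le⟩
    rw [nhdsWithin_eq_nhds.2 (Icc_mem_nhds ht.1 ht.2)] at h1
    filter_upwards [h1, Ioo_mem_nhds ht.1 ht.2] with s hs hs'
    exact ⟨hs', hs⟩
  have hM' : ∀ t ∈ Ioo (0 : ℝ) 12, ∀ l : Fin 3, l ∈ Q t ↔ Res (M t - 2 * (l : ℕ)) :=
    fun t ht => hM t ⟨ht.1.le, ht.2.le⟩
  -- residues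
  have hr2 : ∀ t ∈ Ioo (0 : ℝ) 12, Q t ⊆ {2} → M t % 6 = 4 := by
    intro t ht hQ
    refine res_two (fun hc => ?_) fun hc => ?_
    · have := hQ ((hM' t ht 0).2 hc)
      exact absurd this (by decide)
    · have := hQ ((hM' t ht 1).2 hc)
      exact absurd this (by decide)
  have hrn : ∀ t ∈ Ioo (0 : ℝ) 12, 2 ∉ Q t → M t % 6 = 0 ∨ M t % 6 = 1 ∨ M t % 6 = 2 := by
    intro t ht hQ
    exact res_not_two fun hc => hQ ((hM' t ht 2).2 hc)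
  have hrn1 : ∀ t ∈ Ioo (0 : ℝ) 12, 1 ∉ Q t → M t % 6 = 4 ∨ M t % 6 = 5 ∨ M t % 6 = 0 := by
    intro t ht hQ
    exact res_not_one fun hc => hQ ((hM' t ht 1).2 hc)
  have hrn0 : ∀ t ∈ Ioo (0 : ℝ) 12, 0 ∉ Q t → M t % 6 = 2 ∨ M t % 6 = 3 ∨ M t % 6 = 4 := by
    intro t ht hQ
    exact res_not_zero fun hc => hQ ((hM' t ht 0).2 hc)
  have e9 : Q 9 = Q 3 := by
    have := h.per 3
    norm_num at this
    exact this
  have e8 : Q 8 = Q 2 := by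
    have := h.per 2
    norm_num at this
    exact this
  -- the height on the open arcs
  have hc : ∀ c d : ℝ, 0 ≤ c → d ≤ 12 → (∀ t ∈ Ioo c d, Q t ⊆ {2}) →
      ∀ s ∈ Ioo c d, ∀ t ∈ Ioo c d, M s = M t := by
    intro c d hc hd hQ
    refine const_Ioo fun t ht => ?_
    have ht0 : t ∈ Ioo (0 : ℝ) 12 := ⟨by linarith [ht.1], by linarith [ht.2]⟩
    filter_upwards [hloc t ht0, Ioo_mem_nhds ht.1 ht.2] with s hs hs'
    have e1 := hr2 s hs.1 (hQ s hs')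
    have e2 := hr2 t ht0 (hQ t ht)
    have e3 := hs.2
    rw [abs_le] at e3
    omega
  have hX9 : ∀ t ∈ Ioo (9 : ℝ) (9 + α), Q t ⊆ {2} := by
    intro t ht
    have h1 := h.per (t - 6)
    rw [sub_add_cancel] at h1
    rw [h1]
    exact hX _ ⟨by linarith [ht.1], by linarith [ht.2]⟩
  set m0 := M (3 + α / 2) with hm0
  have hA : ∀ t ∈ Ioo (3 : ℝ) (3 + α), M t = m0 := fun t ht =>
    hc 3 (3 + α) (by norm_num) (by linarith) hX t ht _ ⟨by linarith, by linarith⟩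
  obtain ⟨m1, hm1⟩ : ∃ m1, m1 = m0 + 6 * w := ⟨_, rfl⟩
  have hA9 : ∀ t ∈ Ioo (9 : ℝ) (9 + α), M t = m1 := by
    intro t ht
    have h1 := hc 9 (9 + α) (by norm_num) (by linarith) hX9 t ht (9 + α / 2)
      ⟨by linarith, by linarith⟩
    have h2 := hP (3 + α / 2) ⟨by linarith, by linarith⟩
    rw [show 3 + α / 2 + 6 = 9 + α / 2 by ring] at h2
    rw [h1, h2, hm1]
  have hm4 : m0 % 6 = 4 :=
    hr2 _ ⟨by linarith, by linarith⟩ (hX _ ⟨by linarith, by linarith⟩)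
  have hm5 : m1 % 6 = 4 := by omega
  -- the steps
  have hstep : ∀ t ∈ Ioo (3 + α) (8 : ℝ), (M (t + 1) - M t) % 6 = 2 ∨ (M (t + 1) - M t) % 6 = 3 ∨
      (M (t + 1) - M t) % 6 = 4 := by
    intro t ht
    have ht0 : t ∈ Ioo (0 : ℝ) 12 := ⟨by linarith [ht.1], by linarith [ht.2]⟩
    have ht1 : t + 1 ∈ Ioo (0 : ℝ) 12 := ⟨by linarith [ht.1], by linarith [ht.2]⟩
    obtain ⟨i1, i2⟩ := hinc t ht
    apply incomparable_mod
    · rw [Set.not_subset] at i1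
      obtain ⟨l, hl, hl'⟩ := i1
      exact ⟨l, (hM' t ht0 l).1 hl, fun hc => hl' ((hM' _ ht1 l).2 hc)⟩
    · rw [Set.not_subset] at i2
      obtain ⟨l, hl, hl'⟩ := i2
      exact ⟨l, (hM' _ ht1 l).1 hl, fun hc => hl' ((hM' _ ht0 l).2 hc)⟩
  have hN := const_Ioo (a := 3 + α) (b := 8) (f := fun t => (M (t + 1) - M t - 2) / 6) (by
    intro t ht
    have ht0 : t ∈ Ioo (0 : ℝ) 12 := ⟨by linarith [ht.1], by linarith [ht.2]⟩
    have ht1 : t + 1 ∈ Ioo (0 : ℝ) 12 := ⟨by linarith [ht.1], by linarith [ht.2]⟩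
    have h1 : ∀ᶠ s in 𝓝 t, s + 1 ∈ Ioo (0 : ℝ) 12 ∧ |M (s + 1) - M (t + 1)| ≤ 1 :=
      ((continuous_add_const 1).tendsto t).eventually (hloc _ ht1)
    filter_upwards [h1, hloc t ht0, Ioo_mem_nhds ht.1 ht.2] with s hs1 hs2 hs
    have e1 := hstep s hs
    have e2 := hstep t ht
    have e3 := hs1.2
    have e4 := hs2.2
    rw [abs_le] at e3 e4
    omega)
  set N := (M (6 + 1) - M 6 - 2) / 6 with hNd
  have hS : ∀ t ∈ Ioo (3 + α) (8 : ℝ), Stp N (M (t + 1) - M t) := fun t ht =>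
    ⟨hN t ht 6 ⟨by linarith, by norm_num⟩, hstep t ht⟩
  -- the back arc
  have hn2 : ∀ᶠ s in 𝓝 (6 + α), 2 ∉ Q s :=
    (h.usc (6 + α)).mono fun s hs h2 => hB _ ⟨by linarith, le_rfl⟩ (hs h2)
  have hn4 : ∀ᶠ s in 𝓝 (6 : ℝ), 2 ∉ Q s :=
    (h.usc 6).mono fun s hs h2 => hB _ ⟨le_rfl, by linarith⟩ (hs h2)
  obtain ⟨ε2, hε2, k2⟩ := Metric.eventually_nhds_iff.1 hn2
  obtain ⟨ε4, hε4, k4⟩ := Metric.eventually_nhds_iff.1 hn4
  obtain ⟨ε, hε, hε', e2, e4⟩ : ∃ ε : ℝ, 0 < ε ∧ ε < 1 / 2 ∧ ε < ε2 ∧ ε < ε4 := by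
    refine ⟨min (min ε2 ε4) (1 / 2) / 2, by positivity, ?_, ?_, ?_⟩
    all_goals
      have a5 := min_le_left (min ε2 ε4) (1 / 2)
      have a6 := min_le_right (min ε2 ε4) (1 / 2)
      have a7 := min_le_left ε2 ε4
      have a8 := min_le_right ε2 ε4
      have a9 : 0 < min (min ε2 ε4) (1 / 2) := by positivity
      linarith
  have hB' : ∀ t ∈ Icc (6 - ε) (6 + α + ε), 2 ∉ Q t := by
    intro t ht
    rcases lt_or_ge t 6 with h6 | h6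
    · exact k4 (by rw [Real.dist_eq, abs_of_neg] <;> linarith [ht.1])
    · rcases le_or_gt t (6 + α) with h7 | h7
      · exact hB t ⟨h6, h7⟩
      · exact k2 (by rw [Real.dist_eq, abs_of_pos] <;> linarith [ht.2])
  have hBr : ∀ t ∈ Icc (6 - ε) (6 + α + ε), (M t - m0) % 6 = 2 ∨ (M t - m0) % 6 = 3 ∨
      (M t - m0) % 6 = 4 := by
    intro t ht
    have := hrn t ⟨by linarith [ht.1], by linarith [ht.2]⟩ (hB' t ht)
    omega
  have hBc := const_of_loc (a := 6 - ε) (b := 6 + α + ε) (f := fun t => (M t - m0 - 2) / 6) (by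
    intro t ht
    have ht0 : t ∈ Ioo (0 : ℝ) 12 := ⟨by linarith [ht.1], by linarith [ht.2]⟩
    filter_upwards [mem_nhdsWithin_of_mem_nhds (hloc t ht0), self_mem_nhdsWithin] with s hs1 hs2
    have e1 := hrn s hs1.1 (hB' s hs2)
    have e2 := hrn t ht0 (hB' t ht)
    have e3 := hs1.2
    rw [abs_le] at e3
    omega)
  -- the right end
  have hR : ∃ t ∈ Icc (6 - ε) (6 + α + ε), Stp (3 * N + 1) (M t - m0) := by
    have ht0 : (3 + α) ∈ Ioo (0 : ℝ) 12 := ⟨by linarith, by linarith⟩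
    have hp : |m0 - M (3 + α)| ≤ 1 := by
      have h1 : ∀ᶠ s in 𝓝[<] (3 + α), s ∈ Ioo (3 : ℝ) (3 + α) := by
        filter_upwards [self_mem_nhdsWithin, mem_nhdsWithin_of_mem_nhds
          (Ioi_mem_nhds (show (3 : ℝ) < 3 + α by linarith))] with s h1 h2
        exact ⟨h2, h1⟩
      obtain ⟨s, h2, h3⟩ := (h1.and ((hloc _ ht0).filter_mono nhdsWithin_le_nhds)).exists
      rw [← hA s h2]; exact h3.2
    have hsub : Tendsto (fun s : ℝ => s + 1) (𝓝 (3 + α)) (𝓝 (4 + α)) := by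
      have := (continuous_add_const (1 : ℝ)).tendsto (3 + α)
      rwa [show 3 + α + 1 = 4 + α by ring] at this
    have ht4 : (4 + α) ∈ Ioo (0 : ℝ) 12 := ⟨by linarith, by linarith⟩
    have hsm : ∀ᶠ s in 𝓝[>] (3 + α), 3 + α < s ∧ s < 3 + α + ε := by
      filter_upwards [self_mem_nhdsWithin, mem_nhdsWithin_of_mem_nhds
        (Iio_mem_nhds (show 3 + α < 3 + α + ε by linarith))] with s h1 h2
      exact ⟨h1, h2⟩
    obtain ⟨s, ⟨hs4, hs5⟩, hs1, hs2, hs3⟩ := (hsm.and (((hloc _ ht0).and ((h.usc (3 + α)).and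
      (hsub.eventually (hloc _ ht4)))).filter_mono nhdsWithin_le_nhds)).exists
    have u1 := hS s ⟨hs4, by linarith⟩
    have u2 := hS (s + 1) ⟨by linarith, by linarith⟩
    have u3 := hS (s + 1 + 1) ⟨by linarith, by linarith⟩
    rcases hr with h1 | h1
    · have e1 := hr2 s hs1.1 (hs2.trans h1)
      have e2 := hr2 _ ht0 h1
      have e3 : M s = m0 := by
        have := hs1.2
        rw [abs_le] at this hp
        omega
      rw [e3] at u1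
      have hmem : s + 1 + 1 + 1 ∈ Icc (6 - ε) (6 + α + ε) := ⟨by linarith, by linarith⟩
      exact ⟨_, hmem, endJ u1 u2 u3 (hBr _ hmem)⟩
    · have v2 := hS (4 + α) ⟨by linarith, by linarith⟩
      have v3 := hS (4 + α + 1) ⟨by linarith, by linarith⟩
      have hmem : 4 + α + 1 + 1 ∈ Icc (6 - ε) (6 + α + ε) := ⟨by linarith, by linarith⟩
      refine ⟨_, hmem, endK hm4 hp hs1.2 ?_ hs3.2 u1 v2 v3 (hBr _ hmem)⟩
      rcases h1 with ⟨h1, h2⟩ | ⟨h1, h2⟩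
      · exact Or.inl ⟨hrn1 s hs1.1 fun hc => h1 (hs2 hc), hrn1 _ ht0 h1,
          res_one ((hM' _ ht4 1).1 h2)⟩
      · exact Or.inr ⟨hrn0 s hs1.1 fun hc => h1 (hs2 hc), hrn0 _ ht0 h1,
          res_zero ((hM' _ ht4 0).1 h2)⟩
  have hBr1 : ∀ t ∈ Icc (6 - ε) (6 + α + ε), (M t - m1) % 6 = 2 ∨ (M t - m1) % 6 = 3 ∨
      (M t - m1) % 6 = 4 := by
    intro t ht
    have := hBr t ht
    omega
  -- the left end
  have hL : ∃ t ∈ Icc (6 - ε) (6 + α + ε), Stp (3 * N + 1) (m1 - M t) := by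
    have ht0 : (9 : ℝ) ∈ Ioo (0 : ℝ) 12 := ⟨by norm_num, by norm_num⟩
    have ht8 : (8 : ℝ) ∈ Ioo (0 : ℝ) 12 := ⟨by norm_num, by norm_num⟩
    have hp : |m1 - M 9| ≤ 1 := by
      have h1 : ∀ᶠ s in 𝓝[>] (9 : ℝ), s ∈ Ioo (9 : ℝ) (9 + α) := by
        filter_upwards [self_mem_nhdsWithin, mem_nhdsWithin_of_mem_nhds
          (Iio_mem_nhds (show (9 : ℝ) < 9 + α by linarith))] with s h1 h2
        exact ⟨h1, h2⟩
      obtain ⟨s, h2, h3⟩ := (h1.and ((hloc _ ht0).filter_mono nhdsWithin_le_nhds)).exists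
      rw [← hA9 s h2]; exact h3.2
    have hsub : Tendsto (fun s : ℝ => s - 1) (𝓝 (9 : ℝ)) (𝓝 8) := by
      have := (continuous_sub_right (1 : ℝ)).tendsto 9
      rwa [show (9 : ℝ) - 1 = 8 by norm_num] at this
    have hsm : ∀ᶠ s in 𝓝[<] (9 : ℝ), s < 9 ∧ 9 - ε < s := by
      filter_upwards [self_mem_nhdsWithin, mem_nhdsWithin_of_mem_nhds
        (Ioi_mem_nhds (show 9 - ε < 9 by linarith))] with s h1 h2
      exact ⟨h1, h2⟩
    obtain ⟨s, ⟨hs4, hs5⟩, hs1, hs2, hs3⟩ := (hsm.and (((hloc _ ht0).and ((h.usc 9).and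
      (hsub.eventually (hloc _ ht8)))).filter_mono nhdsWithin_le_nhds)).exists
    rw [e9] at hs2
    have u1 := hS (s - 1) ⟨by linarith, by linarith⟩
    have u2 := hS (s - 1 - 1) ⟨by linarith, by linarith⟩
    have u3 := hS (s - 1 - 1 - 1) ⟨by linarith, by linarith⟩
    rw [sub_add_cancel] at u1 u2 u3
    rcases hl with h1 | h1
    · have e1 := hr2 s hs1.1 (hs2.trans h1)
      have e2 := hr2 _ ht0 (by rw [e9]; exact h1)
      have e3 : M s = m1 := by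
        have := hs1.2
        rw [abs_le] at this hp
        omega
      rw [e3] at u1
      have hmem : s - 1 - 1 - 1 ∈ Icc (6 - ε) (6 + α + ε) := ⟨by linarith, by linarith⟩
      exact ⟨_, hmem, endJ' u1 u2 u3 (hBr1 _ hmem)⟩
    · have v2 := hS 7 ⟨by linarith, by norm_num⟩
      have v3 := hS 6 ⟨by linarith, by norm_num⟩
      rw [show (7 : ℝ) + 1 = 8 by norm_num] at v2
      rw [show (6 : ℝ) + 1 = 7 by norm_num] at v3
      have hmem : (6 : ℝ) ∈ Icc (6 - ε) (6 + α + ε) := ⟨by linarith, by linarith⟩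
      refine ⟨_, hmem, endK' hm5 hp hs1.2 ?_ hs3.2 u1 v2 v3 (hBr1 _ hmem)⟩
      rcases h1 with ⟨h1, h2⟩ | ⟨h1, h2⟩
      · exact Or.inl ⟨hrn1 s hs1.1 fun hc => h1 (hs2 hc), hrn1 _ ht0 (by rw [e9]; exact h1),
          res_one ((hM' _ ht8 1).1 (by rw [e8]; exact h2))⟩
      · exact Or.inr ⟨hrn0 s hs1.1 fun hc => h1 (hs2 hc), hrn0 _ ht0 (by rw [e9]; exact h1),
          res_zero ((hM' _ ht8 0).1 (by rw [e8]; exact h2))⟩
  refine ⟨N, m0, hm4, ?_, hS, hA, fun t ht => by rw [hA9 t ht, hm1]⟩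
  obtain ⟨t, ht, h1⟩ := hR
  obtain ⟨t', ht', h2⟩ := hL
  have h3 := hBc t ht t' ht'
  have h4 := hBr t' ht'
  obtain ⟨h5, h6⟩ := h1
  rw [h5] at h3
  have h7 : Stp (3 * N + 1) (M t' - m0) := ⟨h3.symm, h4⟩
  rw [stp_iff] at h2 h7
  obtain ⟨p1, p2⟩ := h2
  obtain ⟨p3, p4⟩ := h7
  clear h3 h4 h5 h6 hN
  omega

/-- without values `≡ r` the height stays in one band -/
theorem band928 {M : ℝ → ℤ} {r : ℤ} {c d : ℝ}
    (hloc : ∀ t ∈ Ioo c d, ∀ᶠ s in 𝓝 t, |M s - M t| ≤ 1)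
    (hno : ∀ t ∈ Ioo c d, M t % 6 ≠ r) (hr : r = 3 ∨ r = 5) :
    ∀ s ∈ Ioo c d, ∀ t ∈ Ioo c d, (M s - r - 1) / 6 = (M t - r - 1) / 6 := by
  refine const_Ioo (f := fun t => (M t - r - 1) / 6) fun t ht => ?_
  filter_upwards [hloc t ht, Ioo_mem_nhds ht.1 ht.2] with s hs hs'
  have e1 := hno s hs'
  have e2 := hno t ht
  rw [abs_le] at hs
  rcases hr with rfl | rfl <;> omega

/-- three steps inside a band are impossible -/
theorem three928 {x0 x1 x2 x3 N r : ℤ} (h1 : Stp N (x1 - x0)) (h2 : Stp N (x2 - x1))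
    (h3 : Stp N (x3 - x2)) (b1 : (x0 - r - 1) / 6 = (x1 - r - 1) / 6)
    (b2 : (x0 - r - 1) / 6 = (x3 - r - 1) / 6) : False := by
  rw [stp_iff] at h1 h2 h3
  obtain ⟨p1, q1⟩ := h1
  obtain ⟨p2, q2⟩ := h2
  obtain ⟨p3, q3⟩ := h3
  omega

/-- a step `φ, φ + 1` between two bands -/
theorem jump928 {N r m0 m1 s0 p x y q s9 : ℤ} (hr : r = 3 ∨ r = 5) (hm : m0 % 6 = 4)
    (hm1 : m1 = m0 + 6 * (6 * N + 3)) (h1 : |s0 - m0| ≤ 2) (h2 : |p - x| ≤ 1)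
    (h3 : Stp N (y - x)) (h4 : |q - y| ≤ 1) (h5 : |s9 - m1| ≤ 2)
    (b1 : (s0 - r - 1) / 6 = (p - r - 1) / 6) (b2 : (q - r - 1) / 6 = (s9 - r - 1) / 6)
    (n1 : s0 % 6 ≠ r) (n2 : p % 6 ≠ r) (n3 : q % 6 ≠ r) (n4 : s9 % 6 ≠ r) : False := by
  rw [stp_iff] at h3
  rw [abs_le] at h1 h2 h4 h5
  obtain ⟨a1, a2⟩ := h1
  obtain ⟨a3, a4⟩ := h2
  obtain ⟨a5, a6⟩ := h3
  obtain ⟨a7, a8⟩ := h4
  obtain ⟨a9, a10⟩ := h5
  obtain ⟨k, hk⟩ : ∃ k, m0 = 6 * k + 4 := ⟨m0 / 6, by omega⟩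
  subst hk
  subst hm1
  have c1 : |p - s0| ≤ 4 := by
    rw [abs_le]
    rcases hr with rfl | rfl <;> constructor <;> omega
  have c2 : |s9 - q| ≤ 4 := by
    rw [abs_le]
    rcases hr with rfl | rfl <;> constructor <;> omega
  rw [abs_le] at c1 c2
  obtain ⟨d1, d2⟩ := c1
  obtain ⟨d3, d4⟩ := c2
  have hN : N = 0 ∨ N = -1 := by omega
  rcases hN with rfl | rfl
  · rcases hr with rfl | rfl <;> omega
  · rcases hr with rfl | rfl <;> omega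

/-- all steps of a band of length three are minimal -/
theorem opp_int928 {N r u0 u1 u2 v0 v1 v2 x0 x1 x2 x3 : ℤ} (hr : r = 3 ∨ r = 5)
    (a1 : Stp N (u1 - u0)) (a2 : Stp N (u2 - u1)) (a3 : Stp N (v1 - v0)) (a4 : Stp N (v2 - v1))
    (a5 : Stp N (x1 - x0)) (a6 : Stp N (x2 - x1)) (a7 : Stp N (x3 - x2))
    (c0 : |u0 - x0| ≤ 1) (c1 : |u1 - x1| ≤ 1) (c2 : |u2 - x2| ≤ 1) (d1 : |v0 - x1| ≤ 1)
    (d2 : |v1 - x2| ≤ 1) (d3 : |v2 - x3| ≤ 1)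
    (b1 : (u0 - r - 1) / 6 = (u1 - r - 1) / 6) (b2 : (u0 - r - 1) / 6 = (u2 - r - 1) / 6)
    (b3 : (u0 - r - 1) / 6 = (v0 - r - 1) / 6) (b4 : (u0 - r - 1) / 6 = (v1 - r - 1) / 6)
    (b5 : (u0 - r - 1) / 6 = (v2 - r - 1) / 6)
    (n0 : u0 % 6 ≠ r) (n1 : u1 % 6 ≠ r) (n2 : u2 % 6 ≠ r) (n3 : v0 % 6 ≠ r) (n4 : v1 % 6 ≠ r)
    (n5 : v2 % 6 ≠ r)
    (e1 : ¬ ((x0 % 6 = 3 ∨ x0 % 6 = 4 ∨ x0 % 6 = 5) ∧ (x1 % 6 = 3 ∨ x1 % 6 = 4 ∨ x1 % 6 = 5)))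
    (e2 : ¬ ((x2 % 6 = 3 ∨ x2 % 6 = 4 ∨ x2 % 6 = 5) ∧ (x3 % 6 = 3 ∨ x3 % 6 = 4 ∨ x3 % 6 = 5))) :
    False := by
  rw [stp_iff] at a1 a2 a3 a4 a5 a6 a7
  rw [abs_le] at c0 c1 c2 d1 d2 d3
  obtain ⟨a1, a1'⟩ := a1
  obtain ⟨a2, a2'⟩ := a2
  obtain ⟨a3, a3'⟩ := a3
  obtain ⟨a4, a4'⟩ := a4
  obtain ⟨a5, a5'⟩ := a5
  obtain ⟨a6, a6'⟩ := a6
  obtain ⟨a7, a7'⟩ := a7
  obtain ⟨c0, c0'⟩ := c0
  obtain ⟨c1, c1'⟩ := c1
  obtain ⟨c2, c2'⟩ := c2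
  obtain ⟨d1, d1'⟩ := d1
  obtain ⟨d2, d2'⟩ := d2
  obtain ⟨d3, d3'⟩ := d3
  have hN : N = 0 ∨ N = -1 := by omega
  obtain ⟨k, i, hk, hi0, hi4⟩ : ∃ k i : ℤ, u0 = 6 * k + r + 1 + i ∧ 0 ≤ i ∧ i ≤ 4 := by
    refine ⟨(u0 - r - 1) / 6, (u0 - r - 1) % 6, by omega, by omega, ?_⟩
    rcases hr with rfl | rfl <;> omega
  have f0 : (u0 - r - 1) / 6 = k := by omega
  rw [f0] at b1 b2 b3 b4 b5
  have g2 : 6 * k + r + 1 ≤ u2 ∧ u2 ≤ 6 * k + r + 5 := by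
    rcases hr with rfl | rfl <;> constructor <;> omega
  have g3 : 6 * k + r + 1 ≤ v0 ∧ v0 ≤ 6 * k + r + 5 := by
    rcases hr with rfl | rfl <;> constructor <;> omega
  have g5 : 6 * k + r + 1 ≤ v2 ∧ v2 ≤ 6 * k + r + 5 := by
    rcases hr with rfl | rfl <;> constructor <;> omega
  clear b1 b2 b3 b4 b5 f0 n0 n1 n2 n3 n4 n5
  obtain ⟨g2, g2'⟩ := g2
  obtain ⟨g3, g3'⟩ := g3
  obtain ⟨g5, g5'⟩ := g5
  rcases hN with rfl | rfl
  · have k1 : x1 = 6 * k + r + 2 := by omega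
    have k2 : x2 = 6 * k + r + 4 := by omega
    have k0 : x0 = 6 * k + r := by omega
    have k3 : x3 = 6 * k + r + 6 := by omega
    clear a1 a1' a2 a2' a3 a3' a4 a4' a5 a5' a6 a6' a7 a7' c0 c0' c1 c1' c2 c2' d1 d1' d2 d2' d3 d3'
      g2 g2' g3 g3' g5 g5'
    rcases hr with rfl | rfl
    · exact e1 ⟨by omega, by omega⟩
    · exact e2 ⟨by omega, by omega⟩
  · have k1 : x1 = 6 * k + r + 4 := by omega
    have k2 : x2 = 6 * k + r + 2 := by omega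
    have k0 : x0 = 6 * k + r + 6 := by omega
    have k3 : x3 = 6 * k + r := by omega
    clear a1 a1' a2 a2' a3 a3' a4 a4' a5 a5' a6 a6' a7 a7' c0 c0' c1 c1' c2 c2' d1 d1' d2 d2' d3 d3'
      g2 g2' g3 g3' g5 g5'
    rcases hr with rfl | rfl
    · exact e2 ⟨by omega, by omega⟩
    · exact e1 ⟨by omega, by omega⟩

/-- the heights off the arc of a quasi-full centre -/
structure Hts928 (Q : ℝ → Set (Fin 3)) (M : ℝ → ℤ) (α : ℝ) (N m0 : ℤ) : Prop where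
  loc : ∀ t ∈ Ioo (0 : ℝ) 12, ∀ᶠ s in 𝓝 t, |M s - M t| ≤ 1
  res : ∀ t ∈ Ioo (0 : ℝ) 12, ∀ l : Fin 3, l ∈ Q t ↔ Res (M t - 2 * (l : ℕ))
  m4 : m0 % 6 = 4
  step : ∀ t ∈ Ioo (3 + α) (8 : ℝ), Stp N (M (t + 1) - M t)
  arc3 : ∀ t ∈ Ioo (3 : ℝ) (3 + α), M t = m0
  arc9 : ∀ t ∈ Ioo (9 : ℝ) (9 + α), M t = m0 + 6 * (6 * N + 3)

/-- **heights of a quasi-full centre** -/
theorem exists_hts928 (h : Cov Q) {α : ℝ} (hα0 : 0 < α) (hα1 : α ≤ 1)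
    (hX : ∀ t ∈ Ioo (3 : ℝ) (3 + α), Q t ⊆ {2}) (hl : KEnd Q 3 2) (hr : KEnd Q (3 + α) (4 + α))
    (hB : ∀ t ∈ Icc (6 : ℝ) (6 + α), 2 ∉ Q t)
    (hinc : ∀ t ∈ Ioo (3 + α) (8 : ℝ), ¬ Q t ⊆ Q (t + 1) ∧ ¬ Q (t + 1) ⊆ Q t) :
    ∃ (M : ℝ → ℤ) (N m0 : ℤ), Hts928 Q M α N m0 := by
  obtain ⟨ℓ, M, hℓ, hd, hM, hMloc, hMℓ⟩ := h.exM
  obtain ⟨w, hw⟩ := Cov.wind h hM hMloc
  obtain ⟨N, m0, h1, h2, h3, h4, h5⟩ := windN928 h hα0 hα1 hX hl hr hB hinc hM hMloc hw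
  subst h2
  refine ⟨M, N, m0, fun t ht => ?_, fun t ht => hM t ⟨ht.1.le, ht.2.le⟩, h1, h3, h4, h5⟩
  have h6 := hMloc t ⟨ht.1.le, ht.2.le⟩
  rwa [nhdsWithin_eq_nhds.2 (Icc_mem_nhds ht.1 ht.2)] at h6

namespace Hts928

variable {M : ℝ → ℤ} {α : ℝ} {N m0 r : ℤ}

theorem endR (H : Hts928 Q M α N m0) (hα0 : 0 < α) (hα1 : α ≤ 1) :
    ∀ᶠ s in 𝓝[>] (3 + α), |M s - m0| ≤ 2 := by
  have ht0 : (3 + α) ∈ Ioo (0 : ℝ) 12 := ⟨by linarith, by linarith⟩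
  have h1 : ∀ᶠ s in 𝓝[<] (3 + α), s ∈ Ioo (3 : ℝ) (3 + α) := by
    filter_upwards [self_mem_nhdsWithin, mem_nhdsWithin_of_mem_nhds
      (Ioi_mem_nhds (show (3 : ℝ) < 3 + α by linarith))] with s h1 h2
    exact ⟨h2, h1⟩
  obtain ⟨s, h2, h3⟩ := (h1.and ((H.loc _ ht0).filter_mono nhdsWithin_le_nhds)).exists
  rw [H.arc3 s h2] at h3
  filter_upwards [(H.loc _ ht0).filter_mono nhdsWithin_le_nhds] with s' h4
  rw [abs_le] at *
  constructor <;> linarith [h3.1, h3.2, h4.1, h4.2]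

theorem endL (H : Hts928 Q M α N m0) (hα0 : 0 < α) :
    ∀ᶠ s in 𝓝[<] (9 : ℝ), |M s - (m0 + 6 * (6 * N + 3))| ≤ 2 := by
  have ht0 : (9 : ℝ) ∈ Ioo (0 : ℝ) 12 := ⟨by norm_num, by norm_num⟩
  have h1 : ∀ᶠ s in 𝓝[>] (9 : ℝ), s ∈ Ioo (9 : ℝ) (9 + α) := by
    filter_upwards [self_mem_nhdsWithin, mem_nhdsWithin_of_mem_nhds
      (Iio_mem_nhds (show (9 : ℝ) < 9 + α by linarith))] with s h1 h2
    exact ⟨h1, h2⟩
  obtain ⟨s, h2, h3⟩ := (h1.and ((H.loc _ ht0).filter_mono nhdsWithin_le_nhds)).exists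
  rw [H.arc9 s h2] at h3
  filter_upwards [(H.loc _ ht0).filter_mono nhdsWithin_le_nhds] with s' h4
  rw [abs_le] at *
  constructor <;> linarith [h3.1, h3.2, h4.1, h4.2]

theorem band (H : Hts928 Q M α N m0) (hr : r = 3 ∨ r = 5) {c d : ℝ} (hc : 0 ≤ c) (hd : d ≤ 12)
    (hno : ∀ t ∈ Ioo c d, M t % 6 ≠ r) :
    ∀ s ∈ Ioo c d, ∀ t ∈ Ioo c d, (M s - r - 1) / 6 = (M t - r - 1) / 6 :=
  band928 (fun t ht => H.loc t ⟨by linarith [ht.1], by linarith [ht.2]⟩) hno hr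

/-- three steps without a value `≡ r` -/
theorem three (H : Hts928 Q M α N m0) (hr : r = 3 ∨ r = 5) {c d s : ℝ} (hc : 0 ≤ c) (hd : d ≤ 12)
    (hno : ∀ t ∈ Ioo c d, M t % 6 ≠ r) (h1 : c < s) (h2 : s + 3 < d) (h3 : 3 + α < s)
    (h4 : s + 2 < 8) : False := by
  have hb := H.band hr hc hd hno
  have e1 : s + 1 + 1 = s + 2 := by ring
  have e2 : s + 2 + 1 = s + 3 := by ring
  have u1 := H.step s ⟨h3, by linarith⟩
  have u2 := H.step (s + 1) ⟨by linarith, by linarith⟩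
  have u3 := H.step (s + 2) ⟨by linarith, by linarith⟩
  rw [e1] at u2
  rw [e2] at u3
  exact three928 u1 u2 u3 (hb s ⟨h1, by linarith⟩ (s + 1) ⟨by linarith, by linarith⟩)
    (hb s ⟨h1, by linarith⟩ (s + 3) ⟨by linarith, h2⟩)

/-- **window**: the values `≡ r` off the arc are not all in one closed window of 60 degrees -/
theorem win (H : Hts928 Q M α N m0) (hα0 : 0 < α) (hα1 : α ≤ 1) (hr : r = 3 ∨ r = 5) {φ : ℝ}
    (h2 : 2 < φ) (h8 : φ ≤ 8)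
    (hφ : ∀ t ∈ Ioo (3 + α) (9 : ℝ), M t % 6 = r → t ∈ Icc φ (φ + 1) ∨ φ + 6 ≤ t) : False := by
  rcases lt_or_ge φ 3 with c1 | c1
  · refine H.three hr (c := 4) (d := 8) (s := 9 / 2) (by norm_num) (by norm_num)
      (fun t ht hc => ?_) (by norm_num) (by norm_num) (by linarith) (by norm_num)
    rcases hφ t ⟨by linarith [ht.1], by linarith [ht.2]⟩ hc with h3 | h3
    · linarith [h3.2, ht.1]
    · linarith [ht.2]
  rcases le_or_gt φ (3 + α) with c2 | c2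
  · refine H.three hr (c := φ + 1) (d := 9) (s := (φ + 1 + 6) / 2) (by linarith) (by norm_num)
      (fun t ht hc => ?_) (by linarith) (by linarith) (by linarith) (by linarith)
    rcases hφ t ⟨by linarith [ht.1], ht.2⟩ hc with h3 | h3
    · linarith [h3.2, ht.1]
    · linarith [ht.2]
  rcases lt_or_ge φ 8 with c3 | c3
  · have hφ0 : φ ∈ Ioo (0 : ℝ) 12 := ⟨by linarith, by linarith⟩
    have hφ1 : φ + 1 ∈ Ioo (0 : ℝ) 12 := ⟨by linarith, by linarith⟩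
    have n1 : ∀ t ∈ Ioo (3 + α) φ, M t % 6 ≠ r := fun t ht hc => by
      rcases hφ t ⟨ht.1, by linarith [ht.2]⟩ hc with h3 | h3
      · linarith [h3.1, ht.2]
      · linarith [ht.2]
    have n2 : ∀ t ∈ Ioo (φ + 1) (9 : ℝ), M t % 6 ≠ r := fun t ht hc => by
      rcases hφ t ⟨by linarith [ht.1], ht.2⟩ hc with h3 | h3
      · linarith [h3.2, ht.1]
      · linarith [ht.2]
    have m1 : ∀ᶠ s in 𝓝[>] (3 + α), s ∈ Ioo (3 + α) φ := by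
      filter_upwards [self_mem_nhdsWithin, mem_nhdsWithin_of_mem_nhds (Iio_mem_nhds c2)]
        with s h1 h2
      exact ⟨h1, h2⟩
    have m2 : ∀ᶠ s in 𝓝[<] φ, s ∈ Ioo (3 + α) φ := by
      filter_upwards [self_mem_nhdsWithin, mem_nhdsWithin_of_mem_nhds (Ioi_mem_nhds c2)]
        with s h1 h2
      exact ⟨h2, h1⟩
    have m3 : ∀ᶠ s in 𝓝[>] (φ + 1), s ∈ Ioo (φ + 1) (9 : ℝ) := by
      filter_upwards [self_mem_nhdsWithin, mem_nhdsWithin_of_mem_nhds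
        (Iio_mem_nhds (show φ + 1 < 9 by linarith))] with s h1 h2
      exact ⟨h1, h2⟩
    have m4 : ∀ᶠ s in 𝓝[<] (9 : ℝ), s ∈ Ioo (φ + 1) (9 : ℝ) := by
      filter_upwards [self_mem_nhdsWithin, mem_nhdsWithin_of_mem_nhds
        (Ioi_mem_nhds (show φ + 1 < 9 by linarith))] with s h1 h2
      exact ⟨h2, h1⟩
    obtain ⟨s0, a1, a2⟩ := (m1.and (H.endR hα0 hα1)).exists
    obtain ⟨p, b1, b2⟩ := (m2.and ((H.loc φ hφ0).filter_mono nhdsWithin_le_nhds)).exists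
    obtain ⟨q, c1, c2'⟩ := (m3.and ((H.loc _ hφ1).filter_mono nhdsWithin_le_nhds)).exists
    obtain ⟨s9, d1, d2⟩ := (m4.and (H.endL hα0)).exists
    exact jump928 hr H.m4 rfl a2 b2 (H.step φ ⟨c2, c3⟩) c2' d2
      (H.band hr (by linarith) (by linarith) n1 s0 a1 p b1)
      (H.band hr (by linarith) (by linarith) n2 q c1 s9 d1) (n1 s0 a1) (n1 p b1) (n2 q c1)
      (n2 s9 d1)
  · refine H.three hr (c := 3 + α) (d := 8) (s := (3 + α + 5) / 2) (by linarith) (by norm_num)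
      (fun t ht hc => ?_) (by linarith) (by linarith) (by linarith) (by linarith)
    rcases hφ t ⟨ht.1, by linarith [ht.2]⟩ hc with h3 | h3
    · linarith [h3.1, ht.2]
    · linarith [ht.2]

/-- **opposite directions** -/
theorem opp (H : Hts928 Q M α N m0) (hα0 : 0 < α) (hr : r = 3 ∨ r = 5)
    (hRR : ∀ t ∈ Ioo (3 + α) (8 : ℝ), ¬ ((M t % 6 = 3 ∨ M t % 6 = 4 ∨ M t % 6 = 5) ∧
      (M (t + 1) % 6 = 3 ∨ M (t + 1) % 6 = 4 ∨ M (t + 1) % 6 = 5)))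
    {t1 : ℝ} (h1 : 3 + α < t1) (h3 : t1 + 3 < 9)
    (ho : ∀ t ∈ Ioo (3 + α) (9 : ℝ), M t % 6 = r → t = t1 ∨ t = t1 + 3) : False := by
  have no : ∀ t ∈ Ioo t1 (t1 + 3), M t % 6 ≠ r := fun t ht hc => by
    rcases ho t ⟨by linarith [ht.1], by linarith [ht.2]⟩ hc with h4 | h4
    · exact ht.1.ne' h4
    · exact ht.2.ne h4
  have hb := H.band hr (c := t1) (d := t1 + 3) (by linarith) (by linarith) no
  have hp : ∀ x ∈ Ioo (0 : ℝ) 12, ∀ᶠ δ in 𝓝[>] (0 : ℝ), |M (x + δ) - M x| ≤ 1 := by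
    intro x hx
    have h5 : Tendsto (fun δ : ℝ => x + δ) (𝓝[>] 0) (𝓝 x) := by
      have := (continuous_const_add x).tendsto 0
      rw [add_zero] at this
      exact this.mono_left nhdsWithin_le_nhds
    exact h5.eventually (H.loc x hx)
  have hm : ∀ x ∈ Ioo (0 : ℝ) 12, ∀ᶠ δ in 𝓝[>] (0 : ℝ), |M (x - δ) - M x| ≤ 1 := by
    intro x hx
    have h5 : Tendsto (fun δ : ℝ => x - δ) (𝓝[>] 0) (𝓝 x) := by
      have := (continuous_sub_left x).tendsto 0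
      rw [sub_zero] at this
      exact this.mono_left nhdsWithin_le_nhds
    exact h5.eventually (H.loc x hx)
  have hs : ∀ᶠ δ in 𝓝[>] (0 : ℝ), 0 < δ ∧ δ < 1 := by
    filter_upwards [self_mem_nhdsWithin, mem_nhdsWithin_of_mem_nhds
      (Iio_mem_nhds (show (0 : ℝ) < 1 by norm_num))] with s h1 h2
    exact ⟨h1, h2⟩
  obtain ⟨δ, ⟨k0, k1⟩, p0, p1, p2, q1, q2, q3⟩ := (hs.and ((hp t1 ⟨by linarith, by linarith⟩).and
    ((hp (t1 + 1) ⟨by linarith, by linarith⟩).and ((hp (t1 + 2) ⟨by linarith, by linarith⟩).and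
    ((hm (t1 + 1) ⟨by linarith, by linarith⟩).and ((hm (t1 + 2) ⟨by linarith, by linarith⟩).and
    (hm (t1 + 3) ⟨by linarith, by linarith⟩))))))).exists
  have g1 := H.step (t1 + δ) ⟨by linarith, by linarith⟩
  have g2 := H.step (t1 + 1 + δ) ⟨by linarith, by linarith⟩
  have g3 := H.step (t1 + 1 - δ) ⟨by linarith, by linarith⟩
  have g4 := H.step (t1 + 2 - δ) ⟨by linarith, by linarith⟩
  have g5 := H.step t1 ⟨by linarith, by linarith⟩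
  have g6 := H.step (t1 + 1) ⟨by linarith, by linarith⟩
  have g7 := H.step (t1 + 2) ⟨by linarith, by linarith⟩
  rw [show t1 + δ + 1 = t1 + 1 + δ by ring] at g1
  rw [show t1 + 1 + δ + 1 = t1 + 2 + δ by ring] at g2
  rw [show t1 + 1 - δ + 1 = t1 + 2 - δ by ring] at g3
  rw [show t1 + 2 - δ + 1 = t1 + 3 - δ by ring] at g4
  rw [show t1 + 1 + 1 = t1 + 2 by ring] at g6
  rw [show t1 + 2 + 1 = t1 + 3 by ring] at g7
  have i0 : t1 + δ ∈ Ioo t1 (t1 + 3) := ⟨by linarith, by linarith⟩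
  have i1 : t1 + 1 + δ ∈ Ioo t1 (t1 + 3) := ⟨by linarith, by linarith⟩
  have i2 : t1 + 2 + δ ∈ Ioo t1 (t1 + 3) := ⟨by linarith, by linarith⟩
  have j0 : t1 + 1 - δ ∈ Ioo t1 (t1 + 3) := ⟨by linarith, by linarith⟩
  have j1 : t1 + 2 - δ ∈ Ioo t1 (t1 + 3) := ⟨by linarith, by linarith⟩
  have j2 : t1 + 3 - δ ∈ Ioo t1 (t1 + 3) := ⟨by linarith, by linarith⟩
  have r1 := hRR t1 ⟨by linarith, by linarith⟩
  have r2 := hRR (t1 + 2) ⟨by linarith, by linarith⟩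
  rw [show t1 + 2 + 1 = t1 + 3 by ring] at r2
  exact opp_int928 hr g1 g2 g3 g4 g5 g6 g7 p0 p1 p2 q1 q2 q3 (hb _ i0 _ i1) (hb _ i0 _ i2)
    (hb _ i0 _ j0) (hb _ i0 _ j1) (hb _ i0 _ j2) (no _ i0) (no _ i1) (no _ i2) (no _ j0)
    (no _ j1) (no _ j2) r1 r2

end Hts928

end Vale.Agent.P032.H460
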