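import Vale.Agent.P032.H928.Wind
import Vale.Agent.P032.H460.ParQ

/-!
# P032: windows of the ends of a quasi-full centre

`z` a two-pair point with the pairs `ab | cd` and the free colours `e`, `f`, one closed `ab`-arc with
J- or K-ends (460's frame).  `l` one of the free colours.

* `Ctr.win928` : there is a point in the closed `cd`-arcs with the colour `l` outside any given
  closed arc of 60 degrees.
* `Ctr.opp928` : there is one which is neither a given point nor its antipode (if no two points of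
  the closed `cd`-arcs are at distance one).
* `quasi_win928`, `quasi_opp928` : from the exact arc, as 460's `par_quasi460`.
-/

open Set Filter Topology Metric

noncomputable section

namespace Vale.Agent.P032.H460

open Vale.Agent.P032.Six Vale.Agent.P032.S5.H767 Vale.Agent.P032.H695
open Vale.Agent.P032.H180 hiding pt pt_six dist_pt continuous_pt

variable {U : Fin 6 → Set ℂ} {T : ℂ → Set (Fin 6)} {z : ℂ} {a b c d e f l : Fin 6}

/-- the cover of the circle by the labels -/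
theorem cov928 (C : Ctr U T z a b c d e f) (v : ℝ)
    (htri : ∀ q, dist q z = 1 → e ∈ T q → f ∈ T q →
      q ∉ closure (Ex T z {a, b}) ∧ q ∉ closure (Ex T z {c, d})) :
    Cov fun t => Q3 T z a b c d e f (pt z (v + t)) := by
  have hntr : ∀ q, dist q z = 1 → ¬ ∀ l, l ∈ Q3 T z a b c d e f q := by
    intro q hq hall
    obtain ⟨h1, h2⟩ := htri q hq (Q3_zero.1 (hall 0)).2 (Q3_one.1 (hall 1)).2
    rcases Q3_two.1 (hall 2) with h3 | h3
    · exact h1 h3
    · exact h2 h3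
  refine ⟨fun t => ?_, fun t => ?_, fun t => ?_, fun t => ?_⟩
  · have h1 : v + (t + 6) = v + t + 6 := by ring
    simp only [h1, pt_six]
  · obtain ⟨l, hl⟩ := C.cover (dist_pt z (v + t))
    exact ⟨mg l, Q3_mg hl⟩
  · by_contra hcon
    push Not at hcon
    exact hntr _ (dist_pt z _) hcon
  · have h1 : Tendsto (fun s : ℝ => pt z (v + s)) (𝓝 t) (𝓝 (pt z (v + t))) :=
      ((continuous_pt z).comp (continuous_const_add v)).tendsto t
    have h3 : ∀ l, ∀ᶠ y in 𝓝 (pt z (v + t)), l ∈ Q3 T z a b c d e f y →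
        l ∈ Q3 T z a b c d e f (pt z (v + t)) := by
      intro l
      by_cases hl : l ∈ Q3 T z a b c d e f (pt z (v + t))
      · exact Eventually.of_forall fun _ _ => hl
      · filter_upwards [(Q3_closed C.irr l).isOpen_compl.mem_nhds hl] with y hy hy'
        exact absurd hy' hy
    filter_upwards [h1.eventually (eventually_all.2 h3)] with y hy l hl
    exact hy l hl

/-- the frame: one closed `ab`-arc with J- or K-ends -/
structure Fr928 (U : Fin 6 → Set ℂ) (T : ℂ → Set (Fin 6)) (z : ℂ) (a b c d e f : Fin 6)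
    (u0 α : ℝ) : Prop where
  ctr : Ctr U T z a b c d e f
  pos : 0 < α
  le : α ≤ 1
  arc : ∀ t ∈ Ioo (0 : ℝ) α, e ∉ T (pt z (u0 + t)) ∧ f ∉ T (pt z (u0 + t))
  endl : PEnd T e f (pt z u0) (pt z (u0 - 1))
  endr : PEnd T e f (pt z (u0 + α)) (pt z (u0 + α + 1))
  only : ∀ t ∈ Ioo α (6 : ℝ), pt z (u0 + t) ∉ closure (Ex T z {a, b})
  back : ∀ t ∈ Icc (0 : ℝ) α, pt z (u0 + 3 + t) ∉ closure (Ex T z {c, d})
  tri : ∀ q, dist q z = 1 → e ∈ T q → f ∈ T q →
    q ∉ closure (Ex T z {a, b}) ∧ q ∉ closure (Ex T z {c, d})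
  sw : ∀ y y', dist y z = 1 → dist y' z = 1 → dist y y' = 1 → y ∉ closure (Ex T z {a, b}) →
    y' ∉ closure (Ex T z {a, b}) → ¬ Swp T z a b c d e f y y'

namespace Fr928

variable {u0 α : ℝ}

theorem hts (F : Fr928 U T z a b c d e f u0 α) :
    ∃ (M : ℝ → ℤ) (N m0 : ℤ), Hts928 (fun t => Q3 T z a b c d e f (pt z (u0 - 3 + t))) M α N m0 := by
  have kl : KEnd (fun t => Q3 T z a b c d e f (pt z (u0 - 3 + t))) 3 2 := by
    refine PEnd.kend (p := fun t => pt z (u0 - 3 + t)) ?_ fun t => dist_pt z _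
    show PEnd T e f (pt z (u0 - 3 + 3)) (pt z (u0 - 3 + 2))
    rw [show u0 - 3 + 3 = u0 by ring, show u0 - 3 + 2 = u0 - 1 by ring]
    exact F.endl
  have kr : KEnd (fun t => Q3 T z a b c d e f (pt z (u0 - 3 + t))) (3 + α) (4 + α) := by
    refine PEnd.kend (p := fun t => pt z (u0 - 3 + t)) ?_ fun t => dist_pt z _
    show PEnd T e f (pt z (u0 - 3 + (3 + α))) (pt z (u0 - 3 + (4 + α)))
    rw [show u0 - 3 + (3 + α) = u0 + α by ring, show u0 - 3 + (4 + α) = u0 + α + 1 by ring]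
    exact F.endr
  refine exists_hts928 (cov928 F.ctr (u0 - 3) F.tri) F.pos F.le (fun t ht => ?_) kl kr
    (fun t ht h => ?_) fun t ht => ?_
  · have h1 := F.arc (t - 3) ⟨by linarith [ht.1], by linarith [ht.2]⟩
    have h3 : u0 + (t - 3) = u0 - 3 + t := by ring
    rw [h3] at h1
    intro l hl
    rcases hl with ⟨rfl, h⟩ | ⟨rfl, h⟩ | ⟨rfl, h⟩
    · exact absurd h.2 h1.1
    · exact absurd h.2 h1.2
    · rfl
  · rcases Q3_two.1 h with h | h
    · have h3 : u0 + (t - 3) = u0 - 3 + t := by ring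
      have h4 := F.only (t - 3) ⟨by linarith [ht.1, F.le], by linarith [ht.2, F.le]⟩
      rw [h3] at h4
      exact h4 h
    · have h3 : u0 + 3 + (t - 6) = u0 - 3 + t := by ring
      have h4 := F.back (t - 6) ⟨by linarith [ht.1], by linarith [ht.2]⟩
      rw [h3] at h4
      exact h4 h
  · have h3 : u0 + (t - 3) = u0 - 3 + t := by ring
    have h3' : u0 + (t - 2) = u0 - 3 + (t + 1) := by ring
    have h4 := F.only (t - 3) ⟨by linarith [ht.1], by linarith [ht.2]⟩
    have h4' := F.only (t - 2) ⟨by linarith [ht.1], by linarith [ht.2]⟩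
    rw [h3] at h4
    rw [h3'] at h4'
    have h5 : dist (pt z (u0 - 3 + t)) (pt z (u0 - 3 + (t + 1))) = 1 := by
      have := dist_pt_one z (u0 - 3 + t)
      rwa [add_assoc] at this
    have h6 : ¬ Swp T z a b c d e f (pt z (u0 - 3 + t)) (pt z (u0 - 3 + (t + 1))) :=
      F.sw _ _ (dist_pt z _) (dist_pt z _) h5 h4 h4'
    have h6' : ¬ Swp T z a b c d e f (pt z (u0 - 3 + (t + 1))) (pt z (u0 - 3 + t)) := by
      rintro ⟨l, m, hlm, k1, k2, k3, k4⟩
      exact h6 ⟨l, m, hlm, k3, k4, k1, k2⟩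
    exact ⟨not_sub F.ctr (dist_pt z _) (dist_pt z _) h5 h4 h4' h6,
      not_sub F.ctr (dist_pt z _) (dist_pt z _) (by rw [dist_comm]; exact h5) h4' h4 h6'⟩

/-- the residue of a letter change -/
theorem res_change {Q : ℝ → Set (Fin 3)} {M : ℝ → ℤ} {N m0 : ℤ} (H : Hts928 Q M α N m0) {t : ℝ}
    (ht : t ∈ Ioo (0 : ℝ) 12) :
    (M t % 6 = 3 → 1 ∈ Q t ∧ 2 ∈ Q t) ∧ (M t % 6 = 5 → 0 ∈ Q t ∧ 2 ∈ Q t) ∧
      ((M t % 6 = 3 ∨ M t % 6 = 4 ∨ M t % 6 = 5) → 2 ∈ Q t) := by
  have h0 := H.res t ht 0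
  have h1 := H.res t ht 1
  have h2 := H.res t ht 2
  simp [Res] at h0 h1 h2
  refine ⟨fun h => ⟨h1.2 (by omega), h2.2 (by omega)⟩, fun h => ⟨h0.2 (by omega), h2.2 (by omega)⟩,
    fun h => h2.2 (by omega)⟩

/-- the change in the plane -/
theorem of_res (F : Fr928 U T z a b c d e f u0 α) {M : ℝ → ℤ} {N m0 : ℤ}
    (H : Hts928 (fun t => Q3 T z a b c d e f (pt z (u0 - 3 + t))) M α N m0) {t : ℝ} {r : ℤ}
    (ht : t ∈ Ioo (3 + α) (9 : ℝ)) (hr : r = 3 ∧ l = f ∨ r = 5 ∧ l = e) (h : M t % 6 = r) :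
    pt z (u0 - 3 + t) ∈ closure (Ex T z {c, d}) ∧ l ∈ T (pt z (u0 - 3 + t)) := by
  have hpos := F.pos
  have ht0 : t ∈ Ioo (0 : ℝ) 12 := ⟨by linarith [ht.1], by linarith [ht.2]⟩
  obtain ⟨h1, h2, -⟩ := res_change H ht0
  have h3 : u0 + (t - 3) = u0 - 3 + t := by ring
  have h4 := F.only (t - 3) ⟨by linarith [ht.1], by linarith [ht.2]⟩
  rw [h3] at h4
  rcases hr with ⟨rfl, rfl⟩ | ⟨rfl, rfl⟩
  · obtain ⟨h5, h6⟩ := h1 h
    exact ⟨(Q3_two.1 h6).resolve_left h4, (Q3_one.1 h5).2⟩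
  · obtain ⟨h5, h6⟩ := h2 h
    exact ⟨(Q3_two.1 h6).resolve_left h4, (Q3_zero.1 h5).2⟩

/-- **window** -/
theorem win (F : Fr928 U T z a b c d e f u0 α) (hl : l = e ∨ l = f) (φ : ℝ) :
    ∃ y ∈ closure (Ex T z {c, d}), l ∈ T y ∧ y ∉ pt z '' Icc φ (φ + 1) := by
  by_contra hcon
  push Not at hcon
  obtain ⟨M, N, m0, H⟩ := F.hts
  obtain ⟨r, hr⟩ : ∃ r : ℤ, r = 3 ∧ l = f ∨ r = 5 ∧ l = e := by
    rcases hl with rfl | rfl
    · exact ⟨5, Or.inr ⟨rfl, rfl⟩⟩
    · exact ⟨3, Or.inl ⟨rfl, rfl⟩⟩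
  have hr' : r = 3 ∨ r = 5 := hr.imp And.left And.left
  have hpos := F.pos
  -- normalise the window
  set x := φ - u0 + 3 with hx
  set k := ⌈(x - 8) / 6⌉ with hk
  have k1 : (x - 8) / 6 ≤ k := Int.le_ceil _
  have k2 : (k : ℝ) < (x - 8) / 6 + 1 := Int.ceil_lt_add_one _
  refine H.win F.pos F.le hr' (φ := x - 6 * k) (by linarith) (by linarith) fun t ht hres => ?_
  obtain ⟨h1, h2⟩ := F.of_res H ht hr hres
  obtain ⟨w, hw, hwt⟩ := hcon _ h1 h2
  obtain ⟨n, hn⟩ := pt_inj460 hwt.symm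
  have h3 : t = w - u0 + 3 + n * 6 := by linarith
  have h4 : x + n * 6 ≤ t := by linarith [hw.1]
  have h5 : t ≤ x + 1 + n * 6 := by linarith [hw.2]
  have h6 : (-1 : ℝ) < n + k := by
    by_contra h7
    push Not at h7
    have : t ≤ 3 := by linarith
    linarith [ht.1]
  have h7 : ((n + k : ℤ) : ℝ) < 2 := by
    push_cast
    by_contra h8
    push Not at h8
    linarith [ht.2]
  have h8 : -1 < n + k := by exact_mod_cast h6
  have h9 : n + k < 2 := by exact_mod_cast h7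
  have h10 : n + k = 0 ∨ n + k = 1 := by omega
  rcases h10 with h10 | h10
  · left
    have h11 : (n : ℝ) = -k := by
      have : ((n + k : ℤ) : ℝ) = 0 := by exact_mod_cast h10
      push_cast at this
      linarith
    rw [h11] at h4 h5
    constructor <;> linarith
  · right
    have h11 : (n : ℝ) = 1 - k := by
      have : ((n + k : ℤ) : ℝ) = 1 := by exact_mod_cast h10
      push_cast at this
      linarith
    rw [h11] at h4
    linarith

/-- **opposite directions** -/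
theorem opp (F : Fr928 U T z a b c d e f u0 α) (hl : l = e ∨ l = f)
    (hRR : ∀ y y', y ∈ closure (Ex T z {c, d}) → y' ∈ closure (Ex T z {c, d}) → dist y y' = 1 →
      y ∉ closure (Ex T z {a, b}) → y' ∉ closure (Ex T z {a, b}) → False) (ψ : ℝ) :
    ∃ y ∈ closure (Ex T z {c, d}), l ∈ T y ∧ y ≠ pt z ψ ∧ y ≠ pt z (ψ + 3) := by
  by_contra hcon
  push Not at hcon
  obtain ⟨M, N, m0, H⟩ := F.hts
  obtain ⟨r, hr⟩ : ∃ r : ℤ, r = 3 ∧ l = f ∨ r = 5 ∧ l = e := by
    rcases hl with rfl | rfl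
    · exact ⟨5, Or.inr ⟨rfl, rfl⟩⟩
    · exact ⟨3, Or.inl ⟨rfl, rfl⟩⟩
  have hr' : r = 3 ∨ r = 5 := hr.imp And.left And.left
  have hpos := F.pos
  have hle := F.le
  -- all changes are congruent mod 3
  set x := ψ - u0 + 3 with hx
  have hall : ∀ t ∈ Ioo (3 + α) (9 : ℝ), M t % 6 = r → ∃ n : ℤ, t = x + 3 * n := by
    intro t ht hres
    obtain ⟨h1, h2⟩ := F.of_res H ht hr hres
    by_cases h3 : pt z (u0 - 3 + t) = pt z ψ
    · obtain ⟨n, hn⟩ := pt_inj460 h3
      refine ⟨2 * n, ?_⟩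
      push_cast
      linarith
    · obtain ⟨n, hn⟩ := pt_inj460 (hcon _ h1 h2 h3)
      refine ⟨2 * n + 1, ?_⟩
      push_cast
      linarith
  -- the first candidate
  set k := ⌊((3 + α) - x) / 3⌋ + 1 with hk
  have k1 : ((3 + α) - x) / 3 < k := by
    rw [hk]; push_cast; exact Int.lt_floor_add_one _
  have k2 : (k : ℝ) ≤ ((3 + α) - x) / 3 + 1 := by
    rw [hk]; push_cast
    have := Int.floor_le (((3 + α) - x) / 3)
    linarith
  set t1 := x + 3 * k with ht1
  have a1 : 3 + α < t1 := by linarith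
  have a2 : t1 ≤ 6 + α := by linarith
  have hall2 : ∀ t ∈ Ioo (3 + α) (9 : ℝ), M t % 6 = r → t = t1 ∨ t = t1 + 3 := by
    intro t ht hres
    obtain ⟨n, hn⟩ := hall t ht hres
    have b1 : (k : ℝ) - 1 < n := by
      by_contra h
      push Not at h
      have : t ≤ x + 3 * (k - 1) := by rw [hn]; linarith
      linarith [ht.1]
    have b2 : (n : ℝ) < k + 2 := by
      by_contra h
      push Not at h
      have : x + 3 * (k + 2) ≤ t := by rw [hn]; linarith
      linarith [ht.2]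
    have c1 : k - 1 < n := by exact_mod_cast b1
    have c2 : n < k + 2 := by exact_mod_cast b2
    have c3 : n = k ∨ n = k + 1 := by omega
    rcases c3 with rfl | rfl
    · left; rw [hn]
    · right; rw [hn, ht1]; push_cast; ring
  rcases lt_or_ge (t1 + 3) 9 with h9 | h9
  · refine H.opp F.pos hr' (fun t ht hc => ?_) a1 h9 hall2
    have ht0 : t ∈ Ioo (0 : ℝ) 12 := ⟨by linarith [ht.1], by linarith [ht.2]⟩
    have ht1' : t + 1 ∈ Ioo (0 : ℝ) 12 := ⟨by linarith [ht.1], by linarith [ht.2]⟩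
    have g1 := (res_change H ht0).2.2 hc.1
    have g2 := (res_change H ht1').2.2 hc.2
    have h3 : u0 + (t - 3) = u0 - 3 + t := by ring
    have h3' : u0 + (t - 2) = u0 - 3 + (t + 1) := by ring
    have h4 := F.only (t - 3) ⟨by linarith [ht.1], by linarith [ht.2]⟩
    have h4' := F.only (t - 2) ⟨by linarith [ht.1], by linarith [ht.2]⟩
    rw [h3] at h4
    rw [h3'] at h4'
    have h5 : dist (pt z (u0 - 3 + t)) (pt z (u0 - 3 + (t + 1))) = 1 := by
      have := dist_pt_one z (u0 - 3 + t)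
      rwa [add_assoc] at this
    exact hRR _ _ ((Q3_two.1 g1).resolve_left h4) ((Q3_two.1 g2).resolve_left h4') h5 h4 h4'
  · -- only one change off the arc
    refine H.win F.pos F.le hr' (φ := min t1 8) (lt_min (by linarith) (by norm_num))
      (min_le_right _ _) fun t ht hres => ?_
    left
    rcases hall2 t ht hres with h1 | h1
    · rw [h1]
      refine ⟨min_le_left _ _, ?_⟩
      rcases le_total t1 8 with h2 | h2
      · rw [min_eq_left h2]; linarith
      · rw [min_eq_right h2]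
        rw [h1] at ht
        linarith [ht.2]
    · exfalso
      linarith [ht.2]

end Fr928

end Vale.Agent.P032.H460
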